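import Mathlib

/-!
# The trace argument (package RRK-TR, abstract part)

`X` compact Hausdorff, second countable, with a finite Borel measure `μ`; `V` finite-dimensional.
A Banach space `B` of continuous functions is given by `j : B →L[ℂ] C(X, V)`. A kernel operator with
values in `B` is given by `κ : C(X, U →L[ℂ] B)`:
`bop μ κ u = ∫ κ(y) (u y) ∂μ y`. Its trace (for `U = V`) is `btr μ j κ = ∫ tr (v ↦ j (κ x v) x) ∂μ x`.

* `btr_comm`: cyclicity of the trace;
* `btr_finrank`: the trace of a finite rank operator;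
* `tendsto_btr`: continuity of the trace under strong convergence;
* `str_eq`: the alternating sum of the traces of a smoothing chain map homotopic to the identity of
  a three term complex is the Euler characteristic.
-/

open MeasureTheory Topology Filter

set_option linter.unusedSectionVars false

noncomputable section

namespace Vale.Agent.P267.H221

variable {X : Type*} [TopologicalSpace X] [CompactSpace X] [T2Space X]
  [SecondCountableTopology X] [MeasurableSpace X] [BorelSpace X]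
variable (μ : Measure X) [IsFiniteMeasure μ]

theorem integ_cont {E : Type*} [NormedAddCommGroup E] {f : X → E} (hf : Continuous f) :
    Integrable f μ :=
  hf.integrable_of_hasCompactSupport (HasCompactSupport.of_compactSpace _)

section bop

variable {U : Type*} [NormedAddCommGroup U] [NormedSpace ℂ U]
variable {B B' : Type*} [NormedAddCommGroup B] [NormedSpace ℂ B]
  [NormedAddCommGroup B'] [NormedSpace ℂ B']

/-- The operator `u ↦ ∫ κ(y) (u y) ∂μ y`. -/
def bop (κ : C(X, U →L[ℂ] B)) : C(X, U) →L[ℂ] B :=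
  LinearMap.mkContinuous
    { toFun := fun u => ∫ y, κ y (u y) ∂μ
      map_add' := fun u v => by
        have h1 : Integrable (fun y => κ y (u y)) μ := integ_cont μ (by fun_prop)
        have h2 : Integrable (fun y => κ y (v y)) μ := integ_cont μ (by fun_prop)
        simpa using integral_add h1 h2
      map_smul' := fun c u => by simpa using integral_smul c (fun y => κ y (u y)) }
    (‖κ‖ * μ.real Set.univ) (fun u => by
      have := norm_integral_le_of_norm_le_const (μ := μ) (f := fun y => κ y (u y))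
        (C := ‖κ‖ * ‖u‖) (Filter.Eventually.of_forall fun y =>
          ((κ y).le_opNorm _).trans (mul_le_mul (κ.norm_coe_le_norm y)
            (u.norm_coe_le_norm _) (norm_nonneg _) (norm_nonneg κ)))
      calc ‖∫ y, κ y (u y) ∂μ‖ ≤ ‖κ‖ * ‖u‖ * μ.real Set.univ := this
        _ = ‖κ‖ * μ.real Set.univ * ‖u‖ := by ring)

theorem bop_apply (κ : C(X, U →L[ℂ] B)) (u : C(X, U)) : bop μ κ u = ∫ y, κ y (u y) ∂μ := rfl

/-- left multiplication of a kernel by an operator -/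
def post (T : B →L[ℂ] B') (κ : C(X, U →L[ℂ] B)) : C(X, U →L[ℂ] B') :=
  ⟨fun y => T.comp (κ y), continuous_const.clm_comp κ.continuous⟩

@[simp] theorem post_apply (T : B →L[ℂ] B') (κ : C(X, U →L[ℂ] B)) (y : X) (u : U) :
    post T κ y u = T (κ y u) := rfl

theorem bop_post [CompleteSpace B] [CompleteSpace B'] (T : B →L[ℂ] B') (κ : C(X, U →L[ℂ] B))
    (u : C(X, U)) : bop μ (post T κ) u = T (bop μ κ u) := by
  have h : Integrable (fun y => κ y (u y)) μ := integ_cont μ (by fun_prop)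
  exact T.integral_comp_comm h

end bop

section btr

variable {V W : Type*}
  [NormedAddCommGroup V] [NormedSpace ℂ V] [FiniteDimensional ℂ V]
  [NormedAddCommGroup W] [NormedSpace ℂ W] [FiniteDimensional ℂ W]
variable {B B' : Type*} [NormedAddCommGroup B] [NormedSpace ℂ B] [CompleteSpace B]
  [NormedAddCommGroup B'] [NormedSpace ℂ B'] [CompleteSpace B']

/-- the trace as a continuous linear functional on `V →L[ℂ] V` -/
def trC (V : Type*) [NormedAddCommGroup V] [NormedSpace ℂ V] [FiniteDimensional ℂ V] :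
    (V →L[ℂ] V) →L[ℂ] ℂ :=
  LinearMap.toContinuousLinearMap
    ((LinearMap.trace ℂ V).comp (ContinuousLinearMap.coeLM ℂ : (V →L[ℂ] V) →ₗ[ℂ] (V →ₗ[ℂ] V)))

theorem trC_apply (f : V →L[ℂ] V) : trC V f = LinearMap.trace ℂ V (f : V →ₗ[ℂ] V) := rfl

theorem trC_comm (f : V →L[ℂ] W) (g : W →L[ℂ] V) : trC W (f.comp g) = trC V (g.comp f) := by
  simp only [trC_apply, ContinuousLinearMap.toLinearMap_comp]
  exact LinearMap.trace_comp_comm' _ _

theorem trC_eq_sum (f : V →L[ℂ] V) :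
    trC V f = ∑ i, (Module.finBasis ℂ V).coord i (f (Module.finBasis ℂ V i)) := by
  rw [trC_apply, LinearMap.trace_eq_matrix_trace ℂ (Module.finBasis ℂ V)]
  simp [Matrix.trace, LinearMap.toMatrix_apply]

theorem tendsto_trC {f : ℕ → (V →L[ℂ] V)} {g : V →L[ℂ] V}
    (h : ∀ v, Tendsto (fun n => f n v) atTop (𝓝 (g v))) :
    Tendsto (fun n => trC V (f n)) atTop (𝓝 (trC V g)) := by
  simp only [trC_eq_sum]
  refine tendsto_finsetSum _ fun i _ => ?_
  have hc : Continuous ((Module.finBasis ℂ V).coord i) := LinearMap.continuous_of_finiteDimensional _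
  exact (hc.tendsto _).comp (h _)

/-- the value `v ↦ j (κ y v) x` of the kernel -/
def kval {U : Type*} [NormedAddCommGroup U] [NormedSpace ℂ U] (j : B →L[ℂ] C(X, V))
    (κ : C(X, U →L[ℂ] B)) (x y : X) : U →L[ℂ] V :=
  (ContinuousMap.evalCLM ℂ x : C(X, V) →L[ℂ] V).comp (j.comp (κ y))

@[simp] theorem kval_apply {U : Type*} [NormedAddCommGroup U] [NormedSpace ℂ U]
    (j : B →L[ℂ] C(X, V)) (κ : C(X, U →L[ℂ] B)) (x y : X) (u : U) :
    kval j κ x y u = j (κ y u) x := rfl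

theorem continuous_kval (j : B →L[ℂ] C(X, V)) (κ : C(X, W →L[ℂ] B)) :
    Continuous fun p : X × X => kval j κ p.1 p.2 := by
  rw [continuous_clm_apply]
  intro w
  have h1 : Continuous fun p : X × X => j (κ p.2 w) := by fun_prop
  exact h1.eval continuous_fst

/-- The trace of a kernel. -/
def btr (j : B →L[ℂ] C(X, V)) (κ : C(X, V →L[ℂ] B)) : ℂ := ∫ x, trC V (kval j κ x x) ∂μ

theorem integrable_btr (j : B →L[ℂ] C(X, V)) (κ : C(X, V →L[ℂ] B)) :
    Integrable (fun x => trC V (kval j κ x x)) μ :=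
  integ_cont μ ((trC V).continuous.comp ((continuous_kval j κ).comp
    (continuous_id.prodMk continuous_id)))

theorem btr_add (j : B →L[ℂ] C(X, V)) (κ κ' : C(X, V →L[ℂ] B)) :
    btr μ j (κ + κ') = btr μ j κ + btr μ j κ' := by
  rw [btr, btr, btr, ← integral_add (integrable_btr μ j κ) (integrable_btr μ j κ')]
  refine integral_congr_ae (Filter.Eventually.of_forall fun x => ?_)
  simp only
  rw [← map_add]
  congr 1
  ext v
  simp

theorem kval_bop (j : B →L[ℂ] C(X, V)) (j' : B' →L[ℂ] C(X, W)) (κ : C(X, V →L[ℂ] B'))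
    (l : C(X, W →L[ℂ] B)) (x : X) :
    trC W (kval j' (post ((bop μ κ).comp j) l) x x) =
      ∫ z, trC W ((kval j' κ x z).comp (kval j l z x)) ∂μ := by
  have hc : Continuous fun z => (kval j' κ x z).comp (kval j l z x) :=
    ((continuous_kval j' κ).comp (continuous_const.prodMk continuous_id)).clm_comp
      ((continuous_kval j l).comp (continuous_id.prodMk continuous_const))
  rw [(trC W).integral_comp_comm (integ_cont μ hc)]
  congr 1
  ext w
  have h1 : (∫ z, (kval j' κ x z).comp (kval j l z x) ∂μ) w =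
      ∫ z, (kval j' κ x z) (kval j l z x w) ∂μ := by
    have := (ContinuousLinearMap.apply ℂ W w).integral_comp_comm (integ_cont μ hc)
    simpa using this.symm
  rw [h1]
  simp only [kval_apply, post_apply, ContinuousLinearMap.comp_apply, bop_apply]
  have h2 : Integrable (fun z => κ z ((j (l x w)) z)) μ := integ_cont μ (by fun_prop)
  have := ((ContinuousMap.evalCLM ℂ x : C(X, W) →L[ℂ] W).comp j').integral_comp_comm h2
  simpa using this.symm

/-- Cyclicity of the trace. -/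
theorem btr_comm (j : B →L[ℂ] C(X, V)) (j' : B' →L[ℂ] C(X, W)) (κ : C(X, V →L[ℂ] B'))
    (l : C(X, W →L[ℂ] B)) :
    btr μ j' (post ((bop μ κ).comp j) l) = btr μ j (post ((bop μ l).comp j') κ) := by
  rw [btr, btr]
  simp only [kval_bop]
  rw [integral_integral_swap]
  · refine integral_congr_ae (Filter.Eventually.of_forall fun x => ?_)
    refine integral_congr_ae (Filter.Eventually.of_forall fun z => ?_)
    exact trC_comm _ _
  · refine integ_cont (μ.prod μ)
      (f := fun p : X × X => trC W ((kval j' κ p.1 p.2).comp (kval j l p.2 p.1))) ?_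
    exact (trC W).continuous.comp ((continuous_kval j' κ).clm_comp
      ((continuous_kval j l).comp continuous_swap))

/-- The trace of `(∑ λ_k ⊗ e_k) ∘ κ`. -/
theorem btr_finrank (j : B →L[ℂ] C(X, V)) (κ : C(X, V →L[ℂ] B)) {n : ℕ}
    (e : Fin n → B) (lam : Fin n → (B →L[ℂ] ℂ)) :
    btr μ j (post (∑ k, (lam k).smulRight (e k)) κ) = ∑ k, lam k (bop μ κ (j (e k))) := by
  have h : ∀ x, trC V (kval j (post (∑ k, (lam k).smulRight (e k)) κ) x x) =
      ∑ k, lam k (κ x (j (e k) x)) := by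
    intro x
    have h1 : kval j (post (∑ k, (lam k).smulRight (e k)) κ) x x =
        ∑ k, ((lam k).comp (κ x)).smulRight (j (e k) x) := by
      ext v
      simp [map_sum]
    rw [h1, map_sum]
    refine Finset.sum_congr rfl fun k _ => ?_
    rw [trC_apply]
    have : ((((lam k).comp (κ x)).smulRight (j (e k) x) : V →L[ℂ] V) : V →ₗ[ℂ] V) =
        ((((lam k).comp (κ x) : V →L[ℂ] ℂ) : V →ₗ[ℂ] ℂ)).smulRight (j (e k) x) := rfl
    rw [this, LinearMap.trace_smulRight]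
    rfl
  rw [btr]
  simp only [h]
  rw [integral_finsetSum _ fun k _ => integ_cont μ (by fun_prop)]
  refine Finset.sum_congr rfl fun k _ => ?_
  rw [bop_apply]
  exact (lam k).integral_comp_comm (integ_cont μ (by fun_prop))

/-- Continuity of the trace under strong convergence. -/
theorem tendsto_btr (j : B →L[ℂ] C(X, V)) (κ : C(X, V →L[ℂ] B')) (T : ℕ → (B' →L[ℂ] B))
    (T' : B' →L[ℂ] B) (hT : ∀ b, Tendsto (fun n => T n b) atTop (𝓝 (T' b))) :
    Tendsto (fun n => btr μ j (post (T n) κ)) atTop (𝓝 (btr μ j (post T' κ))) := by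
  obtain ⟨C, hC⟩ : ∃ C, ∀ n, ‖T n‖ ≤ C := by
    refine banach_steinhaus fun b => ?_
    obtain ⟨C, hC⟩ := (hT b).norm.isBoundedUnder_le.bddAbove_range.imp
      (fun C hC => fun n => hC ⟨n, rfl⟩)
    exact ⟨C, hC⟩
  rw [btr]
  simp only [btr]
  refine tendsto_integral_of_dominated_convergence
    (fun _ => ‖trC V‖ * (‖j‖ * (C * ‖κ‖))) ?_ (integrable_const _) ?_ ?_
  · intro n
    exact (integrable_btr μ j (post (T n) κ)).aestronglyMeasurable
  · intro n
    refine Filter.Eventually.of_forall fun x => ?_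
    refine ((trC V).le_opNorm _).trans (mul_le_mul_of_nonneg_left ?_ (norm_nonneg _))
    refine ContinuousLinearMap.opNorm_le_bound _ (by
      have := (norm_nonneg _).trans (hC 0)
      positivity) fun v => ?_
    rw [kval_apply, post_apply]
    calc ‖j (T n (κ x v)) x‖ ≤ ‖j (T n (κ x v))‖ := ContinuousMap.norm_coe_le_norm _ _
      _ ≤ ‖j‖ * ‖T n (κ x v)‖ := j.le_opNorm _
      _ ≤ ‖j‖ * (C * (‖κ‖ * ‖v‖)) := by
        refine mul_le_mul_of_nonneg_left ?_ (norm_nonneg _)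
        refine ((T n).le_opNorm _).trans (mul_le_mul (hC n) ?_ (norm_nonneg _)
          ((norm_nonneg _).trans (hC 0)))
        exact ((κ x).le_opNorm _).trans (mul_le_mul_of_nonneg_right (κ.norm_coe_le_norm x)
          (norm_nonneg _))
      _ = ‖j‖ * (C * ‖κ‖) * ‖v‖ := by ring
  · refine Filter.Eventually.of_forall fun x => ?_
    refine tendsto_trC fun v => ?_
    simp only [kval_apply, post_apply]
    exact (((ContinuousMap.evalCLM ℂ x : C(X, V) →L[ℂ] V).comp j).continuous.tendsto _).comp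
      (hT (κ x v))

end btr

/-! ### one arrow of the complex -/

section arrow

variable {V W : Type*}
  [NormedAddCommGroup V] [NormedSpace ℂ V] [FiniteDimensional ℂ V]
  [NormedAddCommGroup W] [NormedSpace ℂ W] [FiniteDimensional ℂ W]
variable {B B' : Type*} [NormedAddCommGroup B] [NormedSpace ℂ B] [CompleteSpace B]
  [NormedAddCommGroup B'] [NormedSpace ℂ B'] [CompleteSpace B']
variable {A A' : Type*} [AddCommGroup A] [Module ℂ A] [AddCommGroup A'] [Module ℂ A']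

/-- The cancellation between the degrees `q` and `q + 1`. -/
theorem arrow (j : B →L[ℂ] C(X, V)) (j' : B' →L[ℂ] C(X, W)) (i : A →ₗ[ℂ] B) (i' : A' →ₗ[ℂ] B')
    (d : A →ₗ[ℂ] A') (G : B' →L[ℂ] B) (κ' : C(X, W →L[ℂ] B')) (δ : C(X, V →L[ℂ] B'))
    (m : C(X, V →L[ℂ] B)) (dm : C(X, V →L[ℂ] B'))
    (hm : ∀ y v, ∃ a, i a = m y v ∧ i' (d a) = dm y v)
    (hchain : ∀ a, bop μ κ' (j' (i' (d a))) = bop μ δ (j (i a))) :
    btr μ j' (post ((bop μ dm).comp j) (post G κ')) =
      btr μ j (post ((bop μ m).comp j) (post G δ)) := by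
  rw [btr_comm μ j j' dm (post G κ')]
  have h : post ((bop μ (post G κ')).comp j') dm = post ((bop μ (post G δ)).comp j) m := by
    ext y v
    obtain ⟨a, ha, hda⟩ := hm y v
    simp only [post_apply, ContinuousLinearMap.comp_apply, bop_post, ← ha, ← hda, hchain]
  rw [h, btr_comm μ j j (post G δ) m]

end arrow

/-! ### the main theorem -/

section main

variable {V0 V1 V2 : Type*}
  [NormedAddCommGroup V0] [NormedSpace ℂ V0] [FiniteDimensional ℂ V0]
  [NormedAddCommGroup V1] [NormedSpace ℂ V1] [FiniteDimensional ℂ V1]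
  [NormedAddCommGroup V2] [NormedSpace ℂ V2] [FiniteDimensional ℂ V2]
variable {B0 B1 B2 : Type*}
  [NormedAddCommGroup B0] [NormedSpace ℂ B0] [CompleteSpace B0]
  [NormedAddCommGroup B1] [NormedSpace ℂ B1] [CompleteSpace B1]
  [NormedAddCommGroup B2] [NormedSpace ℂ B2] [CompleteSpace B2]
variable {A0 A1 A2 : Type*} [AddCommGroup A0] [Module ℂ A0] [AddCommGroup A1] [Module ℂ A1]
  [AddCommGroup A2] [Module ℂ A2]

/-- the finite rank operator `∑ λ_k ⊗ e_k` -/
abbrev finR {B : Type*} [NormedAddCommGroup B] [NormedSpace ℂ B] {n : ℕ} (e : Fin n → B)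
    (lam : Fin n → (B →L[ℂ] ℂ)) : B →L[ℂ] B := ∑ k, (lam k).smulRight (e k)

/-- limit of the trace of `M_n S` -/
theorem tendsto_mS {V B : Type*} [NormedAddCommGroup V] [NormedSpace ℂ V]
    [FiniteDimensional ℂ V] [NormedAddCommGroup B] [NormedSpace ℂ B] [CompleteSpace B]
    (j : B →L[ℂ] C(X, V)) (m : ℕ → C(X, V →L[ℂ] B))
    (hm : ∀ b, Tendsto (fun n => bop μ (m n) (j b)) atTop (𝓝 b)) (κ : C(X, V →L[ℂ] B)) :
    Tendsto (fun n => btr μ j (post ((bop μ (m n)).comp j) κ)) atTop (𝓝 (btr μ j κ)) := by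
  have h := tendsto_btr μ j κ (fun n => (bop μ (m n)).comp j)
    (ContinuousLinearMap.id ℂ B) (fun b => by simpa using hm b)
  have h2 : post (ContinuousLinearMap.id ℂ B) κ = κ := by ext; rfl
  rwa [h2] at h

theorem tendsto_cS {V B B' : Type*} [NormedAddCommGroup V] [NormedSpace ℂ V]
    [FiniteDimensional ℂ V] [NormedAddCommGroup B] [NormedSpace ℂ B] [CompleteSpace B]
    [NormedAddCommGroup B'] [NormedSpace ℂ B'] [CompleteSpace B']
    (j : B →L[ℂ] C(X, V)) (c : ℕ → (B' →L[ℂ] B)) (G : B →L[ℂ] B')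
    (hc : ∀ b, Tendsto (fun n => c n b) atTop (𝓝 0)) (κ : C(X, V →L[ℂ] B)) :
    Tendsto (fun n => btr μ j (post ((c n).comp G) κ)) atTop (𝓝 0) := by
  have h := tendsto_btr μ j κ (fun n => (c n).comp G) 0 (fun b => by simpa using hc (G b))
  have h0 : btr μ j (post (0 : B →L[ℂ] B) κ) = 0 := by
    have : post (0 : B →L[ℂ] B) κ = 0 := by ext; simp
    rw [this, btr]
    have : ∀ x, trC V (kval j (0 : C(X, V →L[ℂ] B)) x x) = 0 := by
      intro x
      have : kval j (0 : C(X, V →L[ℂ] B)) x x = 0 := by ext; simp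
      rw [this, map_zero]
    simp [this]
  rwa [h0] at h

/-- **Trace theorem.** The alternating sum of the traces of a smoothing chain map which is homotopic
to the identity is the Euler characteristic. -/
theorem str_eq
    -- the complex
    (j0 : B0 →L[ℂ] C(X, V0)) (j1 : B1 →L[ℂ] C(X, V1)) (j2 : B2 →L[ℂ] C(X, V2))
    (i0 : A0 →ₗ[ℂ] B0) (i1 : A1 →ₗ[ℂ] B1) (i2 : A2 →ₗ[ℂ] B2)
    (d0 : A0 →ₗ[ℂ] A1) (d1 : A1 →ₗ[ℂ] A2)
    -- Green operators and finite rank projections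
    (G0 : B1 →L[ℂ] B0) (G1 : B2 →L[ℂ] B1) {n0 n1 n2 : ℕ}
    (e0 : Fin n0 → A0) (e1 : Fin n1 → A1) (e2 : Fin n2 → A2)
    (l0 : Fin n0 → (B0 →L[ℂ] ℂ)) (l1 : Fin n1 → (B1 →L[ℂ] ℂ)) (l2 : Fin n2 → (B2 →L[ℂ] ℂ))
    (hG0 : ∀ a, G0 (i1 (d0 a)) = i0 a - finR (fun k => i0 (e0 k)) l0 (i0 a))
    (hG1 : ∀ a, ∃ g, i0 g = G0 (i1 a) ∧
      i1 (d0 g) + G1 (i2 (d1 a)) = i1 a - finR (fun k => i1 (e1 k)) l1 (i1 a))
    (hG2 : ∀ a, ∃ g, i1 g = G1 (i2 a) ∧
      i2 (d1 g) = i2 a - finR (fun k => i2 (e2 k)) l2 (i2 a))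
    (he0 : ∀ k, d0 (e0 k) = 0) (he1 : ∀ k, d1 (e1 k) = 0)
    (hl1 : ∀ k a, l1 k (i1 (d0 a)) = 0) (hl2 : ∀ k a, l2 k (i2 (d1 a)) = 0)
    (hle0 : ∀ k, l0 k (i0 (e0 k)) = 1) (hle1 : ∀ k, l1 k (i1 (e1 k)) = 1)
    (hle2 : ∀ k, l2 k (i2 (e2 k)) = 1)
    -- the smoothing chain map
    (κ0 : C(X, V0 →L[ℂ] B0)) (κ1 : C(X, V1 →L[ℂ] B1)) (κ2 : C(X, V2 →L[ℂ] B2))
    (δ0 : C(X, V0 →L[ℂ] B1)) (δ1 : C(X, V1 →L[ℂ] B2))
    (hκ0 : ∀ y v, ∃ a, i0 a = κ0 y v ∧ i1 (d0 a) = δ0 y v)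
    (hκ1 : ∀ y v, ∃ a, i1 a = κ1 y v ∧ i2 (d1 a) = δ1 y v)
    (hκ2 : ∀ y v, ∃ a, i2 a = κ2 y v)
    (hch0 : ∀ a, bop μ κ1 (j1 (i1 (d0 a))) = bop μ δ0 (j0 (i0 a)))
    (hch1 : ∀ a, bop μ κ2 (j2 (i2 (d1 a))) = bop μ δ1 (j1 (i1 a)))
    (hS0 : ∀ a, d0 a = 0 → bop μ κ0 (j0 (i0 a)) = i0 a)
    (hS1 : ∀ a, d1 a = 0 → ∃ b, bop μ κ1 (j1 (i1 a)) = i1 a - i1 (d0 b))
    (hS2 : ∀ a, ∃ b, bop μ κ2 (j2 (i2 a)) = i2 a - i2 (d1 b))
    -- mollifiers
    (m0 : ℕ → C(X, V0 →L[ℂ] B0)) (m1 : ℕ → C(X, V1 →L[ℂ] B1)) (m2 : ℕ → C(X, V2 →L[ℂ] B2))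
    (dm0 : ℕ → C(X, V0 →L[ℂ] B1)) (dm1 : ℕ → C(X, V1 →L[ℂ] B2))
    (c0 : ℕ → (B0 →L[ℂ] B1)) (c1 : ℕ → (B1 →L[ℂ] B2))
    (hm0 : ∀ n y v, ∃ a, i0 a = m0 n y v ∧ i1 (d0 a) = dm0 n y v)
    (hm1 : ∀ n y v, ∃ a, i1 a = m1 n y v ∧ i2 (d1 a) = dm1 n y v)
    (hc0 : ∀ n a, bop μ (m1 n) (j1 (i1 (d0 a))) = bop μ (dm0 n) (j0 (i0 a)) + c0 n (i0 a))
    (hc1 : ∀ n a, bop μ (m2 n) (j2 (i2 (d1 a))) = bop μ (dm1 n) (j1 (i1 a)) + c1 n (i1 a))
    (hm0' : ∀ b, Tendsto (fun n => bop μ (m0 n) (j0 b)) atTop (𝓝 b))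
    (hm1' : ∀ b, Tendsto (fun n => bop μ (m1 n) (j1 b)) atTop (𝓝 b))
    (hm2' : ∀ b, Tendsto (fun n => bop μ (m2 n) (j2 b)) atTop (𝓝 b))
    (hc0' : ∀ b, Tendsto (fun n => c0 n b) atTop (𝓝 0))
    (hc1' : ∀ b, Tendsto (fun n => c1 n b) atTop (𝓝 0)) :
    btr μ j0 κ0 - btr μ j1 κ1 + btr μ j2 κ2 = (n0 : ℂ) - n1 + n2 := by
  set Q0 := finR (fun k => i0 (e0 k)) l0 with hQ0
  set Q1 := finR (fun k => i1 (e1 k)) l1 with hQ1
  set Q2 := finR (fun k => i2 (e2 k)) l2 with hQ2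
  -- decomposition of the kernels of `M_n S`
  have dec0 : ∀ n, post ((bop μ (m0 n)).comp j0) κ0 =
      post ((bop μ (m0 n)).comp j0) (post Q0 κ0) +
        post ((bop μ (m0 n)).comp j0) (post G0 δ0) := by
    intro n
    ext y v
    obtain ⟨a, ha, hda⟩ := hκ0 y v
    have h1 : i0 a = Q0 (i0 a) + G0 (i1 (d0 a)) := by rw [hG0 a]; abel
    have h2 := congrArg (fun b => bop μ (m0 n) (j0 b)) h1
    simp only [map_add] at h2
    simp only [ContinuousMap.add_apply, add_apply, post_apply, ContinuousLinearMap.comp_apply,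
      ← ha, ← hda]
    exact h2
  have dec1 : ∀ n, post ((bop μ (m1 n)).comp j1) κ1 =
      post ((bop μ (m1 n)).comp j1) (post Q1 κ1) +
        (post ((bop μ (dm0 n)).comp j0) (post G0 κ1) + post ((c0 n).comp G0) κ1) +
        post ((bop μ (m1 n)).comp j1) (post G1 δ1) := by
    intro n
    ext y v
    obtain ⟨a, ha, hda⟩ := hκ1 y v
    obtain ⟨g, hg, hdg⟩ := hG1 a
    have h1 : i1 a = Q1 (i1 a) + i1 (d0 g) + G1 (i2 (d1 a)) := by
      rw [add_assoc, hdg]; abel
    have h2 := congrArg (fun b => bop μ (m1 n) (j1 b)) h1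
    simp only [map_add, hc0] at h2
    simp only [ContinuousMap.add_apply, add_apply, post_apply, ContinuousLinearMap.comp_apply,
      ← ha, ← hda, ← hg]
    exact h2
  have dec2 : ∀ n, post ((bop μ (m2 n)).comp j2) κ2 =
      post ((bop μ (m2 n)).comp j2) (post Q2 κ2) +
        (post ((bop μ (dm1 n)).comp j1) (post G1 κ2) + post ((c1 n).comp G1) κ2) := by
    intro n
    ext y v
    obtain ⟨a, ha⟩ := hκ2 y v
    obtain ⟨g, hg, hdg⟩ := hG2 a
    have h1 : i2 a = Q2 (i2 a) + i2 (d1 g) := by rw [hdg]; abel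
    have h2 := congrArg (fun b => bop μ (m2 n) (j2 b)) h1
    simp only [map_add, hc1] at h2
    simp only [ContinuousMap.add_apply, add_apply, post_apply, ContinuousLinearMap.comp_apply,
      ← ha, ← hg]
    exact h2
  -- the traces of the finite rank parts
  have tr0 : btr μ j0 (post Q0 κ0) = n0 := by
    rw [hQ0, btr_finrank]
    simp [hS0 _ (he0 _), hle0]
  have tr1 : btr μ j1 (post Q1 κ1) = n1 := by
    rw [hQ1, btr_finrank]
    have : ∀ k, l1 k (bop μ κ1 (j1 (i1 (e1 k)))) = 1 := by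
      intro k
      obtain ⟨b, hb⟩ := hS1 _ (he1 k)
      rw [hb, map_sub, hle1, hl1, sub_zero]
    simp [this]
  have tr2 : btr μ j2 (post Q2 κ2) = n2 := by
    rw [hQ2, btr_finrank]
    have : ∀ k, l2 k (bop μ κ2 (j2 (i2 (e2 k)))) = 1 := by
      intro k
      obtain ⟨b, hb⟩ := hS2 (e2 k)
      rw [hb, map_sub, hle2, hl2, sub_zero]
    simp [this]
  -- cancellation
  have ar0 : ∀ n, btr μ j1 (post ((bop μ (dm0 n)).comp j0) (post G0 κ1)) =
      btr μ j0 (post ((bop μ (m0 n)).comp j0) (post G0 δ0)) := fun n =>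
    arrow μ j0 j1 i0 i1 d0 G0 κ1 δ0 (m0 n) (dm0 n) (hm0 n) hch0
  have ar1 : ∀ n, btr μ j2 (post ((bop μ (dm1 n)).comp j1) (post G1 κ2)) =
      btr μ j1 (post ((bop μ (m1 n)).comp j1) (post G1 δ1)) := fun n =>
    arrow μ j1 j2 i1 i2 d1 G1 κ2 δ1 (m1 n) (dm1 n) (hm1 n) hch1
  have key : ∀ n, btr μ j0 (post ((bop μ (m0 n)).comp j0) κ0) -
      btr μ j1 (post ((bop μ (m1 n)).comp j1) κ1) +
      btr μ j2 (post ((bop μ (m2 n)).comp j2) κ2) =
      btr μ j0 (post ((bop μ (m0 n)).comp j0) (post Q0 κ0)) -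
      (btr μ j1 (post ((bop μ (m1 n)).comp j1) (post Q1 κ1)) +
        btr μ j1 (post ((c0 n).comp G0) κ1)) +
      (btr μ j2 (post ((bop μ (m2 n)).comp j2) (post Q2 κ2)) +
        btr μ j2 (post ((c1 n).comp G1) κ2)) := by
    intro n
    rw [dec0, dec1, dec2]
    simp only [btr_add, ar0, ar1]
    ring
  -- limits
  have L := ((tendsto_mS μ j0 m0 hm0' κ0).sub (tendsto_mS μ j1 m1 hm1' κ1)).add
    (tendsto_mS μ j2 m2 hm2' κ2)
  have R := ((tendsto_mS μ j0 m0 hm0' (post Q0 κ0)).sub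
    ((tendsto_mS μ j1 m1 hm1' (post Q1 κ1)).add (tendsto_cS μ j1 c0 G0 hc0' κ1))).add
    ((tendsto_mS μ j2 m2 hm2' (post Q2 κ2)).add (tendsto_cS μ j2 c1 G1 hc1' κ2))
  have := tendsto_nhds_unique L (R.congr fun n => (key n).symm)
  rw [this, tr0, tr1, tr2]
  ring

end main

end Vale.Agent.P267.H221
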