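import Vale.Agent.P267.H221.Moll5
import Vale.Agent.P267.H221.Trace
import Vale.Agent.P267.H285.Coh

/-!
# P267, package RR: the Euler characteristic is the integral of the trace density
-/

set_option linter.unusedVariables false
set_option linter.unusedSectionVars false

open scoped Manifold ContDiff ComplexConjugate Matrix Topology
open MeasureTheory Set Filter

noncomputable section

namespace Vale.Agent.P267.H221

open Vale.Agent.P267.H285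

variable {X : Type*} [TopologicalSpace X] [CompactSpace X] [T2Space X]
  [SecondCountableTopology X] [MeasurableSpace X] [BorelSpace X]

theorem continuous_btr {V : Type*}
    [NormedAddCommGroup V] [NormedSpace ℂ V] [FiniteDimensional ℂ V] {B : Type*}
    [NormedAddCommGroup B] [NormedSpace ℂ B] [CompleteSpace B]
    (j : B →L[ℂ] C(X, V)) (κ : C(X, V →L[ℂ] B)) :
    Continuous fun x => trC V (kval j κ x x) :=
  (trC V).continuous.comp ((continuous_kval j κ).comp (continuous_id.prodMk continuous_id))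

theorem finR_map {M B : Type*} [AddCommGroup M] [Module ℂ M]
    [NormedAddCommGroup B] [NormedSpace ℂ B] (i : M →ₗ[ℂ] B) {n : ℕ} (e : Fin n → M)
    (l : Fin n → (B →L[ℂ] ℂ)) (x : B) :
    finR (fun k => i (e k)) l x = i (∑ k, l k x • e k) := by
  rw [map_sum]
  simp [finR]

/-- the alternating sum of the traces, for the complex of Banach spaces `C` -/
theorem str_cplx (μ : Measure X) [IsFiniteMeasure μ] {V0 V1 V2 : Type*}
    [NormedAddCommGroup V0] [NormedSpace ℂ V0] [FiniteDimensional ℂ V0]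
    [NormedAddCommGroup V1] [NormedSpace ℂ V1] [FiniteDimensional ℂ V1]
    [NormedAddCommGroup V2] [NormedSpace ℂ V2] [FiniteDimensional ℂ V2]
    {B0 B1 B2 : Type*} [NormedAddCommGroup B0] [NormedSpace ℂ B0] [CompleteSpace B0]
    [NormedAddCommGroup B1] [NormedSpace ℂ B1] [CompleteSpace B1]
    [NormedAddCommGroup B2] [NormedSpace ℂ B2] [CompleteSpace B2]
    {A0 A1 A2 : Type*} [AddCommGroup A0] [Module ℂ A0] [AddCommGroup A1] [Module ℂ A1]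
    [AddCommGroup A2] [Module ℂ A2]
    (C : PComplex ℂ A0 A1 A2 B0 B1 B2)
    (j0 : B0 →L[ℂ] C(X, V0)) (j1 : B1 →L[ℂ] C(X, V1)) (j2 : B2 →L[ℂ] C(X, V2))
    (i0 : A0 →ₗ[ℂ] B0) (i1 : A1 →ₗ[ℂ] B1) (i2 : A2 →ₗ[ℂ] B2)
    (d0 : A0 →ₗ[ℂ] A1) (d1 : A1 →ₗ[ℂ] A2)
    (hi0 : C.i0 = i0) (hi1 : C.i1 = i1) (hi2 : C.i2 = i2) (hd0 : C.d0 = d0) (hd1 : C.d1 = d1)
    -- the smoothing chain map
    (κ0 : C(X, V0 →L[ℂ] B0)) (κ1 : C(X, V1 →L[ℂ] B1)) (κ2 : C(X, V2 →L[ℂ] B2))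
    (δ0 : C(X, V0 →L[ℂ] B1)) (δ1 : C(X, V1 →L[ℂ] B2))
    (hκ0 : ∀ y v, ∃ a, i0 a = κ0 y v ∧ i1 (d0 a) = δ0 y v)
    (hκ1 : ∀ y v, ∃ a, i1 a = κ1 y v ∧ i2 (d1 a) = δ1 y v)
    (hκ2 : ∀ y v, ∃ a, i2 a = κ2 y v)
    (hch0 : ∀ a, bop μ κ1 (j1 (i1 (d0 a))) = bop μ δ0 (j0 (i0 a)))
    (hch1 : ∀ a, bop μ κ2 (j2 (i2 (d1 a))) = bop μ δ1 (j1 (i1 a)))
    (hS0 : ∀ a, d0 a = 0 → bop μ κ0 (j0 (i0 a)) = i0 a)
    (hS1 : ∀ a, d1 a = 0 → ∃ b, bop μ κ1 (j1 (i1 a)) = i1 a - i1 (d0 b))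
    (hS2 : ∀ a, ∃ b, bop μ κ2 (j2 (i2 a)) = i2 a - i2 (d1 b))
    -- mollifiers
    (m0 : ℕ → C(X, V0 →L[ℂ] B0)) (m1 : ℕ → C(X, V1 →L[ℂ] B1)) (m2 : ℕ → C(X, V2 →L[ℂ] B2))
    (dm0 : ℕ → C(X, V0 →L[ℂ] B1)) (dm1 : ℕ → C(X, V1 →L[ℂ] B2))
    (c0 : ℕ → (B0 →L[ℂ] B1)) (c1 : ℕ → (B1 →L[ℂ] B2))
    (hm0 : ∀ n y v, ∃ a, i0 a = m0 n y v ∧ i1 (d0 a) = dm0 n y v)
    (hm1 : ∀ n y v, ∃ a, i1 a = m1 n y v ∧ i2 (d1 a) = dm1 n y v)
    (hc0 : ∀ n a, bop μ (m1 n) (j1 (i1 (d0 a))) = bop μ (dm0 n) (j0 (i0 a)) + c0 n (i0 a))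
    (hc1 : ∀ n a, bop μ (m2 n) (j2 (i2 (d1 a))) = bop μ (dm1 n) (j1 (i1 a)) + c1 n (i1 a))
    (hm0' : ∀ b, Tendsto (fun n => bop μ (m0 n) (j0 b)) atTop (𝓝 b))
    (hm1' : ∀ b, Tendsto (fun n => bop μ (m1 n) (j1 b)) atTop (𝓝 b))
    (hm2' : ∀ b, Tendsto (fun n => bop μ (m2 n) (j2 b)) atTop (𝓝 b))
    (hc0' : ∀ b, Tendsto (fun n => c0 n b) atTop (𝓝 0))
    (hc1' : ∀ b, Tendsto (fun n => c1 n b) atTop (𝓝 0)) :
    btr μ j0 κ0 - btr μ j1 κ1 + btr μ j2 κ2 =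
      (Module.finrank ℂ (LinearMap.ker d0) : ℂ) -
      (Module.finrank ℂ (↥(LinearMap.ker d1) ⧸
        (LinearMap.range d0).comap (LinearMap.ker d1).subtype) : ℂ) +
      (Module.finrank ℂ (A2 ⧸ LinearMap.range d1) : ℂ) := by
  subst hi0 hi1 hi2 hd0 hd1
  obtain ⟨h⟩ := C.exists_hodge
  obtain ⟨e0, l0, hL0, hle0, hde0, -⟩ := h.exists_bases0
  obtain ⟨e1, l1, hL1, hle1, hde1, hld1, -⟩ := h.exists_bases1
  obtain ⟨e2, l2, hL2, hle2, hld2, -⟩ := h.exists_bases2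
  refine str_eq μ j0 j1 j2 C.i0 C.i1 C.i2 C.d0 C.d1
    h.G0 h.G1 e0 e1 e2 l0 l1 l2 ?_ ?_ ?_ hde0 hde1 hld1 hld2 ?_ ?_ ?_ κ0 κ1 κ2 δ0 δ1
    hκ0 hκ1 hκ2 hch0 hch1 hS0 hS1 hS2 m0 m1 m2 dm0 dm1 c0 c1 hm0 hm1 hc0 hc1 hm0' hm1' hm2'
    hc0' hc1'
  · -- hG0
    intro a
    rw [finR_map, ← hL0, ← h.iG0, h.eq0, map_sub]
  · -- hG1
    intro a
    refine ⟨h.G0A a, h.iG0 a, ?_⟩
    rw [finR_map, ← hL1, ← h.iG1, ← map_add, h.eq1, map_sub]
  · -- hG2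
    intro a
    refine ⟨h.G1A a, h.iG1 a, ?_⟩
    rw [finR_map, ← hL2, h.eq2, map_sub]
  · intro k; rw [hle0, if_pos rfl]
  · intro k; rw [hle1, if_pos rfl]
  · intro k; rw [hle2, if_pos rfl]

end Vale.Agent.P267.H221

namespace Vale.Agent.P267.RR

open FL H439 H285

variable {X : Type*} [TopologicalSpace X] [ChartedSpace C2 X] [CompactSpace X] {A : FinAt X}

section toKW

variable {V : Type} [NormedAddCommGroup V] [NormedSpace ℂ V] [FiniteDimensional ℂ V]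
  {S : SB A V}

/-- the kernel with the weight `r` -/
def Kern.toKW (k : Kern S) : KW S V where
  k a b z w := (A.r b w : ℂ) • k.k a b z w
  smooth a b v := by
    have h1 : ContDiff ℝ ∞ fun p : C2 × C2 => ((A.r b p.2 : ℝ) : ℂ) :=
      (Complex.ofRealCLM.contDiff.comp (FinAt.r_contDiff b)).comp contDiff_snd
    exact h1.contDiffOn.smul (k.smooth a b v)
  compat a a' b z hz w hw v := by
    simp only [smul_apply, map_smul, k.compat a a' b z hz w hw v]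

variable [CompleteSpace V]

theorem Kern.toKW_app (k : Kern S) (u : S.Sec) : (k.toKW.app (S.res u)).1 = k.op u.1 := by
  funext a z
  by_cases hz : z ∈ A.O a
  · rw [KW.app_sum S _ _ hz]
    unfold Kern.op
    rw [if_pos hz]
    refine Finset.sum_congr rfl fun b _ => ?_
    rw [← setIntegral_eq_integral_of_forall_compl_eq_zero (s := A.K b)
      (f := fun w => (A.r b w : ℂ) • k.k a b z w (u.1 b w))]
    · refine setIntegral_congr_fun (FinAt.isCompact_K b).isClosed.measurableSet fun w hw => ?_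
      rw [extY_eq _ hw]
      rfl
    · intro w hw
      rw [FinAt.r_zero hw]
      simp
  · rw [(k.toKW.app (S.res u)).2.2.1 a z hz]
    simp [Kern.op, hz]

theorem Kern.bop_toKW (k : Kern S) (u : S.Sec) {v : S.Sec} (h : v.1 = k.op u.1) :
    H221.bop A.lam k.toKW.ker (S.j (S.i u)) = S.i v := by
  rw [SB.j_i, KW.bop_ker]
  congr 1
  apply Subtype.ext
  rw [k.toKW_app, h]

theorem Kern.toKW_trace (k : Kern S) (a : Fin A.N) (z : C2) :
    H221.trC V (k.toKW.k a a z z) =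
      (A.r a z : ℂ) * LinearMap.trace ℂ V (k.k a a z z : V →ₗ[ℂ] V) := by
  change H221.trC V ((A.r a z : ℂ) • k.k a a z z) = _
  rw [map_smul, smul_eq_mul, H221.trC_apply]

theorem Kern.integrable_trace (k : Kern S) (a : Fin A.N) :
    Integrable fun z => (A.r a z : ℂ) * LinearMap.trace ℂ V (k.k a a z z : V →ₗ[ℂ] V) := by
  have h1 : ContinuousOn (fun z => H221.trC V (k.toKW.k a a z z)) (A.K a) := by
    intro z hz
    have h := (k.toKW.smoothAt_clm (FinAt.K_sub_O a hz) (FinAt.K_sub_O a hz)).continuousAt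
    have h2 : ContinuousAt (fun z => k.toKW.k a a z z) z :=
      ContinuousAt.comp (g := fun p : C2 × C2 => k.toKW.k a a p.1 p.2)
        (f := fun z : C2 => (z, z)) h (by fun_prop)
    exact ((H221.trC V).continuous.continuousAt.comp h2).continuousWithinAt
  have h2 := h1.integrableOn_compact (FinAt.isCompact_K a) (μ := volume)
  rw [integrableOn_iff_integrable_of_support_subset] at h2
  · refine h2.congr (Filter.Eventually.of_forall fun z => ?_)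
    exact k.toKW_trace a z
  · intro z hz
    by_contra h
    apply hz
    beta_reduce
    rw [k.toKW_trace, FinAt.r_zero h]
    simp

/-- the trace of the operator of a kernel -/
theorem Kern.btr_toKW (k : Kern S) : H221.btr A.lam S.j k.toKW.ker =
    ∑ a, ∫ z, (A.r a z : ℂ) * LinearMap.trace ℂ V (k.k a a z z : V →ₗ[ℂ] V) := by
  have h3 : Continuous fun y : A.Y => H221.trC V (H221.kval S.j k.toKW.ker y y) :=
    H221.continuous_btr S.j k.toKW.ker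
  have h4 : ∀ a, ∀ w, (hw : w ∈ A.K a) →
      H221.trC V (H221.kval S.j k.toKW.ker ⟨(a, w), hw⟩ ⟨(a, w), hw⟩) =
        (A.r a w : ℂ) * LinearMap.trace ℂ V (k.k a a w w : V →ₗ[ℂ] V) := by
    intro a w hw
    rw [← k.toKW_trace]
    congr 1
    ext v
    rw [H221.kval_apply]
    exact k.toKW.ker_eval _ _ _
  have h5 := FinAt.integral_lam A h3
    (fun a w => (A.r a w : ℂ) * LinearMap.trace ℂ V (k.k a a w w : V →ₗ[ℂ] V)) h4
  refine h5.trans ?_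
  refine Finset.sum_congr rfl fun a _ => ?_
  refine setIntegral_eq_integral_of_forall_compl_eq_zero fun z hz => ?_
  rw [FinAt.r_zero hz]
  simp

end toKW

variable [T2Space X] [IsManifold 𝓘(ℂ, C2) ω X] {r : ℕ} {B : Bun A r}

section kers

variable {W : Type} [NormedAddCommGroup W] [NormedSpace ℂ W] [FiniteDimensional ℂ W]

theorem ker_i {V : Type} [NormedAddCommGroup V] [NormedSpace ℂ V] [CompleteSpace V] {S : SB A V}
    (K : KW S W) (y : A.Y) (v : W) : ∃ a, S.i a = K.ker y v :=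
  ⟨K.slice y.1.1 y.1.2 v, (K.ker_apply y v).symm⟩

theorem ker_d0 (K : KW B.sb0 W) (y : A.Y) (v : W) :
    ∃ a, B.sb0.i a = K.ker y v ∧ B.sb1.i (B.d0 a) = K.d0K.ker y v :=
  ⟨K.slice y.1.1 y.1.2 v, (K.ker_apply y v).symm, by
    rw [KW.ker_apply, KW.slice_d0K _ _ _ _ (FinAt.K_sub_O _ y.2)]⟩

theorem ker_d1 (K : KW B.sb1 W) (y : A.Y) (v : W) :
    ∃ a, B.sb1.i a = K.ker y v ∧ B.sb2.i (B.d1 a) = K.d1K.ker y v :=
  ⟨K.slice y.1.1 y.1.2 v, (K.ker_apply y v).symm, by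
    rw [KW.ker_apply, KW.slice_d1K _ _ _ _ (FinAt.K_sub_O _ y.2)]⟩

end kers

namespace Cut

variable (c : Cut A)

theorem hc0 (n : ℕ) (a : B.sb0.Sec) :
    H221.bop A.lam ((c.m n (Fin 2 → Fin r → ℂ)).toKW B.sb1).ker (B.sb1.j (B.sb1.i (B.d0 a))) =
      H221.bop A.lam ((c.m n (Fin r → ℂ)).toKW B.sb0).d0K.ker (B.sb0.j (B.sb0.i a)) +
      (H221.bop A.lam ((c.g0 n r).toKW B.sb1).ker).comp B.sb0.j (B.sb0.i a) := by
  rw [ContinuousLinearMap.comp_apply, SB.j_i, SB.j_i, KW.bop_ker, KW.bop_ker, KW.bop_ker,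
    c.glob0_id n a, map_add, KW.app_d0K]

theorem hc1 (n : ℕ) (a : B.sb1.Sec) :
    H221.bop A.lam ((c.m n (Fin r → ℂ)).toKW B.sb2).ker (B.sb2.j (B.sb2.i (B.d1 a))) =
      H221.bop A.lam ((c.m n (Fin 2 → Fin r → ℂ)).toKW B.sb1).d1K.ker (B.sb1.j (B.sb1.i a)) +
      (H221.bop A.lam ((c.g1 n r).toKW B.sb2).ker).comp B.sb1.j (B.sb1.i a) := by
  rw [ContinuousLinearMap.comp_apply, SB.j_i, SB.j_i, KW.bop_ker, KW.bop_ker, KW.bop_ker,
    c.glob1_id n a, map_add, KW.app_d1K]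

theorem hm {V : Type} [NormedAddCommGroup V] [NormedSpace ℂ V] [FiniteDimensional ℂ V]
    [CompleteSpace V] (S : SB A V) (b : S.Bn) :
    Tendsto (fun n => H221.bop A.lam ((c.m n V).toKW S).ker (S.j b)) atTop (𝓝 b) := by
  refine (c.tendsto_m S b).congr fun n => ?_
  rw [KW.bop_ker]

theorem hc0' (b : B.sb0.Bn) : Tendsto (fun n =>
    (H221.bop A.lam ((c.g0 n r).toKW B.sb1).ker).comp B.sb0.j b) atTop (𝓝 0) := by
  refine (c.tendsto_g0 b).congr fun n => ?_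
  rw [ContinuousLinearMap.comp_apply, KW.bop_ker]

theorem hc1' (b : B.sb1.Bn) : Tendsto (fun n =>
    (H221.bop A.lam ((c.g1 n r).toKW B.sb2).ker).comp B.sb1.j b) atTop (𝓝 0) := by
  refine (c.tendsto_g1 b).congr fun n => ?_
  rw [ContinuousLinearMap.comp_apply, KW.bop_ker]

end Cut

namespace PS

variable (P : PS B)

/-- the remainders as maps of smooth sections -/
def S0 (u : B.sb0.Sec) : B.sb0.Sec := P.k0.toKW.app (B.sb0.res u)

/-- degree 1 -/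
def S1 (u : B.sb1.Sec) : B.sb1.Sec := P.k1.toKW.app (B.sb1.res u)

/-- degree 2 -/
def S2 (u : B.sb2.Sec) : B.sb2.Sec := P.k2.toKW.app (B.sb2.res u)

theorem P0_d0 (u : B.sb0.Sec) : P.P0 (B.d0 u) = u - P.S0 u := by
  apply Subtype.ext
  rw [P.eq0, ← P.k0.toKW_app]
  rfl

theorem P1_d1 (u : B.sb1.Sec) : B.d0 (P.P0 u) + P.P1 (B.d1 u) = u - P.S1 u := by
  apply Subtype.ext
  have h := P.eq1 u
  rw [← P.k1.toKW_app] at h
  exact h

theorem d1_P1 (u : B.sb2.Sec) : B.d1 (P.P1 u) = u - P.S2 u := by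
  apply Subtype.ext
  rw [P.eq2, ← P.k2.toKW_app]
  rfl

theorem S1_d0 (u : B.sb0.Sec) : P.S1 (B.d0 u) = B.d0 (P.S0 u) := by
  have h := P.P1_d1 (B.d0 u)
  rw [B.d1_d0, map_zero, add_zero, P.P0_d0, map_sub] at h
  exact (sub_right_injective h).symm

theorem S2_d1 (u : B.sb1.Sec) : P.S2 (B.d1 u) = B.d1 (P.S1 u) := by
  have h := congrArg B.d1 (P.P1_d1 u)
  rw [map_add, B.d1_d0, zero_add, P.d1_P1, map_sub] at h
  exact sub_right_injective h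

theorem S0_closed {u : B.sb0.Sec} (hu : B.d0 u = 0) : P.S0 u = u := by
  have h := P.P0_d0 u
  rw [hu, map_zero] at h
  exact (sub_eq_zero.1 h.symm).symm

theorem S1_closed {u : B.sb1.Sec} (hu : B.d1 u = 0) : P.S1 u = u - B.d0 (P.P0 u) := by
  have h := P.P1_d1 u
  rw [hu, map_zero, add_zero] at h
  rw [h]
  abel

theorem S2_eq (u : B.sb2.Sec) : P.S2 u = u - B.d1 (P.P1 u) := by
  rw [P.d1_P1]
  abel

theorem bop0 (u : B.sb0.Sec) :
    H221.bop A.lam P.k0.toKW.ker (B.sb0.j (B.sb0.i u)) = B.sb0.i (P.S0 u) := by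
  rw [SB.j_i, KW.bop_ker]; rfl

theorem bop1 (u : B.sb1.Sec) :
    H221.bop A.lam P.k1.toKW.ker (B.sb1.j (B.sb1.i u)) = B.sb1.i (P.S1 u) := by
  rw [SB.j_i, KW.bop_ker]; rfl

theorem bop2 (u : B.sb2.Sec) :
    H221.bop A.lam P.k2.toKW.ker (B.sb2.j (B.sb2.i u)) = B.sb2.i (P.S2 u) := by
  rw [SB.j_i, KW.bop_ker]; rfl

theorem hch0 (a : B.sb0.Sec) : H221.bop A.lam P.k1.toKW.ker (B.sb1.j (B.sb1.i (B.d0 a))) =
    H221.bop A.lam P.k0.toKW.d0K.ker (B.sb0.j (B.sb0.i a)) := by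
  rw [P.bop1, P.S1_d0, SB.j_i, KW.bop_ker, KW.app_d0K]
  rfl

theorem hch1 (a : B.sb1.Sec) : H221.bop A.lam P.k2.toKW.ker (B.sb2.j (B.sb2.i (B.d1 a))) =
    H221.bop A.lam P.k1.toKW.d1K.ker (B.sb1.j (B.sb1.i a)) := by
  rw [P.bop2, P.S2_d1, SB.j_i, KW.bop_ker, KW.app_d1K]
  rfl

theorem hS0 (a : B.sb0.Sec) (ha : B.d0 a = 0) :
    H221.bop A.lam P.k0.toKW.ker (B.sb0.j (B.sb0.i a)) = B.sb0.i a := by
  rw [P.bop0, P.S0_closed ha]

theorem hS1 (a : B.sb1.Sec) (ha : B.d1 a = 0) :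
    ∃ b, H221.bop A.lam P.k1.toKW.ker (B.sb1.j (B.sb1.i a)) = B.sb1.i a - B.sb1.i (B.d0 b) :=
  ⟨P.P0 a, by rw [P.bop1, P.S1_closed ha, map_sub]⟩

theorem hS2 (a : B.sb2.Sec) :
    ∃ b, H221.bop A.lam P.k2.toKW.ker (B.sb2.j (B.sb2.i a)) = B.sb2.i a - B.sb2.i (B.d1 b) :=
  ⟨P.P1 a, by rw [P.bop2, P.S2_eq, map_sub]⟩

/-- the sum of the integrals of the density -/
theorem sum_dens : H221.btr A.lam B.sb0.j P.k0.toKW.ker - H221.btr A.lam B.sb1.j P.k1.toKW.ker +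
    H221.btr A.lam B.sb2.j P.k2.toKW.ker = ∑ a, ∫ z, (A.r a z : ℂ) * P.dens a z := by
  rw [P.k0.btr_toKW, P.k1.btr_toKW, P.k2.btr_toKW, ← Finset.sum_sub_distrib,
    ← Finset.sum_add_distrib]
  refine Finset.sum_congr rfl fun a _ => ?_
  have h0 := P.k0.integrable_trace a
  have h1 := P.k1.integrable_trace a
  have h2 := P.k2.integrable_trace a
  have h3 : Integrable fun z =>
      (A.r a z : ℂ) * LinearMap.trace ℂ _ (P.k0.k a a z z : (Fin r → ℂ) →ₗ[ℂ] (Fin r → ℂ)) -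
      (A.r a z : ℂ) * LinearMap.trace ℂ _
        (P.k1.k a a z z : (Fin 2 → Fin r → ℂ) →ₗ[ℂ] (Fin 2 → Fin r → ℂ)) := h0.sub h1
  rw [← integral_sub h0 h1, ← integral_add h3 h2]
  refine integral_congr_ae (Filter.Eventually.of_forall fun z => ?_)
  simp only [PS.dens]
  ring

/-- **the trace formula for the Euler characteristic**, given the complex of Banach spaces -/
theorem chi_eq_of (C : PComplex ℂ B.sb0.Sec B.sb1.Sec B.sb2.Sec B.sb0.Bn B.sb1.Bn B.sb2.Bn)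
    (hi0 : ∀ u, C.i0 u = B.sb0.i u) (hi1 : ∀ u, C.i1 u = B.sb1.i u)
    (hi2 : ∀ u, C.i2 u = B.sb2.i u) (hd0 : ∀ u, C.d0 u = B.d0 u) (hd1 : ∀ u, C.d1 u = B.d1 u) :
    (B.chi : ℂ) = ∑ a, ∫ z, (A.r a z : ℂ) * P.dens a z := by
  obtain ⟨c⟩ := exists_cut A
  have key := H221.str_cplx A.lam C B.sb0.j B.sb1.j B.sb2.j B.sb0.i B.sb1.i B.sb2.i B.d0 B.d1
    (LinearMap.ext hi0) (LinearMap.ext hi1) (LinearMap.ext hi2) (LinearMap.ext hd0)
    (LinearMap.ext hd1)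
    P.k0.toKW.ker P.k1.toKW.ker P.k2.toKW.ker P.k0.toKW.d0K.ker P.k1.toKW.d1K.ker
    (ker_d0 P.k0.toKW) (ker_d1 P.k1.toKW) (ker_i P.k2.toKW) P.hch0 P.hch1 P.hS0 P.hS1 P.hS2
    (fun n => ((c.m n (Fin r → ℂ)).toKW B.sb0).ker)
    (fun n => ((c.m n (Fin 2 → Fin r → ℂ)).toKW B.sb1).ker)
    (fun n => ((c.m n (Fin r → ℂ)).toKW B.sb2).ker)
    (fun n => ((c.m n (Fin r → ℂ)).toKW B.sb0).d0K.ker)
    (fun n => ((c.m n (Fin 2 → Fin r → ℂ)).toKW B.sb1).d1K.ker)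
    (fun n => (H221.bop A.lam ((c.g0 n r).toKW B.sb1).ker).comp B.sb0.j)
    (fun n => (H221.bop A.lam ((c.g1 n r).toKW B.sb2).ker).comp B.sb1.j)
    (fun n => ker_d0 _) (fun n => ker_d1 _) (c.hc0) (c.hc1) (c.hm B.sb0) (c.hm B.sb1) (c.hm B.sb2)
    c.hc0' c.hc1'
  rw [← P.sum_dens, key]
  unfold Bun.chi Bun.h0 Bun.h1 Bun.h2 finrankCoh
  push_cast
  rfl

end PS

end Vale.Agent.P267.RR
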