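import Vale.Agent.P267.H221.KD

/-!
# P267, package RR: kernels supported near the diagonal of one chart, extended by zero
-/

set_option linter.unusedVariables false
set_option linter.unusedSectionVars false

open scoped Manifold ContDiff ComplexConjugate Matrix Topology
open MeasureTheory Set Filter

noncomputable section

namespace Vale.Agent.P267.RR

open FL H439

variable {X : Type*} [TopologicalSpace X] [ChartedSpace C2 X] {A : FinAt X}

theorem FinAt.mem_ov_iff {a a' b : Fin A.N} {z : C2} (hz : z ∈ A.ov a a') :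
    A.tau a a' z ∈ A.ov a' b ↔ z ∈ A.ov a b := by
  constructor
  · intro h
    refine ⟨hz.1, ?_⟩
    rw [← FinAt.symm_tau hz]
    exact h.2
  · intro h
    exact FinAt.tau_mem_ov hz h

/-- kernels on the charts, supported (in the first variable) in compact sets -/
structure EK (A : FinAt X) (V W : Type) [NormedAddCommGroup V] [NormedSpace ℂ V]
    [NormedAddCommGroup W] [NormedSpace ℂ W] where
  G : Fin A.N → C2 → C2 → W →L[ℂ] V
  L : Fin A.N → Set C2
  hL : ∀ b, IsCompact (L b)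
  hLO : ∀ b, L b ⊆ A.O b
  smooth : ∀ b v, ContDiffOn ℝ ∞ (fun p : C2 × C2 => G b p.1 p.2 v) (A.O b ×ˢ A.O b)
  supp : ∀ b z w, z ∉ L b → G b z w = 0

variable {V W : Type} [NormedAddCommGroup V] [NormedSpace ℂ V] [NormedAddCommGroup W]
  [NormedSpace ℂ W] [FiniteDimensional ℂ W] [FiniteDimensional ℂ V]

theorem contDiffAt_clm_apply' {E : Type*} [NormedAddCommGroup E] [NormedSpace ℝ E]
    {V W : Type*} [NormedAddCommGroup V] [NormedSpace ℂ V] [NormedAddCommGroup W]
    [NormedSpace ℂ W] [FiniteDimensional ℂ W] {T : E → W →L[ℂ] V} {g : E → W} {x : E}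
    (hT : ∀ v, ContDiffAt ℝ ∞ (fun y => T y v) x) (hg : ContDiffAt ℝ ∞ g x) :
    ContDiffAt ℝ ∞ (fun y => T y (g y)) x := by
  have h : (fun y => T y (g y)) = fun y => ∑ i,
      (LinearMap.toContinuousLinearMap ((Module.finBasis ℂ W).coord i)) (g y) •
        T y (Module.finBasis ℂ W i) := by
    funext y
    conv_lhs => rw [clm_decomp (T y)]
    simp only [sum_apply, ContinuousLinearMap.smulRight_apply]
  rw [h]
  refine ContDiffAt.sum fun i _ => ?_
  refine ContDiffAt.smul ?_ (hT _)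
  exact (((LinearMap.toContinuousLinearMap ((Module.finBasis ℂ W).coord i)).restrictScalars
    ℝ).contDiff.contDiffAt).comp x hg

namespace EK

variable (E : EK A V W) (S : SB A V)

open Classical in
/-- extension by zero -/
def fam (a b : Fin A.N) (z w : C2) : W →L[ℂ] V :=
  if z ∈ A.ov a b then (S.T b a (A.tau a b z)).comp (E.G b (A.tau a b z) w) else 0

theorem fam_eq {a b : Fin A.N} {z w : C2} (hz : z ∈ A.ov a b) :
    E.fam S a b z w = (S.T b a (A.tau a b z)).comp (E.G b (A.tau a b z) w) := by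
  simp [fam, hz]

theorem fam_zero [T2Space X] {a b : Fin A.N} {z : C2} (hz : z ∈ A.O a) (hzb : z ∉ A.ov a b) :
    ∀ᶠ z' in 𝓝 z, ∀ w, E.fam S a b z' w = 0 := by
  have hC : IsCompact ((A.e b).symm '' E.L b) :=
    (E.hL b).image_of_continuousOn ((A.e b).symm.continuousOn.mono fun z hz => (E.hLO b hz).1)
  have h1 : (A.e a).symm z ∉ (A.e b).symm '' E.L b := by
    rintro ⟨z', hz', he⟩
    apply hzb
    refine ⟨hz, ?_⟩
    rw [← he]
    exact (E.hLO b hz').2
  have h2 : (A.O a ∩ (A.e a).symm ⁻¹' ((A.e b).symm '' E.L b)ᶜ) ∈ 𝓝 z := by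
    have h3 : IsOpen ((A.e a).target ∩ (A.e a).symm ⁻¹' ((A.e b).symm '' E.L b)ᶜ) :=
      (A.e a).isOpen_inter_preimage_symm hC.isClosed.isOpen_compl
    filter_upwards [(A.isOpen_O a).mem_nhds hz, h3.mem_nhds ⟨hz.1, h1⟩] with y hy hy'
    exact ⟨hy, hy'.2⟩
  filter_upwards [h2] with z' hz' w
  by_cases hov : z' ∈ A.ov a b
  · rw [E.fam_eq S hov, E.supp, ContinuousLinearMap.comp_zero]
    intro hmem
    exact hz'.2 ⟨_, hmem, FinAt.symm_tau hov⟩
  · simp [fam, hov]

variable [T2Space X] [IsManifold 𝓘(ℂ, C2) ω X]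

/-- the kernel of sections -/
def toKW : KW S W where
  k := E.fam S
  smooth a b v := by
    rintro ⟨z, w⟩ ⟨hz, hw⟩
    apply ContDiffAt.contDiffWithinAt
    by_cases hov : z ∈ A.ov a b
    · have hτ : ContDiffAt ℝ ∞ (fun p : C2 × C2 => A.tau a b p.1) (z, w) := by
        have h := ((FinAt.tau_analyticAt hov).contDiffAt (n := ∞)).restrict_scalars ℝ
        exact ContDiffAt.comp (z, w) (g := A.tau a b) (f := Prod.fst) h contDiffAt_fst
      have h1 : ContDiffAt ℝ ∞ (fun p : C2 × C2 =>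
          S.T b a (A.tau a b p.1) (E.G b (A.tau a b p.1) p.2 v)) (z, w) := by
        refine contDiffAt_clm_apply' (fun v' => ?_) ?_
        · have h2 : ContDiffAt ℝ ∞ (fun z => S.T b a z v') (A.tau a b z) :=
            (S.smooth b a v').contDiffAt ((A.isOpen_ov b a).mem_nhds (FinAt.tau_mem hov))
          exact ContDiffAt.comp (z, w) (g := fun z => S.T b a z v')
            (f := fun p : C2 × C2 => A.tau a b p.1) h2 hτ
        · have h3 : ContDiffAt ℝ ∞ (fun p : C2 × C2 => E.G b p.1 p.2 v) (A.tau a b z, w) :=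
            (E.smooth b v).contDiffAt
              (((A.isOpen_O b).prod (A.isOpen_O b)).mem_nhds ⟨FinAt.tau_mem_O hov, hw⟩)
          exact ContDiffAt.comp (z, w) (g := fun p : C2 × C2 => E.G b p.1 p.2 v)
            (f := fun p : C2 × C2 => (A.tau a b p.1, p.2)) h3 (hτ.prodMk contDiffAt_snd)
      refine h1.congr_of_eventuallyEq ?_
      have h4 : ∀ᶠ p : C2 × C2 in 𝓝 (z, w), p.1 ∈ A.ov a b :=
        (continuous_fst.tendsto (z, w)).eventually ((A.isOpen_ov a b).mem_nhds hov)
      filter_upwards [h4] with p hp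
      rw [E.fam_eq S hp]
      rfl
    · refine (contDiffAt_const (c := (0 : V))).congr_of_eventuallyEq ?_
      have h4 := (continuous_fst.tendsto (z, w)).eventually (E.fam_zero S hz hov)
      filter_upwards [h4] with p hp
      rw [hp]
      rfl
  compat a a' b z hz w hw v := by
    by_cases hov : z ∈ A.ov a b
    · rw [E.fam_eq S hov, E.fam_eq S ((FinAt.mem_ov_iff hz).2 hov), FinAt.tau_comp b hz]
      change S.T b a' (A.tau a b z) _ = S.T a a' z (S.T b a (A.tau a b z) _)
      have h := S.comp b a a' (A.tau a b z) (FinAt.tau_mem hov) (FinAt.tau_mem_ov hov hz)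
        (E.G b (A.tau a b z) w v)
      rw [FinAt.tau_tau hov] at h
      exact h.symm
    · have hov' : A.tau a a' z ∉ A.ov a' b := fun h => hov ((FinAt.mem_ov_iff hz).1 h)
      simp [fam, hov, hov']

theorem toKW_self {b : Fin A.N} {z : C2} (hz : z ∈ A.O b) (w : C2) :
    (E.toKW S).k b b z w = E.G b z w := by
  change E.fam S b b z w = _
  rw [E.fam_eq S (FinAt.mem_ov_self hz), FinAt.tau_self hz]
  ext v
  exact S.self b z hz _

theorem toKW_ov {a b : Fin A.N} {z : C2} (hz : z ∈ A.ov a b) (w : C2) (v : W) :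
    (E.toKW S).k a b z w v = S.T b a (A.tau a b z) (E.G b (A.tau a b z) w v) := by
  change E.fam S a b z w v = _
  rw [E.fam_eq S hz]
  rfl

theorem toKW_not_ov {a b : Fin A.N} {z : C2} (hz : z ∉ A.ov a b) (w : C2) :
    (E.toKW S).k a b z w = 0 := by
  change E.fam S a b z w = _
  simp [fam, hz]

variable {r : ℕ} {B : Bun A r}

theorem d0K_toKW {E : EK A (Fin r → ℂ) W} {E' : EK A (Fin 2 → Fin r → ℂ) W}
    (h : ∀ b, ∀ z ∈ A.O b, ∀ w ∈ A.O b, ∀ v j,
      E'.G b z w v j = dzb j (fun z' => E.G b z' w v) z)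
    {a b : Fin A.N} {z w : C2} (hz : z ∈ A.O a) (hw : w ∈ A.O b) (v : W) :
    (E.toKW B.sb0).d0K.k a b z w v = (E'.toKW B.sb1).k a b z w v := by
  set k := E.toKW B.sb0 with hk
  have h1 : k.d0K.k a b z w v = (B.d0 (k.slice b w v)).1 a z := by
    rw [k.d0K_apply hz hw, k.d0f_slice hz hw]
  by_cases hov : z ∈ A.ov a b
  · have h2 := (B.d0 (k.slice b w v)).2.2.2 b a (A.tau a b z) (FinAt.tau_mem hov)
    rw [FinAt.tau_tau hov] at h2
    rw [h1, h2, E'.toKW_ov B.sb1 hov]
    congr 1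
    have hτ := FinAt.tau_mem_O hov
    rw [k.d0f_slice hτ hw]
    funext j
    rw [h b _ hτ w hw v j]
    refine dzb_congr ?_ j
    filter_upwards [(A.isOpen_O b).mem_nhds hτ] with z' hz'
    rw [hk, E.toKW_self B.sb0 hz']
  · rw [k.d0K_apply hz hw, E'.toKW_not_ov B.sb1 hov]
    funext j
    have h2 : (fun z' => k.k a b z' w v) =ᶠ[𝓝 z] fun _ => 0 := by
      filter_upwards [E.fam_zero B.sb0 hz hov] with z' hz'
      change E.fam B.sb0 a b z' w v = 0
      rw [hz']
      rfl
    rw [dzb_congr h2, dzb_const]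
    rfl

theorem d1K_toKW {E : EK A (Fin 2 → Fin r → ℂ) W} {E' : EK A (Fin r → ℂ) W}
    (h : ∀ b, ∀ z ∈ A.O b, ∀ w ∈ A.O b, ∀ v,
      E'.G b z w v = dzb 0 (fun z' => E.G b z' w v 1) z - dzb 1 (fun z' => E.G b z' w v 0) z)
    {a b : Fin A.N} {z w : C2} (hz : z ∈ A.O a) (hw : w ∈ A.O b) (v : W) :
    (E.toKW B.sb1).d1K.k a b z w v = (E'.toKW B.sb2).k a b z w v := by
  set k := E.toKW B.sb1 with hk
  have h1 : k.d1K.k a b z w v = (B.d1 (k.slice b w v)).1 a z := by
    rw [k.d1K_apply hz hw, k.d1f_slice hz hw]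
  by_cases hov : z ∈ A.ov a b
  · have h2 := (B.d1 (k.slice b w v)).2.2.2 b a (A.tau a b z) (FinAt.tau_mem hov)
    rw [FinAt.tau_tau hov] at h2
    rw [h1, h2, E'.toKW_ov B.sb2 hov]
    congr 1
    have hτ := FinAt.tau_mem_O hov
    rw [k.d1f_slice hτ hw, h b _ hτ w hw v]
    have h3 : ∀ p, (fun z' => k.k b b z' w v p) =ᶠ[𝓝 (A.tau a b z)]
        fun z' => E.G b z' w v p := by
      intro p
      filter_upwards [(A.isOpen_O b).mem_nhds hτ] with z' hz'
      rw [hk, E.toKW_self B.sb1 hz']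
    rw [dzb_congr (h3 1), dzb_congr (h3 0)]
  · rw [k.d1K_apply hz hw, E'.toKW_not_ov B.sb2 hov]
    have h2 : ∀ p, (fun z' => k.k a b z' w v p) =ᶠ[𝓝 z] fun _ => 0 := by
      intro p
      filter_upwards [E.fam_zero B.sb1 hz hov] with z' hz'
      change E.fam B.sb1 a b z' w v p = 0
      rw [hz']
      rfl
    rw [dzb_congr (h2 1), dzb_congr (h2 0), dzb_const, dzb_const, sub_zero]
    rfl

end EK

/-! ### the operators in terms of integrals over the charts -/

open Classical in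
/-- extension by zero of a function on `Y` -/
def extY (u : C(A.Y, W)) (b : Fin A.N) (w : C2) : W :=
  if h : w ∈ A.K b then u ⟨(b, w), h⟩ else 0

theorem extY_eq (u : C(A.Y, W)) {b : Fin A.N} {w : C2} (h : w ∈ A.K b) :
    extY u b w = u ⟨(b, w), h⟩ := by simp [extY, h]

theorem continuousOn_extY (u : C(A.Y, W)) (b : Fin A.N) : ContinuousOn (extY u b) (A.K b) := by
  rw [continuousOn_iff_continuous_domRestrict]
  have h : (A.K b).domRestrict (extY u b) = fun w => u (A.inc b w) := by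
    funext w
    exact extY_eq u w.2
  rw [h]
  exact u.continuous.comp (FinAt.continuous_inc A b)

variable [CompactSpace X] [CompleteSpace V]

theorem KW.app_sum (S : SB A V) (k : KW S W) (u : C(A.Y, W)) {a : Fin A.N} {z : C2}
    (hz : z ∈ A.O a) : (k.app u).1 a z = ∑ b, ∫ w in A.K b, k.k a b z w (extY u b w) := by
  rw [k.app_apply u hz]
  exact FinAt.integral_lam A (k.continuous_app_int hz u) (fun b w => k.k a b z w (extY u b w))
    fun b w hw => by rw [extY_eq u hw]

theorem KW.app_congr (S : SB A V) (k k' : KW S W) (u : C(A.Y, W))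
    (h : ∀ a b, ∀ z ∈ A.O a, ∀ w ∈ A.O b, ∀ v, k.k a b z w v = k'.k a b z w v) :
    k.app u = k'.app u := by
  apply Subtype.ext
  funext a z
  by_cases hz : z ∈ A.O a
  · rw [k.app_apply u hz, k'.app_apply u hz]
    refine integral_congr_ae (Filter.Eventually.of_forall fun y => ?_)
    exact h _ _ z hz _ (FinAt.K_sub_O _ y.2) _
  · rw [(k.app u).2.2.1 a z hz, (k'.app u).2.2.1 a z hz]

/-- the local integral operators -/
def EK.gI (E : EK A V W) (u : C(A.Y, W)) (b : Fin A.N) (z : C2) : V :=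
  ∫ w in A.K b, E.G b z w (extY u b w)

theorem EK.integrableOn (E : EK A V W) (u : C(A.Y, W)) {b : Fin A.N} {z : C2} (hz : z ∈ A.O b) :
    IntegrableOn (fun w => E.G b z w (extY u b w)) (A.K b) := by
  refine ContinuousOn.integrableOn_compact (FinAt.isCompact_K b) ?_
  have h1 : ContinuousOn (fun w => E.G b z w) (A.K b) := by
    intro w hw
    have h2 : ContDiffAt ℝ ∞ (fun p : C2 × C2 => E.G b p.1 p.2) (z, w) :=
      contDiffAt_clm_of_apply fun v => (E.smooth b v).contDiffAt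
        (((A.isOpen_O b).prod (A.isOpen_O b)).mem_nhds ⟨hz, FinAt.K_sub_O b hw⟩)
    have h3 : ContinuousAt (fun w => E.G b z w) w :=
      ContinuousAt.comp (g := fun p : C2 × C2 => E.G b p.1 p.2) (f := fun w => (z, w))
        h2.continuousAt (by fun_prop)
    exact h3.continuousWithinAt
  exact h1.clm_apply (continuousOn_extY u b)

open Classical in
theorem EK.app_toKW [T2Space X] [IsManifold 𝓘(ℂ, C2) ω X] (E : EK A V W) (S : SB A V)
    (u : C(A.Y, W)) {a : Fin A.N} {z : C2} (hz : z ∈ A.O a) :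
    ((E.toKW S).app u).1 a z = ∑ b, if z ∈ A.ov a b then
      S.T b a (A.tau a b z) (E.gI u b (A.tau a b z)) else 0 := by
  rw [KW.app_sum S _ u hz]
  refine Finset.sum_congr rfl fun b _ => ?_
  split_ifs with hov
  · unfold EK.gI
    rw [← ContinuousLinearMap.integral_comp_comm _ (E.integrableOn u (FinAt.tau_mem_O hov))]
    refine integral_congr_ae (Filter.Eventually.of_forall fun w => ?_)
    exact E.toKW_ov S hov w _
  · refine (integral_congr_ae (g := fun _ => (0 : V))
      (Filter.Eventually.of_forall fun w => ?_)).trans (integral_zero _ _)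
    beta_reduce
    rw [E.toKW_not_ov S hov]
    rfl

theorem EK.d0_app [T2Space X] [IsManifold 𝓘(ℂ, C2) ω X] {r : ℕ} {B : Bun A r}
    {E : EK A (Fin r → ℂ) W} {E' : EK A (Fin 2 → Fin r → ℂ) W}
    (h : ∀ b, ∀ z ∈ A.O b, ∀ w ∈ A.O b, ∀ v j,
      E'.G b z w v j = dzb j (fun z' => E.G b z' w v) z) (u : C(A.Y, W)) :
    B.d0 ((E.toKW B.sb0).app u) = (E'.toKW B.sb1).app u := by
  rw [← KW.app_d0K]
  exact KW.app_congr _ _ _ u fun a b z hz w hw v => EK.d0K_toKW h hz hw v

theorem EK.d1_app [T2Space X] [IsManifold 𝓘(ℂ, C2) ω X] {r : ℕ} {B : Bun A r}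
    {E : EK A (Fin 2 → Fin r → ℂ) W} {E' : EK A (Fin r → ℂ) W}
    (h : ∀ b, ∀ z ∈ A.O b, ∀ w ∈ A.O b, ∀ v,
      E'.G b z w v = dzb 0 (fun z' => E.G b z' w v 1) z - dzb 1 (fun z' => E.G b z' w v 0) z)
    (u : C(A.Y, W)) :
    B.d1 ((E.toKW B.sb1).app u) = (E'.toKW B.sb2).app u := by
  rw [← KW.app_d1K]
  exact KW.app_congr _ _ _ u fun a b z hz w hw v => EK.d1K_toKW h hz hw v

end Vale.Agent.P267.RR
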