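import Vale.Agent.P267.H221.KW

/-!
# P267, package RR: `∂̄` of kernels
-/

set_option linter.unusedVariables false
set_option linter.unusedSectionVars false

open scoped Manifold ContDiff ComplexConjugate Matrix Topology
open MeasureTheory Set Filter

noncomputable section

namespace Vale.Agent.P267.RR

open FL H439

/-! ### partial derivatives of jointly smooth functions -/

section partialD

variable {V : Type*} [NormedAddCommGroup V] [NormedSpace ℂ V]

theorem fderiv_fst {G : C2 × C2 → V} {z w : C2} (hG : DifferentiableAt ℝ G (z, w)) (v : C2) :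
    fderiv ℝ (fun z' => G (z', w)) z v = fderiv ℝ G (z, w) (v, 0) := by
  have h2 : HasFDerivAt (𝕜 := ℝ) (fun z' : C2 => (z', w)) (ContinuousLinearMap.inl ℝ C2 C2) z :=
    hasFDerivAt_prodMk_left z w
  have h3 := (hG.hasFDerivAt.comp z h2).fderiv
  change fderiv ℝ (G ∘ fun z' : C2 => (z', w)) z v = _
  rw [h3]
  rfl

theorem contDiffOn_dzb_fst {G : C2 × C2 → V} {U : Set (C2 × C2)} (hU : IsOpen U)
    (hG : ContDiffOn ℝ ∞ G U) (j : Fin 2) :
    ContDiffOn ℝ ∞ (fun p : C2 × C2 => dzb j (fun z' => G (z', p.2)) p.1) U := by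
  have h := hG.fderiv_of_isOpen hU (m := ∞) (by exact_mod_cast le_rfl)
  have h1 : ContDiffOn ℝ ∞ (fun p : C2 × C2 => (1 / 2 : ℂ) • (fderiv ℝ G p (Pi.single j 1, 0) +
      Complex.I • fderiv ℝ G p (Pi.single j Complex.I, 0))) U :=
    contDiffOn_const.smul ((h.clm_apply contDiffOn_const).add
      (contDiffOn_const.smul (h.clm_apply contDiffOn_const)))
  refine h1.congr fun p hp => ?_
  have h2 : DifferentiableAt ℝ G (p.1, p.2) :=
    (hG.contDiffAt (hU.mem_nhds hp)).differentiableAt (by simp)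
  unfold dzb
  rw [fderiv_fst h2, fderiv_fst h2]

end partialD

variable {X : Type*} [TopologicalSpace X] [ChartedSpace C2 X] [IsManifold 𝓘(ℂ, C2) ω X]
  {A : FinAt X} {W : Type} [NormedAddCommGroup W] [NormedSpace ℂ W] [FiniteDimensional ℂ W]
  {r : ℕ} {B : Bun A r}

namespace KW

theorem smooth_z {V : Type} [NormedAddCommGroup V] [NormedSpace ℂ V] {S : SB A V} (k : KW S W)
    {a b : Fin A.N} {z w : C2} (hz : z ∈ A.O a) (hw : w ∈ A.O b) (v : W) :
    ContDiffAt ℝ ∞ (fun z => k.k a b z w v) z :=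
  (k.smoothAt hz hw v).comp z (contDiffAt_id.prodMk contDiffAt_const)

theorem slice_eventually {V : Type} [NormedAddCommGroup V] [NormedSpace ℂ V] {S : SB A V}
    (k : KW S W) {a b : Fin A.N} {z w : C2} (hz : z ∈ A.O a) (hw : w ∈ A.O b) (v : W) :
    (k.slice b w v).1 a =ᶠ[𝓝 z] fun z => k.k a b z w v := by
  filter_upwards [(A.isOpen_O a).mem_nhds hz] with z' hz'
  exact k.slice_apply hz' hw v

theorem d0f_slice (k : KW B.sb0 W) {a b : Fin A.N} {z w : C2} (hz : z ∈ A.O a) (hw : w ∈ A.O b)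
    (v : W) : (B.d0 (k.slice b w v)).1 a z = fun j => dzb j (fun z' => k.k a b z' w v) z := by
  change Bun.d0f _ a z = _
  simp only [Bun.d0f, if_pos hz]
  funext j
  exact dzb_congr (k.slice_eventually hz hw v) j

theorem d1f_slice (k : KW B.sb1 W) {a b : Fin A.N} {z w : C2} (hz : z ∈ A.O a) (hw : w ∈ A.O b)
    (v : W) : (B.d1 (k.slice b w v)).1 a z =
      dzb 0 (fun z' => k.k a b z' w v 1) z - dzb 1 (fun z' => k.k a b z' w v 0) z := by
  change Bun.d1f _ a z = _
  simp only [Bun.d1f, if_pos hz]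
  have h : ∀ p, (fun y => (k.slice b w v).1 a y p) =ᶠ[𝓝 z] fun z' => k.k a b z' w v p := by
    intro p
    filter_upwards [k.slice_eventually hz hw v] with y hy
    rw [hy]
  rw [dzb_congr (h 1), dzb_congr (h 0)]

open Classical in
/-- `∂̄_z` of a kernel, degree 0 -/
def d0K (k : KW B.sb0 W) : KW B.sb1 W where
  k a b z w := if z ∈ A.O a ∧ w ∈ A.O b then
      LinearMap.toContinuousLinearMap
        { toFun := fun v => (B.d0 (k.slice b w v)).1 a z
          map_add' := fun v v' => by rw [map_add, map_add]; rfl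
          map_smul' := fun c v => by rw [map_smul, map_smul]; rfl }
    else 0
  smooth a b v := by
    have h : ContDiffOn ℝ ∞ (fun p : C2 × C2 => fun j => dzb j (fun z' => k.k a b z' p.2 v) p.1)
        (A.O a ×ˢ A.O b) := by
      rw [contDiffOn_pi]
      intro j
      exact contDiffOn_dzb_fst ((A.isOpen_O a).prod (A.isOpen_O b)) (k.smooth a b v) j
    refine h.congr fun p hp => ?_
    rw [if_pos ⟨hp.1, hp.2⟩]
    exact d0f_slice k hp.1 hp.2 v
  compat a a' b z hz w hw v := by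
    rw [if_pos ⟨FinAt.tau_mem_O hz, hw⟩, if_pos ⟨hz.1, hw⟩]
    exact (B.d0 (k.slice b w v)).2.2.2 a a' z hz

open Classical in
/-- `∂̄_z` of a kernel, degree 1 -/
def d1K (k : KW B.sb1 W) : KW B.sb2 W where
  k a b z w := if z ∈ A.O a ∧ w ∈ A.O b then
      LinearMap.toContinuousLinearMap
        { toFun := fun v => (B.d1 (k.slice b w v)).1 a z
          map_add' := fun v v' => by rw [map_add, map_add]; rfl
          map_smul' := fun c v => by rw [map_smul, map_smul]; rfl }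
    else 0
  smooth a b v := by
    have hp : ∀ p, ContDiffOn ℝ ∞ (fun q : C2 × C2 => k.k a b q.1 q.2 v p) (A.O a ×ˢ A.O b) :=
      fun p => contDiffOn_pi.1 (k.smooth a b v) p
    have hO := (A.isOpen_O a).prod (A.isOpen_O b)
    have h : ContDiffOn ℝ ∞ (fun p : C2 × C2 => dzb 0 (fun z' => k.k a b z' p.2 v 1) p.1 -
        dzb 1 (fun z' => k.k a b z' p.2 v 0) p.1) (A.O a ×ˢ A.O b) :=
      (contDiffOn_dzb_fst hO (hp 1) 0).sub (contDiffOn_dzb_fst hO (hp 0) 1)
    refine h.congr fun p hp => ?_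
    rw [if_pos ⟨hp.1, hp.2⟩]
    exact d1f_slice k hp.1 hp.2 v
  compat a a' b z hz w hw v := by
    rw [if_pos ⟨FinAt.tau_mem_O hz, hw⟩, if_pos ⟨hz.1, hw⟩]
    exact (B.d1 (k.slice b w v)).2.2.2 a a' z hz

theorem d0K_apply (k : KW B.sb0 W) {a b : Fin A.N} {z w : C2} (hz : z ∈ A.O a) (hw : w ∈ A.O b)
    (v : W) : k.d0K.k a b z w v = fun j => dzb j (fun z' => k.k a b z' w v) z := by
  rw [← d0f_slice k hz hw v]
  simp only [d0K, if_pos (And.intro hz hw)]
  rfl

theorem d1K_apply (k : KW B.sb1 W) {a b : Fin A.N} {z w : C2} (hz : z ∈ A.O a) (hw : w ∈ A.O b)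
    (v : W) : k.d1K.k a b z w v =
      dzb 0 (fun z' => k.k a b z' w v 1) z - dzb 1 (fun z' => k.k a b z' w v 0) z := by
  rw [← d1f_slice k hz hw v]
  simp only [d1K, if_pos (And.intro hz hw)]
  rfl

theorem slice_d0K (k : KW B.sb0 W) (b : Fin A.N) (w : C2) (v : W) (hw : w ∈ A.O b) :
    k.d0K.slice b w v = B.d0 (k.slice b w v) := by
  apply Subtype.ext
  funext a z
  by_cases hz : z ∈ A.O a
  · rw [slice_apply _ hz hw, d0K_apply k hz hw, d0f_slice k hz hw]
  · rw [(k.d0K.slice b w v).2.2.1 a z hz, (B.d0 (k.slice b w v)).2.2.1 a z hz]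

theorem slice_d1K (k : KW B.sb1 W) (b : Fin A.N) (w : C2) (v : W) (hw : w ∈ A.O b) :
    k.d1K.slice b w v = B.d1 (k.slice b w v) := by
  apply Subtype.ext
  funext a z
  by_cases hz : z ∈ A.O a
  · rw [slice_apply _ hz hw, d1K_apply k hz hw, d1f_slice k hz hw]
  · rw [(k.d1K.slice b w v).2.2.1 a z hz, (B.d1 (k.slice b w v)).2.2.1 a z hz]

variable [CompactSpace X]

omit [CompactSpace X] [IsManifold 𝓘(ℂ, C2) ω X] in
theorem dzb_int {Y : Type*} [MeasurableSpace Y] (μ : Measure Y) {E V : Type*}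
    [NormedAddCommGroup E] [NormedSpace ℂ E] [NormedAddCommGroup V] [NormedSpace ℂ V]
    (L : E →L[ℂ] V) (ev : Y → (E →L[ℂ] V)) (hL : ∀ e, L e = ∫ y, ev y e ∂μ) {g : C2 → E} {z : C2}
    (hg : DifferentiableAt ℝ g z) (j : Fin 2) :
    dzb j (fun z => L (g z)) z = ∫ y, dzb j (fun z' => ev y (g z')) z ∂μ := by
  rw [dzb_clm L hg, hL]
  refine integral_congr_ae (Filter.Eventually.of_forall fun y => ?_)
  beta_reduce
  rw [dzb_clm (ev y) hg]

/-- evaluation at `y`, `v` -/
def evv {V : Type} [NormedAddCommGroup V] [NormedSpace ℂ V] (y : A.Y) (v : W) :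
    C(A.Y, W →L[ℂ] V) →L[ℂ] V :=
  ((ContinuousLinearMap.apply ℂ V) v).comp (ContinuousMap.evalCLM ℂ y)

theorem evv_apply {V : Type} [NormedAddCommGroup V] [NormedSpace ℂ V] (y : A.Y) (v : W)
    (g : C(A.Y, W →L[ℂ] V)) : evv y v g = g y v := rfl

theorem dzb_ell {V : Type} [NormedAddCommGroup V] [NormedSpace ℂ V] [CompleteSpace V] {S : SB A V}
    (k : KW S W) (u : C(A.Y, W)) {a : Fin A.N} {z : C2} (hz : z ∈ A.O a) (j : Fin 2) :
    dzb j (fun z => ell u (k.G a z)) z =
      ∫ y : A.Y, dzb j (fun z' => evv y (u y) (k.G a z')) z ∂A.lam := by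
  have hG := ((k.G_smooth a).contDiffAt ((A.isOpen_O a).mem_nhds hz)).differentiableAt (by simp)
  exact dzb_int A.lam (ell u) (fun y => evv y (u y)) (fun e => rfl) hG j

theorem dzb_app {V : Type} [NormedAddCommGroup V] [NormedSpace ℂ V] [CompleteSpace V] {S : SB A V}
    (k : KW S W) (u : C(A.Y, W)) {a : Fin A.N} {z : C2} (hz : z ∈ A.O a) (j : Fin 2) :
    dzb j ((k.app u).1 a) z =
      ∫ y : A.Y, dzb j (fun z' => k.k a y.1.1 z' y.1.2 (u y)) z ∂A.lam := by
  have h1 : (k.app u).1 a =ᶠ[𝓝 z] fun z => ell u (k.G a z) := by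
    filter_upwards [(A.isOpen_O a).mem_nhds hz] with z' hz'
    exact k.app_eq u hz'
  rw [dzb_congr h1, dzb_ell k u hz]
  refine integral_congr_ae (Filter.Eventually.of_forall fun y => ?_)
  refine dzb_congr ?_ j
  filter_upwards [(A.isOpen_O a).mem_nhds hz] with z' hz'
  rw [evv_apply, k.G_apply hz']

theorem dzb_k {V : Type} [NormedAddCommGroup V] [NormedSpace ℂ V] [CompleteSpace V] {S : SB A V}
    (k : KW S W) (y : A.Y) (v : W) {a : Fin A.N} {z : C2} (hz : z ∈ A.O a) (j : Fin 2) :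
    dzb j (fun z' => k.k a y.1.1 z' y.1.2 v) z = (dzb j (k.G a) z) y v := by
  have hG := ((k.G_smooth a).contDiffAt ((A.isOpen_O a).mem_nhds hz)).differentiableAt (by simp)
  have h := dzb_clm (evv (V := V) y v) hG j
  rw [evv_apply] at h
  rw [← h]
  refine dzb_congr ?_ j
  filter_upwards [(A.isOpen_O a).mem_nhds hz] with z' hz'
  rw [evv_apply, k.G_apply hz']

theorem integrable_dzb_k {V : Type} [NormedAddCommGroup V] [NormedSpace ℂ V] [CompleteSpace V]
    {S : SB A V} (k : KW S W) (u : C(A.Y, W)) {a : Fin A.N} {z : C2} (hz : z ∈ A.O a)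
    (j : Fin 2) :
    Integrable (fun y : A.Y => dzb j (fun z' => k.k a y.1.1 z' y.1.2 (u y)) z) A.lam := by
  simp only [dzb_k k _ _ hz]
  exact H221.integ_cont _ (by fun_prop)

theorem app_d0K (k : KW B.sb0 W) (u : C(A.Y, W)) : k.d0K.app u = B.d0 (k.app u) := by
  apply Subtype.ext
  funext a z
  by_cases hz : z ∈ A.O a
  · rw [k.d0K.app_apply u hz]
    change _ = Bun.d0f _ a z
    simp only [Bun.d0f, if_pos hz]
    funext j
    rw [dzb_app k u hz j]
    have h1 := (ContinuousLinearMap.proj (R := ℂ) (φ := fun _ : Fin 2 => Fin r → ℂ) j).integral_comp_comm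
      (μ := A.lam) (φ := fun y : A.Y => k.d0K.k a y.1.1 z y.1.2 (u y))
      (H221.integ_cont _ (k.d0K.continuous_app_int hz u))
    change _ = (∫ y : A.Y, k.d0K.k a y.1.1 z y.1.2 (u y) ∂A.lam) j at h1
    rw [← h1]
    refine integral_congr_ae (Filter.Eventually.of_forall fun y => ?_)
    beta_reduce
    rw [d0K_apply k hz (FinAt.K_sub_O _ y.2)]
    rfl
  · rw [(k.d0K.app u).2.2.1 a z hz, (B.d0 (k.app u)).2.2.1 a z hz]

theorem dzb_proj {f : C2 → Fin 2 → Fin r → ℂ} {z : C2} (hf : DifferentiableAt ℝ f z) (i p : Fin 2) :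
    dzb i (fun y => f y p) z = dzb i f z p :=
  dzb_clm (ContinuousLinearMap.proj (R := ℂ) (φ := fun _ : Fin 2 => Fin r → ℂ) p) hf i

theorem app_d1K (k : KW B.sb1 W) (u : C(A.Y, W)) : k.d1K.app u = B.d1 (k.app u) := by
  apply Subtype.ext
  funext a z
  by_cases hz : z ∈ A.O a
  · rw [k.d1K.app_apply u hz]
    change _ = Bun.d1f _ a z
    simp only [Bun.d1f, if_pos hz]
    have hd : DifferentiableAt ℝ ((k.app u).1 a) z :=
      (Bun.Sec_contDiffAt (k.app u).2 hz).differentiableAt (by simp)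
    rw [dzb_proj hd, dzb_proj hd, dzb_app k u hz, dzb_app k u hz]
    have h1 : ∀ i p : Fin 2, (∫ y : A.Y, dzb i (fun z' => k.k a y.1.1 z' y.1.2 (u y)) z ∂A.lam) p =
        ∫ y : A.Y, dzb i (fun z' => k.k a y.1.1 z' y.1.2 (u y)) z p ∂A.lam := by
      intro i p
      exact ((ContinuousLinearMap.proj (R := ℂ)
        (φ := fun _ : Fin 2 => Fin r → ℂ) p).integral_comp_comm (integrable_dzb_k k u hz i)).symm
    have h2 : ∀ i p : Fin 2, Integrable (fun y : A.Y =>
        dzb i (fun z' => k.k a y.1.1 z' y.1.2 (u y)) z p) A.lam := by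
      intro i p
      exact (ContinuousLinearMap.proj (R := ℂ)
        (φ := fun _ : Fin 2 => Fin r → ℂ) p).integrable_comp (integrable_dzb_k k u hz i)
    rw [h1, h1, ← integral_sub (h2 0 1) (h2 1 0)]
    refine integral_congr_ae (Filter.Eventually.of_forall fun y => ?_)
    beta_reduce
    have hk : DifferentiableAt ℝ (fun z' => k.k a y.1.1 z' y.1.2 (u y)) z :=
      (k.smooth_z hz (FinAt.K_sub_O _ y.2) (u y)).differentiableAt (by simp)
    rw [d1K_apply k hz (FinAt.K_sub_O _ y.2), dzb_proj hk, dzb_proj hk]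
  · rw [(k.d1K.app u).2.2.1 a z hz, (B.d1 (k.app u)).2.2.1 a z hz]

end KW

end Vale.Agent.P267.RR
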