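import Vale.Agent.P267.H221.YSp
import Vale.Agent.P267.H439.FamC

/-!
# P267, package RR: smooth kernels, their operators on continuous sections

`KW S W`: kernels from functions with values in `W` to sections of `S`.
-/

set_option linter.unusedVariables false
set_option linter.unusedSectionVars false

open scoped Manifold ContDiff ComplexConjugate Matrix Topology
open MeasureTheory Set Filter

noncomputable section

namespace Vale.Agent.P267.RR

open FL H439

/-! ### smoothness of operator valued maps -/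

section clm

variable {V W : Type*} [NormedAddCommGroup V] [NormedSpace ℂ V] [NormedAddCommGroup W]
  [NormedSpace ℂ W] [FiniteDimensional ℂ V]
  {E : Type*} [NormedAddCommGroup E] [NormedSpace ℝ E]

theorem clm_decomp (f : V →L[ℂ] W) :
    f = ∑ i, ContinuousLinearMap.smulRight
      (LinearMap.toContinuousLinearMap ((Module.finBasis ℂ V).coord i)) (f (Module.finBasis ℂ V i)) := by
  ext v
  simp only [sum_apply, ContinuousLinearMap.smulRight_apply,
    LinearMap.coe_toContinuousLinearMap', Module.Basis.coord_apply]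
  conv_lhs => rw [← (Module.finBasis ℂ V).sum_repr v]
  rw [map_sum]
  simp only [map_smul]

theorem contDiffAt_clm_of_apply {n : WithTop ℕ∞} {f : E → (V →L[ℂ] W)} {x : E}
    (h : ∀ v, ContDiffAt ℝ n (fun y => f y v) x) : ContDiffAt ℝ n f x := by
  have h1 : f = fun y => ∑ i, ContinuousLinearMap.smulRightL ℂ V W
      (LinearMap.toContinuousLinearMap ((Module.finBasis ℂ V).coord i))
      (f y (Module.finBasis ℂ V i)) := by
    funext y
    exact clm_decomp (f y)
  rw [h1]
  refine ContDiffAt.sum fun i _ => ?_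
  have h2 : ContDiff ℝ n (((ContinuousLinearMap.smulRightL ℂ V W)
      (LinearMap.toContinuousLinearMap ((Module.finBasis ℂ V).coord i))).restrictScalars ℝ) :=
    ContinuousLinearMap.contDiff _
  exact h2.contDiffAt.comp x (h _)

theorem continuous_clm_of_apply {Z : Type*} [TopologicalSpace Z] {f : Z → (V →L[ℂ] W)}
    (h : ∀ v, Continuous fun y => f y v) : Continuous f := by
  have h1 : f = fun y => ∑ i, ContinuousLinearMap.smulRightL ℂ V W
      (LinearMap.toContinuousLinearMap ((Module.finBasis ℂ V).coord i))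
      (f y (Module.finBasis ℂ V i)) := by
    funext y
    exact clm_decomp (f y)
  rw [h1]
  refine continuous_finsetSum _ fun i _ => ?_
  exact (ContinuousLinearMap.continuous _).comp (h _)

theorem contDiffOn_clm_comp {E F : Type*} [NormedAddCommGroup E] [NormedSpace ℂ E]
    [NormedAddCommGroup F] [NormedSpace ℂ F] {n : WithTop ℕ∞} (L : E →L[ℂ] F) {g : C2 → E}
    {U : Set C2} (h : ContDiffOn ℝ n g U) : ContDiffOn ℝ n (fun z => L (g z)) U :=
  (L.restrictScalars ℝ).contDiff.comp_contDiffOn h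

end clm

variable {X : Type*} [TopologicalSpace X] [ChartedSpace C2 X] {A : FinAt X}

/-- kernels from functions with values in `W` to sections of `S` -/
structure KW {V : Type} [NormedAddCommGroup V] [NormedSpace ℂ V] (S : SB A V) (W : Type)
    [NormedAddCommGroup W] [NormedSpace ℂ W] where
  k : Fin A.N → Fin A.N → C2 → C2 → W →L[ℂ] V
  smooth : ∀ a b v, ContDiffOn ℝ ∞ (fun p : C2 × C2 => k a b p.1 p.2 v) (A.O a ×ˢ A.O b)
  compat : ∀ a a' b, ∀ z ∈ A.ov a a', ∀ w ∈ A.O b, ∀ v,
    k a' b (A.tau a a' z) w v = S.T a a' z (k a b z w v)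

variable {V W : Type} [NormedAddCommGroup V] [NormedSpace ℂ V] [NormedAddCommGroup W]
  [NormedSpace ℂ W] [FiniteDimensional ℂ W] {S : SB A V}

/-! ### restriction to `Y` -/

namespace SB

theorem continuousOn_sec {u : Fin A.N → C2 → V} (hu : u ∈ S.Sec) (a : Fin A.N) :
    ContinuousOn (u a) (A.K a) := (hu.1 a).continuousOn.mono (FinAt.K_sub_O a)

variable (S)

/-- restriction of smooth sections to `Y` -/
def res : S.Sec →ₗ[ℂ] C(A.Y, V) where
  toFun u := ⟨fun y => u.1 y.1.1 y.1.2, FinAt.continuous_Y (continuousOn_sec u.2)⟩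
  map_add' u v := by ext y; simp
  map_smul' c u := by ext y; simp

@[simp] theorem res_apply (u : S.Sec) (y : A.Y) : S.res u y = u.1 y.1.1 y.1.2 := rfl

theorem res_injective : Function.Injective S.res := by
  rw [← LinearMap.ker_eq_bot, LinearMap.ker_eq_bot']
  intro u hu
  apply Subtype.ext
  funext a z
  by_cases hz : z ∈ A.O a
  · obtain ⟨b, hb, hK, _⟩ := FinAt.exists_mem_K a hz
    have h1 : u.1 b (A.tau a b z) = 0 := by
      have := congrArg (fun f => f ⟨(b, A.tau a b z), hK⟩) hu
      simpa using this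
    have h2 := u.2.2.2 b a (A.tau a b z) (FinAt.tau_mem hb)
    rw [FinAt.tau_tau hb, h1, map_zero] at h2
    simpa using h2
  · simpa using u.2.2.1 a z hz

variable [CompactSpace X]

/-- the Banach space of continuous sections: closure of the smooth sections -/
def Bn : Submodule ℂ C(A.Y, V) := (LinearMap.range S.res).topologicalClosure

instance [CompleteSpace V] : CompleteSpace S.Bn :=
  (Submodule.isClosed_topologicalClosure _).completeSpace_coe

theorem res_mem (u : S.Sec) : S.res u ∈ S.Bn :=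
  Submodule.le_topologicalClosure _ ⟨u, rfl⟩

/-- smooth sections as elements of the Banach space -/
def i : S.Sec →ₗ[ℂ] S.Bn := S.res.codRestrict _ S.res_mem

@[simp] theorem i_coe (u : S.Sec) : (S.i u : C(A.Y, V)) = S.res u := rfl

/-- the inclusion of the Banach space in `C(Y, V)` -/
def j : S.Bn →L[ℂ] C(A.Y, V) := S.Bn.subtypeL

@[simp] theorem j_apply (x : S.Bn) : S.j x = (x : C(A.Y, V)) := rfl

theorem j_i (u : S.Sec) : S.j (S.i u) = S.res u := rfl

theorem i_injective : Function.Injective S.i := by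
  intro u v h
  exact S.res_injective (congrArg Subtype.val h)

theorem i_dense : DenseRange S.i := by
  intro x
  rw [mem_closure_iff_seq_limit]
  have hx : (x : C(A.Y, V)) ∈ closure (Set.range S.res) := by
    have := x.2
    unfold Bn at this
    rw [← SetLike.mem_coe, Submodule.topologicalClosure_coe] at this
    exact this
  obtain ⟨f, hf, hlim⟩ := mem_closure_iff_seq_limit.1 hx
  choose u hu using hf
  refine ⟨fun n => S.i (u n), fun n => ⟨u n, rfl⟩, ?_⟩
  rw [tendsto_subtype_rng]
  simpa [hu] using hlim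

/-- elements of the Banach space are compatible -/
theorem compat_of_mem {x : C(A.Y, V)} (hx : x ∈ S.Bn) {a b : Fin A.N} {z : C2} (hz : z ∈ A.K a)
    (hzb : z ∈ A.ov a b) (hw : A.tau a b z ∈ A.K b) :
    x ⟨(b, A.tau a b z), hw⟩ = S.T a b z (x ⟨(a, z), hz⟩) := by
  have h1 : IsClosed {x : C(A.Y, V) | x ⟨(b, A.tau a b z), hw⟩ = S.T a b z (x ⟨(a, z), hz⟩)} := by
    apply isClosed_eq
    · exact continuous_eval_const _
    · exact (S.T a b z).continuous.comp (continuous_eval_const _)
  have h2 : S.Bn ≤ S.Bn := le_rfl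
  have hx' : x ∈ closure (Set.range S.res) := by
    unfold Bn at hx
    rw [← SetLike.mem_coe, Submodule.topologicalClosure_coe] at hx
    exact hx
  refine closure_minimal ?_ h1 hx'
  rintro _ ⟨u, rfl⟩
  exact u.2.2.2 a b z hzb

end SB

theorem FinAt.continuous_YY {E : Type*} [TopologicalSpace E]
    {F : Fin A.N → Fin A.N → C2 → C2 → E}
    (hF : ∀ a b, ContinuousOn (fun p : C2 × C2 => F a b p.1 p.2) (A.K a ×ˢ A.K b)) :
    Continuous fun p : A.Y × A.Y => F p.1.1.1 p.2.1.1 p.1.1.2 p.2.1.2 := by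
  rw [continuous_iff_continuousAt]
  rintro ⟨y0, z0⟩
  have hev : ∀ y0 : A.Y, ∀ᶠ y : A.Y in 𝓝 y0, y.1.1 = y0.1.1 := by
    intro y0
    have h : IsOpen {y : A.Y | y.1.1 = y0.1.1} :=
      (isOpen_discrete ({y0.1.1} : Set (Fin A.N))).preimage
        (continuous_fst.comp continuous_subtype_val)
    exact h.mem_nhds rfl
  have hev2 : ∀ᶠ p : A.Y × A.Y in 𝓝 (y0, z0), p.1.1.1 = y0.1.1 ∧ p.2.1.1 = z0.1.1 :=
    ((continuous_fst.tendsto (y0, z0)).eventually (hev y0)).and
      ((continuous_snd.tendsto (y0, z0)).eventually (hev z0))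
  have h1 : ContinuousAt (fun p : A.Y × A.Y => F y0.1.1 z0.1.1 p.1.1.2 p.2.1.2) (y0, z0) := by
    have h2 := (hF y0.1.1 z0.1.1) (y0.1.2, z0.1.2) ⟨y0.2, z0.2⟩
    refine Tendsto.comp (g := fun p : C2 × C2 => F y0.1.1 z0.1.1 p.1 p.2)
      (f := fun p : A.Y × A.Y => (p.1.1.2, p.2.1.2)) h2 ?_
    rw [tendsto_nhdsWithin_iff]
    refine ⟨Continuous.tendsto (by fun_prop) _, ?_⟩
    filter_upwards [hev2] with p hp
    refine ⟨?_, ?_⟩
    · change p.1.1.2 ∈ A.K y0.1.1
      rw [← hp.1]; exact p.1.2
    · change p.2.1.2 ∈ A.K z0.1.1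
      rw [← hp.2]; exact p.2.2
  refine h1.congr ?_
  filter_upwards [hev2] with p hp
  rw [hp.1, hp.2]

namespace KW

variable (k : KW S W)

theorem smoothAt {a b : Fin A.N} {z w : C2} (hz : z ∈ A.O a) (hw : w ∈ A.O b) (v : W) :
    ContDiffAt ℝ ∞ (fun p : C2 × C2 => k.k a b p.1 p.2 v) (z, w) :=
  (k.smooth a b v).contDiffAt (((A.isOpen_O a).prod (A.isOpen_O b)).mem_nhds ⟨hz, hw⟩)

theorem smoothAt_clm {a b : Fin A.N} {z w : C2} (hz : z ∈ A.O a) (hw : w ∈ A.O b) :
    ContDiffAt ℝ ∞ (fun p : C2 × C2 => k.k a b p.1 p.2) (z, w) :=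
  contDiffAt_clm_of_apply fun v => k.smoothAt hz hw v

open Classical in
/-- the slices `z ↦ k(z, w) v` are smooth sections -/
def slice (b : Fin A.N) (w : C2) : W →ₗ[ℂ] S.Sec :=
  if hw : w ∈ A.O b then
    { toFun := fun v => ⟨fun a z => if z ∈ A.O a then k.k a b z w v else 0, by
        refine ⟨fun a => ?_, fun a z hz => by simp [hz], fun a a' z hz => ?_⟩
        · have h : ContDiffOn ℝ ∞ (fun z => k.k a b z w v) (A.O a) := fun z hz =>
            ((k.smoothAt hz hw v).comp z (contDiffAt_id.prodMk contDiffAt_const)).contDiffWithinAt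
          exact h.congr fun z hz => by simp [hz]
        · beta_reduce
          rw [if_pos (FinAt.tau_mem_O hz), if_pos hz.1]
          exact k.compat a a' b z hz w hw v⟩
      map_add' := fun v v' => by
        apply Subtype.ext
        funext a z
        by_cases hz : z ∈ A.O a <;> simp [hz]
      map_smul' := fun c v => by
        apply Subtype.ext
        funext a z
        by_cases hz : z ∈ A.O a <;> simp [hz] }
  else 0

theorem slice_apply {a b : Fin A.N} {z w : C2} (hz : z ∈ A.O a) (hw : w ∈ A.O b) (v : W) :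
    (k.slice b w v).1 a z = k.k a b z w v := by
  unfold slice
  rw [dif_pos hw]
  simp [hz]

variable [CompactSpace X] [CompleteSpace V]

/-- the kernel as a continuous function of `y ∈ Y` with values in the Banach space -/
def ker : C(A.Y, W →L[ℂ] S.Bn) where
  toFun y := LinearMap.toContinuousLinearMap (S.i ∘ₗ k.slice y.1.1 y.1.2)
  continuous_toFun := by
    refine continuous_clm_of_apply fun v => ?_
    refine Continuous.subtype_mk ?_ _
    rw [continuous_iff_continuousAt]
    intro y0
    refine continuousAt_toC fun z => ?_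
    have h : Continuous fun p : A.Y × A.Y => k.k p.1.1.1 p.2.1.1 p.1.1.2 p.2.1.2 v := by
      refine FinAt.continuous_YY (F := fun a b z w => k.k a b z w v) fun a b p hp => ?_
      exact (k.smoothAt (FinAt.K_sub_O a hp.1) (FinAt.K_sub_O b hp.2) v).continuousAt
        |>.continuousWithinAt
    refine (h.continuousAt (x := (z, y0))).congr ?_
    refine Filter.Eventually.of_forall fun p => ?_
    exact (k.slice_apply (FinAt.K_sub_O _ p.1.2) (FinAt.K_sub_O _ p.2.2) v).symm

theorem ker_apply (y : A.Y) (v : W) : k.ker y v = S.i (k.slice y.1.1 y.1.2 v) := rfl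

theorem ker_eval (y y' : A.Y) (v : W) :
    (k.ker y v : C(A.Y, V)) y' = k.k y'.1.1 y.1.1 y'.1.2 y.1.2 v := by
  rw [ker_apply]
  exact k.slice_apply (FinAt.K_sub_O _ y'.2) (FinAt.K_sub_O _ y.2) v

/-- `g ↦ ∫ g(y) (u y)` -/
def ell (u : C(A.Y, W)) : C(A.Y, W →L[ℂ] V) →L[ℂ] V :=
  LinearMap.mkContinuous (𝕜 := ℂ) (𝕜₂ := ℂ) (σ := RingHom.id ℂ) (E := C(A.Y, W →L[ℂ] V)) (F := V)
    { toFun := fun g : C(A.Y, W →L[ℂ] V) => ∫ y, g y (u y) ∂A.lam
      map_add' := fun g g' => by
        have h1 : Integrable (fun y => g y (u y)) A.lam := H221.integ_cont _ (by fun_prop)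
        have h2 : Integrable (fun y => g' y (u y)) A.lam := H221.integ_cont _ (by fun_prop)
        simpa using integral_add h1 h2
      map_smul' := fun c g => by simpa using integral_smul c (fun y => g y (u y)) }
    (‖u‖ * A.lam.real Set.univ) (fun g => by
      have := norm_integral_le_of_norm_le_const (μ := A.lam) (f := fun y => g y (u y))
        (C := ‖g‖ * ‖u‖) (Filter.Eventually.of_forall fun y =>
          ((g y).le_opNorm _).trans (mul_le_mul (g.norm_coe_le_norm y)
            (u.norm_coe_le_norm _) (norm_nonneg _) (norm_nonneg g)))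
      calc ‖∫ y, g y (u y) ∂A.lam‖ ≤ ‖g‖ * ‖u‖ * A.lam.real Set.univ := this
        _ = ‖u‖ * A.lam.real Set.univ * ‖g‖ := by ring)

theorem ell_apply (u : C(A.Y, W)) (g : C(A.Y, W →L[ℂ] V)) :
    ell u g = ∫ y, g y (u y) ∂A.lam := rfl

theorem jointAt {a : Fin A.N} {z : C2} (hz : z ∈ A.O a) (y : A.Y) :
    JointAt C2 ∞ (fun (y : A.Y) (z : C2) => k.k a y.1.1 z y.1.2) y z := by
  have hev : ∀ᶠ y' : A.Y in 𝓝 y, y'.1.1 = y.1.1 := by
    have h : IsOpen {y' : A.Y | y'.1.1 = y.1.1} :=
      (isOpen_discrete ({y.1.1} : Set (Fin A.N))).preimage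
        (continuous_fst.comp continuous_subtype_val)
    exact h.mem_nhds rfl
  refine ⟨_, hev, A.O a, (A.isOpen_O a).mem_nhds hz, fun y => y.1.2,
    fun p => k.k a y.1.1 p.2 p.1, (by fun_prop), ?_, ?_⟩
  · intro y' hy' z' hz'
    have hy'' : y'.1.1 = y.1.1 := hy'
    have hw : y'.1.2 ∈ A.O y.1.1 := by
      have := FinAt.K_sub_O _ y'.2
      rwa [hy''] at this
    have h := k.smoothAt_clm hz' hw
    exact ContDiffAt.comp (y'.1.2, z') (g := fun p : C2 × C2 => k.k a y.1.1 p.1 p.2)
      (f := fun p : C2 × C2 => (p.2, p.1)) h (contDiffAt_snd.prodMk contDiffAt_fst)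
  · intro y' hy' z' hz'
    have hy'' : y'.1.1 = y.1.1 := hy'
    simp only [hy'']

/-- the kernel as a smooth function of `z` with values in `C(Y, W →L V)` -/
def G (a : Fin A.N) (z : C2) : C(A.Y, W →L[ℂ] V) := toC fun y : A.Y => k.k a y.1.1 z y.1.2

theorem G_smooth (a : Fin A.N) :
    @ContDiffOn ℝ _ C2 _ _ C(A.Y, W →L[ℂ] V) _ (NormedSpace.complexToReal) ∞ (k.G a) (A.O a) := by
  have h : ContDiffOn ℝ ∞ (k.G a) (A.O a) :=
    contDiffOn_toC (A.isOpen_O a) fun y z hz => k.jointAt hz y
  exact h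

theorem G_apply {a : Fin A.N} {z : C2} (hz : z ∈ A.O a) (y : A.Y) :
    k.G a z y = k.k a y.1.1 z y.1.2 := by
  unfold G
  rw [toC_apply]
  rw [continuous_iff_continuousAt]
  intro y0
  have h := (JointAt.of_le (m := 0) (by simp) (k.jointAt hz y0)).continuousAt
  exact ContinuousAt.comp (f := fun y : A.Y => (y, z)) h (by fun_prop)

open Classical in
/-- the operator of a kernel on continuous functions, with values in smooth sections -/
def app (u : C(A.Y, W)) : S.Sec :=
  ⟨fun a z => if z ∈ A.O a then ell u (k.G a z) else 0, by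
    refine ⟨fun a => ?_, fun a z hz => by simp [hz], fun a b z hz => ?_⟩
    · have h : ContDiffOn ℝ ∞ (fun z => ell u (k.G a z)) (A.O a) :=
        contDiffOn_clm_comp (ell u) (k.G_smooth a)
      exact h.congr fun z hz => by simp [hz]
    · beta_reduce
      rw [if_pos (FinAt.tau_mem_O hz), if_pos hz.1, ell_apply, ell_apply,
        ← ContinuousLinearMap.integral_comp_comm _ (H221.integ_cont _ (by fun_prop))]
      refine integral_congr_ae (Filter.Eventually.of_forall fun y => ?_)
      beta_reduce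
      rw [k.G_apply (FinAt.tau_mem_O hz), k.G_apply hz.1]
      exact k.compat _ _ _ z hz _ (FinAt.K_sub_O _ y.2) _⟩

theorem app_eq (u : C(A.Y, W)) {a : Fin A.N} {z : C2} (hz : z ∈ A.O a) :
    (k.app u).1 a z = ell u (k.G a z) := by
  simp [app, hz]

theorem app_apply (u : C(A.Y, W)) {a : Fin A.N} {z : C2} (hz : z ∈ A.O a) :
    (k.app u).1 a z = ∫ y : A.Y, k.k a y.1.1 z y.1.2 (u y) ∂A.lam := by
  rw [app_eq k u hz, ell_apply]
  refine integral_congr_ae (Filter.Eventually.of_forall fun y => ?_)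
  beta_reduce
  rw [k.G_apply hz]

theorem continuous_app_int {a : Fin A.N} {z : C2} (hz : z ∈ A.O a) (u : C(A.Y, W)) :
    Continuous fun y : A.Y => k.k a y.1.1 z y.1.2 (u y) := by
  have h : (fun y : A.Y => k.k a y.1.1 z y.1.2 (u y)) = fun y => k.G a z y (u y) := by
    funext y
    rw [k.G_apply hz]
  rw [h]
  fun_prop

/-- the operator `bop` of the kernel -/
theorem bop_ker (u : C(A.Y, W)) : H221.bop A.lam k.ker u = S.i (k.app u) := by
  apply Subtype.ext
  ext y'
  have hz := FinAt.K_sub_O _ y'.2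
  rw [SB.i_coe, SB.res_apply, k.app_apply u hz, H221.bop_apply]
  let ev : S.Bn →L[ℂ] V := (ContinuousMap.evalCLM ℂ y').comp S.j
  have h1 := ev.integral_comp_comm (μ := A.lam) (φ := fun y => k.ker y (u y))
    (H221.integ_cont _ (by fun_prop))
  have h2 : ev (∫ y, k.ker y (u y) ∂A.lam) = (∫ y, k.ker y (u y) ∂A.lam : S.Bn).1 y' := rfl
  rw [← h2, ← h1]
  refine integral_congr_ae (Filter.Eventually.of_forall fun y => ?_)
  exact k.ker_eval y y' (u y)

end KW

end Vale.Agent.P267.RR
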