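import Vale.Agent.P267.H399.Calc2

/-!
# P267, package RR: mollifiers on `C2`
-/

set_option linter.unusedVariables false
set_option linter.unusedSectionVars false

open scoped Manifold ContDiff ComplexConjugate Matrix Topology
open MeasureTheory Set Filter

noncomputable section

namespace Vale.Agent.P267.RR

open FL

/-- the bump functions -/
def bump (n : ℕ) : ContDiffBump (0 : C2) where
  rIn := 1 / (2 * ((n : ℝ) + 1))
  rOut := 1 / ((n : ℝ) + 1)
  rIn_pos := by positivity
  rIn_lt_rOut := by
    apply one_div_lt_one_div_of_lt (by positivity)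
    have : (0 : ℝ) < (n : ℝ) + 1 := by positivity
    linarith

/-- the mollifier, `≥ 0`, integral one, supported in the ball of radius `1/(n+1)` -/
def phi (n : ℕ) (z : C2) : ℂ := (((bump n).normed volume z : ℝ) : ℂ)

theorem phi_contDiff (n : ℕ) : ContDiff ℝ ∞ (phi n) :=
  Complex.ofRealCLM.contDiff.comp (bump n).contDiff_normed

variable {V : Type*} [NormedAddCommGroup V] [NormedSpace ℂ V]

theorem integral_comb {f g : C2 → V} (a b : ℂ) (hf : Integrable f) (hg : Integrable g) :
    ∫ w, (a • f w + b • g w) = a • (∫ w, f w) + b • ∫ w, g w := by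
  have h1 : Integrable (fun w => a • f w) := hf.smul a
  have h2 : Integrable (fun w => b • g w) := hg.smul b
  rw [integral_add h1 h2, integral_smul, integral_smul]

/-- mollification converges uniformly -/
theorem moll_tendsto [CompleteSpace V] {F : C2 → V} (hF : Continuous F) (hc : HasCompactSupport F) {ε : ℝ}
    (hε : 0 < ε) : ∀ᶠ n in atTop, ∀ z, ‖(∫ w, phi n (z - w) • F w) - F z‖ ≤ ε := by
  have hu : UniformContinuous F := hc.uniformContinuous_of_continuous hF
  obtain ⟨δ, hδ, hd⟩ := Metric.uniformContinuous_iff.1 hu ε hε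
  obtain ⟨N, hN⟩ := exists_nat_gt (1 / δ)
  filter_upwards [eventually_ge_atTop N] with n hn z
  have h1 : (1 : ℝ) / ((n : ℝ) + 1) < δ := by
    rw [div_lt_iff₀ (by positivity)]
    have h2 : (N : ℝ) ≤ n := by exact_mod_cast hn
    have h3 : 1 / δ < (n : ℝ) + 1 := by linarith
    rw [div_lt_iff₀ hδ] at h3
    linarith
  have h2 := (bump n).dist_normed_convolution_le (μ := volume) (g := F) (x₀ := z) (ε := ε)
    hF.aestronglyMeasurable (fun x hx => (hd (lt_trans hx h1)).le)
  rw [dist_eq_norm] at h2
  have h3 : (∫ w, phi n (z - w) • F w) =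
      convolution ((bump n).normed volume) F (ContinuousLinearMap.lsmul ℝ ℝ) volume z := by
    have h4 := integral_sub_left_eq_self (fun t => phi n t • F (z - t)) volume z
    simp only [sub_sub_cancel] at h4
    rw [h4]
    rfl
  rw [h3]
  exact h2

/-- integration by parts against a mollifier -/
theorem moll_ibp {f : C2 → ℂ} (hf : ContDiff ℝ ∞ f) {F : C2 → V} (hF : ContDiff ℝ ∞ F)
    (hc : HasCompactSupport F) (z : C2) (j : Fin 2) :
    ∫ w, f (z - w) • dzb j F w = ∫ w, dzb j f (z - w) • F w := by
  have hd : Continuous (fderiv ℝ F) := hF.continuous_fderiv (by simp)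
  have hdf : Continuous (fderiv ℝ f) := hf.continuous_fderiv (by simp)
  have hg : ∀ w, HasFDerivAt (fun w => f (z - w)) (-(fderiv ℝ f (z - w))) w := by
    intro w
    have h1 : HasFDerivAt f (fderiv ℝ f (z - w)) (z - w) :=
      (hf.differentiable (by simp) _).hasFDerivAt
    have h2 : HasFDerivAt (fun w : C2 => z - w) (-(ContinuousLinearMap.id ℝ C2)) w :=
      (hasFDerivAt_id w).const_sub z
    have h3 := h1.comp w h2
    have h4 : (fderiv ℝ f (z - w)).comp (-(ContinuousLinearMap.id ℝ C2)) =
        -(fderiv ℝ f (z - w)) := by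
      ext v
      simp
    rw [h4] at h3
    exact h3
  have hcd : ∀ v, HasCompactSupport fun w => fderiv ℝ F w v := fun v => hc.fderiv_apply ℝ v
  have key : ∀ v : C2, ∫ w, f (z - w) • fderiv ℝ F w v = ∫ w, fderiv ℝ f (z - w) v • F w := by
    intro v
    have hfc : Continuous fun w => f (z - w) := hf.continuous.comp (by fun_prop)
    have hfdc : Continuous fun w => fderiv ℝ f (z - w) v :=
      (hdf.comp (by fun_prop : Continuous fun w => z - w)).clm_apply continuous_const
    have i1 : Integrable (fun w => (fderiv ℝ f (z - w) v) • F w) :=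
      (hfdc.smul hF.continuous).integrable_of_hasCompactSupport hc.smul_left
    have i2 : Integrable (fun w => f (z - w) • fderiv ℝ F w v) :=
      (hfc.smul (hd.clm_apply continuous_const)).integrable_of_hasCompactSupport
        (hcd v).smul_left
    have i3 : Integrable (fun w => f (z - w) • F w) :=
      (hfc.smul hF.continuous).integrable_of_hasCompactSupport hc.smul_left
    have h := integral_smul_fderiv_eq_neg_fderiv_smul_of_integrable (μ := volume)
      (f := fun w => f (z - w)) (g := F) (v := v) (by
        simp only [(hg _).fderiv, neg_apply, neg_smul]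
        exact i1.neg) i2 i3 (fun w _ => (hg w).differentiableAt)
        (fun w _ => hF.differentiable (by simp) w)
    rw [h]
    simp only [(hg _).fderiv, neg_apply, neg_smul, integral_neg, neg_neg]
  unfold dzb
  have e1 : ∀ w, f (z - w) • ((1 / 2 : ℂ) • (fderiv ℝ F w (Pi.single j 1) +
      Complex.I • fderiv ℝ F w (Pi.single j Complex.I))) =
      (1 / 2 : ℂ) • (f (z - w) • fderiv ℝ F w (Pi.single j 1)) +
      (1 / 2 * Complex.I : ℂ) • (f (z - w) • fderiv ℝ F w (Pi.single j Complex.I)) := by
    intro w; module
  have e2 : ∀ w, ((1 / 2 : ℂ) • (fderiv ℝ f (z - w) (Pi.single j 1) +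
      Complex.I • fderiv ℝ f (z - w) (Pi.single j Complex.I))) • F w =
      (1 / 2 : ℂ) • (fderiv ℝ f (z - w) (Pi.single j 1) • F w) +
      (1 / 2 * Complex.I : ℂ) • (fderiv ℝ f (z - w) (Pi.single j Complex.I) • F w) := by
    intro w
    simp only [smul_eq_mul]
    module
  have hfc : Continuous fun w => f (z - w) := hf.continuous.comp (by fun_prop)
  have j1 : ∀ v, Integrable (fun w => f (z - w) • fderiv ℝ F w v) := fun v =>
    (hfc.smul (hd.clm_apply continuous_const)).integrable_of_hasCompactSupport (hcd v).smul_left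
  have j2 : ∀ v, Integrable (fun w => (fderiv ℝ f (z - w) v) • F w) := fun v =>
    (((hdf.comp (by fun_prop : Continuous fun w => z - w)).clm_apply continuous_const).smul
      hF.continuous).integrable_of_hasCompactSupport hc.smul_left
  simp only [e1, e2]
  rw [integral_comb _ _ (j1 _) (j1 _), integral_comb _ _ (j2 _) (j2 _), key, key]

end Vale.Agent.P267.RR
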