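import Vale.Agent.P267.H221.Ext
import Vale.Agent.P267.H221.Phi

/-!
# P267, package RR: mollifiers for sections of a holomorphic bundle
-/

set_option linter.unusedVariables false
set_option linter.unusedSectionVars false

open scoped Manifold ContDiff ComplexConjugate Matrix Topology
open MeasureTheory Set Filter

noncomputable section

namespace Vale.Agent.P267.RR

open FL H439

variable {X : Type*} [TopologicalSpace X] [ChartedSpace C2 X]

/-- cut-off functions, equal to one near the supports of the partition of unity -/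
structure Cut (A : FinAt X) where
  chi : Fin A.N → C2 → ℂ
  L : Fin A.N → Set C2
  hL : ∀ b, IsCompact (L b)
  hLO : ∀ b, L b ⊆ A.O b
  smooth : ∀ b, ContDiff ℝ ∞ (chi b)
  supp : ∀ b, ∀ z ∉ L b, chi b z = 0
  one : ∀ b, ∀ z ∈ A.K b, ∀ᶠ z' in 𝓝 z, chi b z' = 1

theorem exists_cut [CompactSpace X] (A : FinAt X) : Nonempty (Cut A) := by
  have key : ∀ b, ∃ (L : Set C2) (f : C2 → ℂ), IsCompact L ∧ L ⊆ A.O b ∧ ContDiff ℝ ∞ f ∧
      (∀ z ∉ L, f z = 0) ∧ ∀ z ∈ A.K b, ∀ᶠ z' in 𝓝 z, f z' = 1 := by
    intro b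
    obtain ⟨L, hL, hKL, hLO⟩ := exists_compact_between (FinAt.isCompact_K b) (A.isOpen_O b)
      (FinAt.K_sub_O b)
    obtain ⟨f, hf1, hf0, -⟩ := exists_contMDiffMap_one_nhds_of_subset_interior 𝓘(ℝ, C2)
      (n := ⊤) (FinAt.isCompact_K b).isClosed hKL
    refine ⟨L, fun z => ((f z : ℝ) : ℂ), hL, hLO, ?_, ?_, ?_⟩
    · exact Complex.ofRealCLM.contDiff.comp (contMDiff_iff_contDiff.1 f.contMDiff)
    · intro z hz
      beta_reduce
      rw [hf0 z hz]; simp
    · intro z hz
      have h1 := (mem_nhdsSet_iff_forall.1 hf1) z hz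
      filter_upwards [h1] with z' hz'
      rw [hz']; simp
  choose L f h1 h2 h3 h4 h5 using key
  exact ⟨⟨f, L, h1, h2, h3, h4, h5⟩⟩

namespace Cut

variable {A : FinAt X} (c : Cut A)

theorem eq_one {b : Fin A.N} {z : C2} (hz : z ∈ A.K b) : c.chi b z = 1 :=
  (c.one b z hz).self_of_nhds

theorem dzb_zero {b : Fin A.N} {z : C2} (hz : z ∈ A.K b) (j : Fin 2) :
    dzb j (c.chi b) z = 0 := by
  have h : c.chi b =ᶠ[𝓝 z] fun _ => 1 := c.one b z hz
  rw [dzb_congr h, dzb_const]

theorem dzb_supp {b : Fin A.N} {z : C2} (hz : z ∉ c.L b) (j : Fin 2) :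
    dzb j (c.chi b) z = 0 := by
  have h : c.chi b =ᶠ[𝓝 z] fun _ => 0 := by
    filter_upwards [(c.hL b).isClosed.isOpen_compl.mem_nhds hz] with z' hz'
    exact c.supp b z' hz'
  rw [dzb_congr h, dzb_const]

end Cut

/-! ### scalar kernels -/

/-- scalar kernels with compact support in the first variable -/
structure SK (A : FinAt X) where
  c : Fin A.N → C2 → C2 → ℂ
  L : Fin A.N → Set C2
  hL : ∀ b, IsCompact (L b)
  hLO : ∀ b, L b ⊆ A.O b
  smooth : ∀ b, ContDiffOn ℝ ∞ (fun p : C2 × C2 => c b p.1 p.2) (A.O b ×ˢ A.O b)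
  supp : ∀ b z w, z ∉ L b → c b z w = 0

variable {A : FinAt X}

/-- multiplication kernel -/
def SK.mul (s : SK A) (V : Type) [NormedAddCommGroup V] [NormedSpace ℂ V] : EK A V V where
  G b z w := s.c b z w • ContinuousLinearMap.id ℂ V
  L := s.L
  hL := s.hL
  hLO := s.hLO
  smooth b v := (s.smooth b).smul contDiffOn_const
  supp b z w hz := by simp [s.supp b z w hz]

/-- degree 0 to degree 1 -/
def SK.w01 (s : Fin 2 → SK A) (hs : ∀ j, (s j).L = (s 0).L) (r : ℕ) :
    EK A (Fin 2 → Fin r → ℂ) (Fin r → ℂ) where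
  G b z w := ContinuousLinearMap.pi fun j => (s j).c b z w • ContinuousLinearMap.id ℂ (Fin r → ℂ)
  L := (s 0).L
  hL := (s 0).hL
  hLO := (s 0).hLO
  smooth b v := by
    rw [contDiffOn_pi]
    intro j
    exact ((s j).smooth b).smul contDiffOn_const
  supp b z w hz := by
    ext v j
    have h : (s j).c b z w = 0 := (s j).supp b z w (by rw [hs j]; exact hz)
    simp [h]

/-- degree 1 to degree 2 -/
def SK.w12 (s : Fin 2 → SK A) (hs : ∀ j, (s j).L = (s 0).L) (r : ℕ) :
    EK A (Fin r → ℂ) (Fin 2 → Fin r → ℂ) where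
  G b z w := (s 0).c b z w • ContinuousLinearMap.proj 1 - (s 1).c b z w • ContinuousLinearMap.proj 0
  L := (s 0).L
  hL := (s 0).hL
  hLO := (s 0).hLO
  smooth b v := by
    have h : ContDiffOn ℝ ∞ (fun p : C2 × C2 =>
        (s 0).c b p.1 p.2 • v 1 - (s 1).c b p.1 p.2 • v 0) (A.O b ×ˢ A.O b) :=
      (((s 0).smooth b).smul contDiffOn_const).sub (((s 1).smooth b).smul contDiffOn_const)
    exact h.congr fun p _ => rfl
  supp b z w hz := by
    have h0 : (s 0).c b z w = 0 := (s 0).supp b z w hz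
    have h1 : (s 1).c b z w = 0 := (s 1).supp b z w (by rw [hs 1]; exact hz)
    ext v : 1
    change (s 0).c b z w • v 1 - (s 1).c b z w • v 0 = 0
    rw [h0, h1, zero_smul, zero_smul, sub_zero]

/-! ### the kernels of the mollifiers -/

variable [CompactSpace X]

/-- `r b` as a complex function -/
def rc (A : FinAt X) (b : Fin A.N) (w : C2) : ℂ := (A.r b w : ℂ)

theorem rc_contDiff (b : Fin A.N) : ContDiff ℝ ∞ (rc A b) :=
  Complex.ofRealCLM.contDiff.comp (FinAt.r_contDiff b)

theorem rc_zero {b : Fin A.N} {w : C2} (hw : w ∉ A.K b) : rc A b w = 0 := by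
  simp [rc, FinAt.r_zero hw]

theorem dzb_rc_zero {b : Fin A.N} {w : C2} (hw : w ∉ A.K b) (j : Fin 2) :
    dzb j (rc A b) w = 0 := by
  have h : rc A b =ᶠ[𝓝 w] fun _ => 0 := by
    filter_upwards [(FinAt.isCompact_K b).isClosed.isOpen_compl.mem_nhds hw] with z' hz'
    exact rc_zero hz'
  rw [dzb_congr h, dzb_const]

theorem contDiff_dzb {V : Type*} [NormedAddCommGroup V] [NormedSpace ℂ V] {f : C2 → V}
    (hf : ContDiff ℝ ∞ f) (j : Fin 2) : ContDiff ℝ ∞ (dzb j f) := by
  rw [← contDiffOn_univ]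
  exact contDiffOn_dzb isOpen_univ hf.contDiffOn (by exact_mod_cast le_rfl) j

namespace Cut

variable (c : Cut A) (n : ℕ)

/-- `χ(z) φ_n(z-w) r(w)` -/
def s0 : SK A where
  c b z w := c.chi b z * phi n (z - w) * rc A b w
  L := c.L
  hL := c.hL
  hLO := c.hLO
  smooth b := by
    refine ContDiff.contDiffOn ?_
    exact (((c.smooth b).comp contDiff_fst).mul
      ((phi_contDiff n).comp (contDiff_fst.sub contDiff_snd))).mul
        ((rc_contDiff b).comp contDiff_snd)
  supp b z w hz := by simp [c.supp b z hz]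

/-- the `∂̄`-derivative in `z` of `s0` -/
def sd (j : Fin 2) : SK A where
  c b z w := (dzb j (c.chi b) z * phi n (z - w) + c.chi b z * dzb j (phi n) (z - w)) * rc A b w
  L := c.L
  hL := c.hL
  hLO := c.hLO
  smooth b := by
    refine ContDiff.contDiffOn ?_
    exact ((((contDiff_dzb (c.smooth b) j).comp contDiff_fst).mul
      ((phi_contDiff n).comp (contDiff_fst.sub contDiff_snd))).add
      (((c.smooth b).comp contDiff_fst).mul
      ((contDiff_dzb (phi_contDiff n) j).comp (contDiff_fst.sub contDiff_snd)))).mul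
        ((rc_contDiff b).comp contDiff_snd)
  supp b z w hz := by simp [c.supp b z hz, c.dzb_supp hz]

/-- the commutator kernel -/
def sg (j : Fin 2) : SK A where
  c b z w := -(dzb j (c.chi b) z * phi n (z - w) * rc A b w +
    c.chi b z * phi n (z - w) * dzb j (rc A b) w)
  L := c.L
  hL := c.hL
  hLO := c.hLO
  smooth b := by
    refine ContDiff.contDiffOn ?_
    exact (((((contDiff_dzb (c.smooth b) j).comp contDiff_fst).mul
      ((phi_contDiff n).comp (contDiff_fst.sub contDiff_snd))).mul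
        ((rc_contDiff b).comp contDiff_snd)).add
      ((((c.smooth b).comp contDiff_fst).mul
      ((phi_contDiff n).comp (contDiff_fst.sub contDiff_snd))).mul
        ((contDiff_dzb (rc_contDiff b) j).comp contDiff_snd))).neg
  supp b z w hz := by simp [c.supp b z hz, c.dzb_supp hz]

theorem s0_apply (b : Fin A.N) (z w : C2) :
    (c.s0 n).c b z w = c.chi b z * phi n (z - w) * rc A b w := rfl

theorem sd_apply (j : Fin 2) (b : Fin A.N) (z w : C2) : (c.sd n j).c b z w =
    (dzb j (c.chi b) z * phi n (z - w) + c.chi b z * dzb j (phi n) (z - w)) * rc A b w := rfl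

theorem sg_apply (j : Fin 2) (b : Fin A.N) (z w : C2) : (c.sg n j).c b z w =
    -(dzb j (c.chi b) z * phi n (z - w) * rc A b w +
    c.chi b z * phi n (z - w) * dzb j (rc A b) w) := rfl

theorem sd_eq (j : Fin 2) (b : Fin A.N) (z w : C2) :
    (c.sd n j).c b z w = dzb j (fun z' => (c.s0 n).c b z' w) z := by
  have h1 : DifferentiableAt ℝ (c.chi b) z := (c.smooth b).differentiable (by simp) z
  have h2 : DifferentiableAt ℝ (fun z' : C2 => phi n (z' - w)) z :=
    ((phi_contDiff n).comp (contDiff_id.sub contDiff_const)).differentiable (by simp) z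
  have h3 : DifferentiableAt ℝ (fun z' : C2 => c.chi b z' * phi n (z' - w)) z := h1.mul h2
  have h4 : dzb j (fun z' : C2 => phi n (z' - w)) z = dzb j (phi n) (z - w) := by
    unfold dzb
    rw [fderiv_comp_sub]
  simp only [s0_apply, sd_apply]
  rw [dzb_mul h3 (differentiableAt_const _), dzb_mul h1 h2, dzb_const, h4]
  ring

/-- the mollifier kernel, any degree -/
def m (V : Type) [NormedAddCommGroup V] [NormedSpace ℂ V] : EK A V V := (c.s0 n).mul V

/-- `∂̄` of the mollifier kernel, degree 0 -/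
def dm0 (r : ℕ) : EK A (Fin 2 → Fin r → ℂ) (Fin r → ℂ) := SK.w01 (c.sd n) (fun _ => rfl) r

/-- `∂̄` of the mollifier kernel, degree 1 -/
def dm1 (r : ℕ) : EK A (Fin r → ℂ) (Fin 2 → Fin r → ℂ) := SK.w12 (c.sd n) (fun _ => rfl) r

/-- the commutator kernel, degree 0 -/
def g0 (r : ℕ) : EK A (Fin 2 → Fin r → ℂ) (Fin r → ℂ) := SK.w01 (c.sg n) (fun _ => rfl) r

/-- the commutator kernel, degree 1 -/
def g1 (r : ℕ) : EK A (Fin r → ℂ) (Fin 2 → Fin r → ℂ) := SK.w12 (c.sg n) (fun _ => rfl) r

theorem dm0_eq (r : ℕ) (b : Fin A.N) (z w : C2) (v : Fin r → ℂ) (j : Fin 2) :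
    (c.dm0 n r).G b z w v j = dzb j (fun z' => (c.m n (Fin r → ℂ)).G b z' w v) z := by
  change (c.sd n j).c b z w • v = dzb j (fun z' => (c.s0 n).c b z' w • v) z
  have h1 : DifferentiableAt ℝ (fun z' => (c.s0 n).c b z' w) z := by
    have h2 : ContDiff ℝ ∞ (fun z' : C2 => c.chi b z' * phi n (z' - w) * rc A b w) :=
      ((c.smooth b).mul ((phi_contDiff n).comp (contDiff_id.sub contDiff_const))).mul
        contDiff_const
    exact h2.differentiable (by simp) z
  rw [FL.dzb_smul h1 (differentiableAt_const _), dzb_const, smul_zero, zero_add, sd_eq]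

theorem dm1_eq (r : ℕ) (b : Fin A.N) (z w : C2) (v : Fin 2 → Fin r → ℂ) :
    (c.dm1 n r).G b z w v = dzb 0 (fun z' => (c.m n (Fin 2 → Fin r → ℂ)).G b z' w v 1) z -
      dzb 1 (fun z' => (c.m n (Fin 2 → Fin r → ℂ)).G b z' w v 0) z := by
  change (c.sd n 0).c b z w • v 1 - (c.sd n 1).c b z w • v 0 =
    dzb 0 (fun z' => (c.s0 n).c b z' w • v 1) z - dzb 1 (fun z' => (c.s0 n).c b z' w • v 0) z
  have h1 : DifferentiableAt ℝ (fun z' => (c.s0 n).c b z' w) z := by
    have h2 : ContDiff ℝ ∞ (fun z' : C2 => c.chi b z' * phi n (z' - w) * rc A b w) :=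
      ((c.smooth b).mul ((phi_contDiff n).comp (contDiff_id.sub contDiff_const))).mul
        contDiff_const
    exact h2.differentiable (by simp) z
  rw [FL.dzb_smul h1 (differentiableAt_const _), FL.dzb_smul h1 (differentiableAt_const _),
    dzb_const, dzb_const, smul_zero, zero_add, zero_add, sd_eq, sd_eq]

/-- integration by parts -/
theorem ibp {V : Type*} [NormedAddCommGroup V] [NormedSpace ℂ V] (b : Fin A.N) (z : C2)
    {s : C2 → V} (hs : ContDiffOn ℝ ∞ s (A.O b)) (j : Fin 2) :
    ∫ w in A.K b, (c.s0 n).c b z w • dzb j s w =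
      ∫ w in A.K b, ((c.sd n j).c b z w + (c.sg n j).c b z w) • s w := by
  set F : C2 → V := fun w => rc A b w • s w with hF
  have hsd : ∀ w ∈ A.O b, ContDiffAt ℝ ∞ s w := fun w hw =>
    hs.contDiffAt ((A.isOpen_O b).mem_nhds hw)
  have hFs : ContDiff ℝ ∞ F := by
    rw [contDiff_iff_contDiffAt]
    intro w
    by_cases hw : w ∈ A.O b
    · exact (rc_contDiff b).contDiffAt.smul (hsd w hw)
    · refine (contDiffAt_const (c := (0 : V))).congr_of_eventuallyEq ?_
      filter_upwards [(FinAt.isCompact_K b).isClosed.isOpen_compl.mem_nhds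
        fun h => hw (FinAt.K_sub_O b h)] with w' hw'
      simp [hF, rc_zero hw']
  have hFc : HasCompactSupport F := HasCompactSupport.intro (FinAt.isCompact_K b) fun w hw => by
    simp [hF, rc_zero hw]
  have hFd : ∀ w ∈ A.O b, dzb j F w = rc A b w • dzb j s w + dzb j (rc A b) w • s w := by
    intro w hw
    exact FL.dzb_smul ((rc_contDiff b).differentiable (by simp) w)
      ((hsd w hw).differentiableAt (by simp)) j
  have hF0 : ∀ w ∉ A.K b, F w = 0 := fun w hw => by simp [hF, rc_zero hw]
  have hFd0 : ∀ w ∉ A.K b, dzb j F w = 0 := by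
    intro w hw
    have h : F =ᶠ[𝓝 w] fun _ => 0 := by
      filter_upwards [(FinAt.isCompact_K b).isClosed.isOpen_compl.mem_nhds hw] with w' hw'
      exact hF0 w' hw'
    rw [dzb_congr h, dzb_const]
  have hm := moll_ibp (phi_contDiff n) hFs hFc z j
  have hφ : Continuous fun w : C2 => phi n (z - w) :=
    (phi_contDiff n).continuous.comp (by fun_prop)
  have hφd : Continuous fun w : C2 => dzb j (phi n) (z - w) :=
    (contDiff_dzb (phi_contDiff n) j).continuous.comp (by fun_prop)
  have hFdc : HasCompactSupport (dzb j F) :=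
    HasCompactSupport.intro (FinAt.isCompact_K b) hFd0
  have i1 : Integrable fun w => phi n (z - w) • dzb j F w :=
    (hφ.smul (contDiff_dzb hFs j).continuous).integrable_of_hasCompactSupport hFdc.smul_left
  have i2 : Integrable fun w => dzb j (phi n) (z - w) • F w :=
    (hφd.smul hFs.continuous).integrable_of_hasCompactSupport hFc.smul_left
  have key : ∫ w in A.K b, ((c.s0 n).c b z w • dzb j s w -
      ((c.sd n j).c b z w + (c.sg n j).c b z w) • s w) = 0 := by
    have h1 : ∫ w in A.K b, ((c.s0 n).c b z w • dzb j s w -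
        ((c.sd n j).c b z w + (c.sg n j).c b z w) • s w) =
        ∫ w in A.K b, c.chi b z • (phi n (z - w) • dzb j F w - dzb j (phi n) (z - w) • F w) := by
      refine setIntegral_congr_fun (FinAt.isCompact_K b).measurableSet fun w hw => ?_
      have e1 := hFd w (FinAt.K_sub_O b hw)
      have e2 : F w = rc A b w • s w := rfl
      rw [e1, e2, s0_apply, sd_apply, sg_apply]
      module
    rw [h1, setIntegral_eq_integral_of_forall_compl_eq_zero fun w hw => by
      rw [hF0 w hw, hFd0 w hw]; simp, integral_smul, integral_sub i1 i2, hm, sub_self, smul_zero]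
  have hcs : ContinuousOn s (A.K b) := fun w hw =>
    (hsd w (FinAt.K_sub_O b hw)).continuousAt.continuousWithinAt
  have hcd : ContinuousOn (dzb j s) (A.K b) := fun w hw =>
    ((contDiffAt_dzb (m := 0) (hsd w (FinAt.K_sub_O b hw)) (by
      simp) j).continuousAt).continuousWithinAt
  have hs0 : Continuous fun w => (c.s0 n).c b z w := by
    simp only [s0_apply]
    exact ((continuous_const.mul hφ).mul (rc_contDiff b).continuous)
  have hsdc : Continuous fun w => (c.sd n j).c b z w := by
    simp only [sd_apply]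
    exact ((continuous_const.mul hφ).add (continuous_const.mul hφd)).mul
      (rc_contDiff b).continuous
  have hsg : Continuous fun w => (c.sg n j).c b z w := by
    simp only [sg_apply]
    exact (((continuous_const.mul hφ).mul (rc_contDiff b).continuous).add
      ((continuous_const.mul hφ).mul (contDiff_dzb (rc_contDiff b) j).continuous)).neg
  have k1 : IntegrableOn (fun w => (c.s0 n).c b z w • dzb j s w) (A.K b) :=
    (hs0.continuousOn.smul hcd).integrableOn_compact (FinAt.isCompact_K b)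
  have k2 : IntegrableOn (fun w => ((c.sd n j).c b z w + (c.sg n j).c b z w) • s w) (A.K b) :=
    ((hsdc.add hsg).continuousOn.smul hcs).integrableOn_compact (FinAt.isCompact_K b)
  rw [integral_sub k1 k2, sub_eq_zero] at key
  exact key

end Cut

end Vale.Agent.P267.RR
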