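import Vale.Agent.P267.H221.Moll

/-!
# P267, package RR: the commutator of the mollifiers with `∂̄`
-/

set_option linter.unusedVariables false
set_option linter.unusedSectionVars false

open scoped Manifold ContDiff ComplexConjugate Matrix Topology
open MeasureTheory Set Filter

noncomputable section

namespace Vale.Agent.P267.RR

open FL H439

variable {X : Type*} [TopologicalSpace X] [ChartedSpace C2 X] [CompactSpace X] [T2Space X]
  [IsManifold 𝓘(ℂ, C2) ω X] {A : FinAt X} {r : ℕ} {B : Bun A r}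

theorem sec_off {V : Type} [NormedAddCommGroup V] [NormedSpace ℂ V] {S : SB A V} (u : S.Sec)
    {a : Fin A.N} {z : C2} (hz : z ∉ A.O a) : u.1 a z = 0 := u.2.2.1 a z hz

namespace Cut

variable (c : Cut A) (n : ℕ)

theorem gI_res {V W : Type} [NormedAddCommGroup V] [NormedSpace ℂ V] [NormedAddCommGroup W]
    [NormedSpace ℂ W] [FiniteDimensional ℂ W] [FiniteDimensional ℂ V] [CompleteSpace V]
    (E : EK A V W) {S : SB A W} (u : S.Sec) (b : Fin A.N) (z : C2) :
    E.gI (S.res u) b z = ∫ w in A.K b, E.G b z w (u.1 b w) := by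
  unfold EK.gI
  refine setIntegral_congr_fun (FinAt.isCompact_K b).measurableSet fun w hw => ?_
  rw [extY_eq _ hw]
  rfl

theorem gI_apply {W : Type} [NormedAddCommGroup W]
    [NormedSpace ℂ W] [FiniteDimensional ℂ W] (E : EK A (Fin 2 → Fin r → ℂ) W) (u : C(A.Y, W))
    {b : Fin A.N} {z : C2} (hz : z ∈ A.O b) (j : Fin 2) :
    E.gI u b z j = ∫ w in A.K b, E.G b z w (extY u b w) j := by
  unfold EK.gI
  exact ((ContinuousLinearMap.proj (R := ℂ)
    (φ := fun _ : Fin 2 => Fin r → ℂ) j).integral_comp_comm (E.integrableOn u hz)).symm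

theorem integrableOn_apply {W : Type} [NormedAddCommGroup W]
    [NormedSpace ℂ W] [FiniteDimensional ℂ W] (E : EK A (Fin 2 → Fin r → ℂ) W) (u : C(A.Y, W))
    {b : Fin A.N} {z : C2} (hz : z ∈ A.O b) (j : Fin 2) :
    IntegrableOn (fun w => E.G b z w (extY u b w) j) (A.K b) :=
  (ContinuousLinearMap.proj (R := ℂ)
    (φ := fun _ : Fin 2 => Fin r → ℂ) j).integrable_comp (E.integrableOn u hz)

theorem d0_val (u : B.sb0.Sec) {b : Fin A.N} {w : C2} (hw : w ∈ A.O b) (j : Fin 2) :
    (B.d0 u).1 b w j = dzb j (u.1 b) w := by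
  change Bun.d0f u.1 b w j = _
  simp [Bun.d0f, hw]

theorem d1_val (u : B.sb1.Sec) {b : Fin A.N} {w : C2} (hw : w ∈ A.O b) :
    (B.d1 u).1 b w = dzb 0 (fun y => u.1 b y 1) w - dzb 1 (fun y => u.1 b y 0) w := by
  change Bun.d1f u.1 b w = _
  simp [Bun.d1f, hw]

/-- the local identity in degree 0 -/
theorem loc0_id (u : B.sb0.Sec) {b : Fin A.N} {z : C2} (hz : z ∈ A.O b) :
    (c.m n (Fin 2 → Fin r → ℂ)).gI (B.sb1.res (B.d0 u)) b z =
      (c.dm0 n r).gI (B.sb0.res u) b z + (c.g0 n r).gI (B.sb0.res u) b z := by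
  funext j
  rw [Pi.add_apply, gI_apply _ _ hz, gI_apply _ _ hz, gI_apply _ _ hz,
    ← integral_add (integrableOn_apply _ _ hz j) (integrableOn_apply _ _ hz j)]
  have h := c.ibp n b z (u.2.1 b) j
  refine Eq.trans ?_ (h.trans ?_)
  · refine setIntegral_congr_fun (FinAt.isCompact_K b).measurableSet fun w hw => ?_
    rw [extY_eq _ hw]
    change (c.s0 n).c b z w • (B.d0 u).1 b w j = _
    rw [d0_val u (FinAt.K_sub_O b hw)]
  · refine setIntegral_congr_fun (FinAt.isCompact_K b).measurableSet fun w hw => ?_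
    rw [extY_eq _ hw]
    change _ = (c.sd n j).c b z w • u.1 b w + (c.sg n j).c b z w • u.1 b w
    rw [add_smul]

/-- the local identity in degree 1 -/
theorem loc1_id (u : B.sb1.Sec) {b : Fin A.N} {z : C2} (hz : z ∈ A.O b) :
    (c.m n (Fin r → ℂ)).gI (B.sb2.res (B.d1 u)) b z =
      (c.dm1 n r).gI (B.sb1.res u) b z + (c.g1 n r).gI (B.sb1.res u) b z := by
  have hu : ∀ p, ContDiffOn ℝ ∞ (fun y => u.1 b y p) (A.O b) := fun p =>
    contDiffOn_pi.1 (u.2.1 b) p
  have h0 := c.ibp n b z (hu 1) 0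
  have h1 := c.ibp n b z (hu 0) 1
  have hs0 : Continuous fun w => (c.s0 n).c b z w := by
    simp only [s0_apply]
    exact ((continuous_const.mul ((phi_contDiff n).continuous.comp (by fun_prop))).mul
      (rc_contDiff b).continuous)
  have hcd : ∀ j p, ContinuousOn (dzb j (fun y => u.1 b y p)) (A.K b) := fun j p w hw =>
    ((contDiffAt_dzb (m := 0) ((hu p).contDiffAt ((A.isOpen_O b).mem_nhds
      (FinAt.K_sub_O b hw))) (by simp) j).continuousAt).continuousWithinAt
  have hi : ∀ j p, IntegrableOn (fun w => (c.s0 n).c b z w • dzb j (fun y => u.1 b y p) w)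
      (A.K b) := fun j p =>
    (hs0.continuousOn.smul (hcd j p)).integrableOn_compact (FinAt.isCompact_K b)
  have hcu : ∀ p, ContinuousOn (fun y => u.1 b y p) (A.K b) := fun p w hw =>
    (((hu p).contDiffAt ((A.isOpen_O b).mem_nhds
      (FinAt.K_sub_O b hw))).continuousAt).continuousWithinAt
  have hsg : ∀ j, Continuous fun w => (c.sd n j).c b z w + (c.sg n j).c b z w := by
    intro j
    simp only [sd_apply, sg_apply]
    have hφ : Continuous fun w : C2 => phi n (z - w) :=
      (phi_contDiff n).continuous.comp (by fun_prop)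
    have hφd : Continuous fun w : C2 => dzb j (phi n) (z - w) :=
      (contDiff_dzb (phi_contDiff n) j).continuous.comp (by fun_prop)
    exact (((continuous_const.mul hφ).add (continuous_const.mul hφd)).mul
      (rc_contDiff b).continuous).add
      (((continuous_const.mul hφ).mul (rc_contDiff b).continuous).add
      ((continuous_const.mul hφ).mul (contDiff_dzb (rc_contDiff b) j).continuous)).neg
  have hj : ∀ j p, IntegrableOn (fun w => ((c.sd n j).c b z w + (c.sg n j).c b z w) •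
      u.1 b w p) (A.K b) := fun j p =>
    ((hsg j).continuousOn.smul (hcu p)).integrableOn_compact (FinAt.isCompact_K b)
  have e1 : (c.m n (Fin r → ℂ)).gI (B.sb2.res (B.d1 u)) b z =
      ∫ w in A.K b, ((c.s0 n).c b z w • dzb 0 (fun y => u.1 b y 1) w -
        (c.s0 n).c b z w • dzb 1 (fun y => u.1 b y 0) w) := by
    rw [gI_res]
    refine setIntegral_congr_fun (FinAt.isCompact_K b).measurableSet fun w hw => ?_
    change (c.s0 n).c b z w • (B.d1 u).1 b w = _
    rw [d1_val u (FinAt.K_sub_O b hw), smul_sub]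
  have e2 : (c.dm1 n r).gI (B.sb1.res u) b z + (c.g1 n r).gI (B.sb1.res u) b z =
      ∫ w in A.K b, (((c.sd n 0).c b z w + (c.sg n 0).c b z w) • u.1 b w 1 -
        ((c.sd n 1).c b z w + (c.sg n 1).c b z w) • u.1 b w 0) := by
    unfold EK.gI
    rw [← integral_add ((c.dm1 n r).integrableOn _ hz) ((c.g1 n r).integrableOn _ hz)]
    refine setIntegral_congr_fun (FinAt.isCompact_K b).measurableSet fun w hw => ?_
    rw [extY_eq _ hw]
    change ((c.sd n 0).c b z w • u.1 b w 1 - (c.sd n 1).c b z w • u.1 b w 0) +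
      ((c.sg n 0).c b z w • u.1 b w 1 - (c.sg n 1).c b z w • u.1 b w 0) = _
    module
  rw [e1, e2, integral_sub (hi 0 1) (hi 1 0), integral_sub (hj 0 1) (hj 1 0), h0, h1]

/-! ### global form -/

theorem glob0_id (u : B.sb0.Sec) :
    ((c.m n (Fin 2 → Fin r → ℂ)).toKW B.sb1).app (B.sb1.res (B.d0 u)) =
      B.d0 (((c.m n (Fin r → ℂ)).toKW B.sb0).app (B.sb0.res u)) +
        ((c.g0 n r).toKW B.sb1).app (B.sb0.res u) := by
  classical
  rw [EK.d0_app (E := c.m n (Fin r → ℂ)) (E' := c.dm0 n r)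
    (fun b z _ w _ v j => c.dm0_eq n r b z w v j)]
  apply Subtype.ext
  funext a z
  by_cases hz : z ∈ A.O a
  · change _ = (((c.dm0 n r).toKW B.sb1).app (B.sb0.res u)).1 a z +
      (((c.g0 n r).toKW B.sb1).app (B.sb0.res u)).1 a z
    rw [EK.app_toKW _ _ _ hz, EK.app_toKW _ _ _ hz, EK.app_toKW _ _ _ hz,
      ← Finset.sum_add_distrib]
    refine Finset.sum_congr rfl fun b _ => ?_
    split_ifs with hov
    · rw [c.loc0_id n u (FinAt.tau_mem_O hov), map_add]
    · rw [add_zero]
  · exact (sec_off _ hz).trans (sec_off _ hz).symm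

theorem glob1_id (u : B.sb1.Sec) :
    ((c.m n (Fin r → ℂ)).toKW B.sb2).app (B.sb2.res (B.d1 u)) =
      B.d1 (((c.m n (Fin 2 → Fin r → ℂ)).toKW B.sb1).app (B.sb1.res u)) +
        ((c.g1 n r).toKW B.sb2).app (B.sb1.res u) := by
  classical
  rw [EK.d1_app (E := c.m n (Fin 2 → Fin r → ℂ)) (E' := c.dm1 n r)
    (fun b z _ w _ v => c.dm1_eq n r b z w v)]
  apply Subtype.ext
  funext a z
  by_cases hz : z ∈ A.O a
  · change _ = (((c.dm1 n r).toKW B.sb2).app (B.sb1.res u)).1 a z +
      (((c.g1 n r).toKW B.sb2).app (B.sb1.res u)).1 a z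
    rw [EK.app_toKW _ _ _ hz, EK.app_toKW _ _ _ hz, EK.app_toKW _ _ _ hz,
      ← Finset.sum_add_distrib]
    refine Finset.sum_congr rfl fun b _ => ?_
    split_ifs with hov
    · rw [c.loc1_id n u (FinAt.tau_mem_O hov), map_add]
    · rw [add_zero]
  · exact (sec_off _ hz).trans (sec_off _ hz).symm

end Cut

end Vale.Agent.P267.RR
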