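import Vale.Agent.P267.H221.Moll2

/-!
# P267, package RR: convergence of the mollifiers
-/

set_option linter.unusedVariables false
set_option linter.unusedSectionVars false

open scoped Manifold ContDiff ComplexConjugate Matrix Topology
open MeasureTheory Set Filter

noncomputable section

namespace Vale.Agent.P267.RR

open FL H439

variable {X : Type*} [TopologicalSpace X] [ChartedSpace C2 X] [CompactSpace X] {A : FinAt X}

section scal

variable {W : Type} [NormedAddCommGroup W] [NormedSpace ℂ W] [FiniteDimensional ℂ W]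

theorem norm_extY_le (u : C(A.Y, W)) (b : Fin A.N) (w : C2) : ‖extY u b w‖ ≤ ‖u‖ := by
  unfold extY
  split_ifs with h
  · exact u.norm_coe_le_norm _
  · simp

theorem continuous_smul_extY (u : C(A.Y, W)) (b : Fin A.N) {s : C2 → ℂ} (hs : Continuous s)
    (h0 : ∀ w ∉ A.K b, s w = 0) : Continuous fun w => s w • extY u b w := by
  rw [continuous_iff_continuousAt]
  intro w
  by_cases hw : s w = 0
  · have h1 : Tendsto (fun w' => ‖s w'‖ * ‖u‖) (𝓝 w) (𝓝 0) := by
      have h2 : Tendsto (fun w' => ‖s w'‖ * ‖u‖) (𝓝 w) (𝓝 (‖s w‖ * ‖u‖)) :=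
        (hs.norm.tendsto w).mul_const _
      rw [hw, norm_zero, zero_mul] at h2
      exact h2
    change Tendsto _ _ (𝓝 (s w • extY u b w))
    rw [show s w • extY u b w = 0 by rw [hw, zero_smul]]
    refine squeeze_zero_norm (fun w' => ?_) h1
    rw [norm_smul]
    exact mul_le_mul_of_nonneg_left (norm_extY_le u b w') (norm_nonneg _)
  · have h1 : A.K b ∈ 𝓝 w := by
      filter_upwards [hs.continuousAt.eventually_ne hw] with w' hw'
      by_contra h
      exact hw' (h0 w' h)
    exact hs.continuousAt.smul ((continuousOn_extY u b).continuousAt h1)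

theorem hasCompactSupport_smul_extY (u : C(A.Y, W)) (b : Fin A.N) {s : C2 → ℂ}
    (h0 : ∀ w ∉ A.K b, s w = 0) : HasCompactSupport fun w => s w • extY u b w :=
  HasCompactSupport.intro (FinAt.isCompact_K b) fun w hw => by simp [h0 w hw]

theorem moll_scal [CompleteSpace W] (u : C(A.Y, W)) (b : Fin A.N) {s : C2 → ℂ}
    (hs : Continuous s) (h0 : ∀ w ∉ A.K b, s w = 0) {ε : ℝ} (hε : 0 < ε) :
    ∀ᶠ n in atTop, ∀ z, ‖(∫ w in A.K b, (phi n (z - w) * s w) • extY u b w) -
      s z • extY u b z‖ ≤ ε := by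
  filter_upwards [moll_tendsto (continuous_smul_extY u b hs h0)
    (hasCompactSupport_smul_extY u b h0) hε] with n hn z
  have h1 : (∫ w in A.K b, (phi n (z - w) * s w) • extY u b w) =
      ∫ w, phi n (z - w) • (s w • extY u b w) := by
    rw [setIntegral_eq_integral_of_forall_compl_eq_zero fun w hw => by rw [h0 w hw]; simp]
    refine integral_congr_ae (Filter.Eventually.of_forall fun w => ?_)
    simp only [mul_smul]
  rw [h1]
  exact hn z

end scal

variable [T2Space X] [IsManifold 𝓘(ℂ, C2) ω X]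

/-- uniform bound of the transition maps on compact sets -/
theorem exists_T_bound {V : Type} [NormedAddCommGroup V] [NormedSpace ℂ V]
    [FiniteDimensional ℂ V] (S : SB A V) {L : Fin A.N → Set C2} (hL : ∀ b, IsCompact (L b))
    (hLO : ∀ b, L b ⊆ A.O b) : ∃ C : ℝ, 0 ≤ C ∧ ∀ a b, ∀ z ∈ A.K a, z ∈ A.ov a b →
      A.tau a b z ∈ L b → ‖S.T b a (A.tau a b z)‖ ≤ C := by
  have key : ∀ p : Fin A.N × Fin A.N, ∃ C : ℝ, ∀ z ∈ A.K p.1, z ∈ A.ov p.1 p.2 →
      A.tau p.1 p.2 z ∈ L p.2 → ‖S.T p.2 p.1 (A.tau p.1 p.2 z)‖ ≤ C := by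
    rintro ⟨a, b⟩
    have hC : IsCompact ((A.e b).symm '' L b) := (hL b).image_of_continuousOn
      ((A.e b).symm.continuousOn.mono fun z hz => (hLO b hz).1)
    have hQ : IsCompact (A.e a '' (tsupport (A.rho a) ∩ (A.e b).symm '' L b)) := by
      refine ((isClosed_tsupport _).inter hC.isClosed).isCompact.image_of_continuousOn ?_
      exact (A.e a).continuousOn.mono fun x hx => FinAt.tsupport_sub a hx.1
    have hov : ∀ z ∈ A.e a '' (tsupport (A.rho a) ∩ (A.e b).symm '' L b), z ∈ A.ov a b := by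
      rintro _ ⟨x, ⟨hx, ⟨w, hw, rfl⟩⟩, rfl⟩
      exact FinAt.mem_ov (A.rho_supp a hx) (hLO b hw).2
    have hcont : ContinuousOn (fun z => S.T b a (A.tau a b z))
        (A.e a '' (tsupport (A.rho a) ∩ (A.e b).symm '' L b)) := by
      intro z hz
      have h1 : ContDiffAt ℝ ∞ (S.T b a) (A.tau a b z) :=
        contDiffAt_clm_of_apply fun v => (S.smooth b a v).contDiffAt
          ((A.isOpen_ov b a).mem_nhds (FinAt.tau_mem (hov z hz)))
      exact (ContinuousAt.comp (g := S.T b a) (f := A.tau a b) h1.continuousAt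
        (FinAt.tau_analyticAt (hov z hz)).continuousAt).continuousWithinAt
    obtain ⟨C, hCb⟩ := hQ.exists_bound_of_continuousOn hcont
    refine ⟨C, fun z hz hzo hzL => hCb z ?_⟩
    obtain ⟨x, hx, rfl⟩ := hz
    refine ⟨x, ⟨hx, ⟨_, hzL, ?_⟩⟩, rfl⟩
    rw [FinAt.symm_tau hzo, (A.e a).left_inv (FinAt.tsupport_sub a hx)]
  choose C hC using key
  refine ⟨∑ p, |C p|, Finset.sum_nonneg fun p _ => abs_nonneg _, fun a b z hz hzo hzL => ?_⟩
  refine (hC (a, b) z hz hzo hzL).trans ((le_abs_self _).trans ?_)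
  exact Finset.single_le_sum (f := fun p => |C p|) (fun p _ => abs_nonneg _) (Finset.mem_univ (a, b))

variable {V W : Type} [NormedAddCommGroup V] [NormedSpace ℂ V] [NormedAddCommGroup W]
  [NormedSpace ℂ W] [FiniteDimensional ℂ W] [FiniteDimensional ℂ V] [CompleteSpace V]

theorem EK.gI_zero (E : EK A V W) (u : C(A.Y, W)) {b : Fin A.N} {z : C2} (hz : z ∉ E.L b) :
    E.gI u b z = 0 := by
  unfold EK.gI
  refine (integral_congr_ae (g := fun _ => (0 : V))
    (Filter.Eventually.of_forall fun w => ?_)).trans (integral_zero _ _)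
  beta_reduce
  rw [E.supp b z w hz]
  rfl

open Classical in
/-- convergence of extended kernel operators -/
theorem conv_EK (S : SB A V) {L : Fin A.N → Set C2} (hL : ∀ b, IsCompact (L b))
    (hLO : ∀ b, L b ⊆ A.O b) (E : ℕ → EK A V W) (hE : ∀ n, (E n).L = L) (u : C(A.Y, W))
    (g : Fin A.N → C2 → V) (hg : ∀ b, ∀ z ∉ L b, g b z = 0)
    (hconv : ∀ ε > 0, ∀ᶠ n in atTop, ∀ b z, ‖(E n).gI u b z - g b z‖ ≤ ε) (t : S.Bn)
    (ht : ∀ a z, (hz : z ∈ A.K a) → (t : C(A.Y, V)) ⟨(a, z), hz⟩ =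
      ∑ b, if z ∈ A.ov a b then S.T b a (A.tau a b z) (g b (A.tau a b z)) else 0) :
    Tendsto (fun n => S.i (((E n).toKW S).app u)) atTop (𝓝 t) := by
  obtain ⟨C, hC0, hC⟩ := exists_T_bound S hL hLO
  rw [Metric.tendsto_atTop']
  intro ε hε
  have hδ : 0 < ε / (2 * ((A.N : ℝ) * C + 1)) := by positivity
  obtain ⟨N, hN⟩ := eventually_atTop.1 (hconv _ hδ)
  refine ⟨N, fun n hn => ?_⟩
  have h1 := hN n hn.le
  rw [dist_eq_norm]
  change ‖(S.i (((E n).toKW S).app u) - t : C(A.Y, V))‖ < ε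
  have h2 : ‖((S.i (((E n).toKW S).app u) : C(A.Y, V)) - (t : C(A.Y, V)))‖ ≤ ε / 2 := by
    rw [ContinuousMap.norm_le _ (by positivity)]
    rintro ⟨⟨a, z⟩, hz⟩
    have hzO : z ∈ A.O a := FinAt.K_sub_O a hz
    rw [ContinuousMap.sub_apply, ht a z hz, SB.i_coe, SB.res_apply]
    change ‖(((E n).toKW S).app u).1 a z - _‖ ≤ _
    rw [EK.app_toKW _ _ _ hzO, ← Finset.sum_sub_distrib]
    refine (norm_sum_le _ _).trans ?_
    have h3 : ∀ b ∈ (Finset.univ : Finset (Fin A.N)),
        ‖((if z ∈ A.ov a b then S.T b a (A.tau a b z) ((E n).gI u b (A.tau a b z)) else 0) -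
          if z ∈ A.ov a b then S.T b a (A.tau a b z) (g b (A.tau a b z)) else 0)‖ ≤
        C * (ε / (2 * ((A.N : ℝ) * C + 1))) := by
      intro b _
      split_ifs with hov
      · by_cases hzL : A.tau a b z ∈ L b
        · rw [← map_sub]
          refine (ContinuousLinearMap.le_opNorm _ _).trans ?_
          exact mul_le_mul (hC a b z hz hov hzL) (h1 b _) (norm_nonneg _) hC0
        · rw [(E n).gI_zero u (by rw [hE n]; exact hzL), hg b _ hzL, map_zero, sub_zero, norm_zero]
          positivity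
      · rw [sub_zero, norm_zero]
        positivity
    refine (Finset.sum_le_card_nsmul _ _ _ h3).trans ?_
    rw [Finset.card_univ, Fintype.card_fin, nsmul_eq_mul]
    have h4 : 0 < 2 * ((A.N : ℝ) * C + 1) := by positivity
    rw [show (A.N : ℝ) * (C * (ε / (2 * ((A.N : ℝ) * C + 1)))) =
      (A.N * C) * ε / (2 * ((A.N : ℝ) * C + 1)) by ring, div_le_div_iff₀ h4 (by norm_num)]
    nlinarith [mul_nonneg (Nat.cast_nonneg (α := ℝ) A.N) hC0]
  exact lt_of_le_of_lt h2 (by linarith)

namespace Cut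

variable (c : Cut A)

theorem exists_bound_smooth {f : C2 → ℂ} (hf : Continuous f) {L : Set C2} (hL : IsCompact L)
    (h0 : ∀ z ∉ L, f z = 0) : ∃ M : ℝ, 0 ≤ M ∧ ∀ z, ‖f z‖ ≤ M := by
  obtain ⟨M, hM⟩ := hL.exists_bound_of_continuousOn hf.continuousOn
  refine ⟨|M|, abs_nonneg _, fun z => ?_⟩
  by_cases hz : z ∈ L
  · exact (hM z hz).trans (le_abs_self _)
  · rw [h0 z hz, norm_zero]; exact abs_nonneg _

theorem K_sub_L (b : Fin A.N) : A.K b ⊆ c.L b := by
  intro z hz
  by_contra h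
  have h1 := c.eq_one hz
  rw [c.supp b z h] at h1
  exact zero_ne_one h1

/-- uniform constant for `χ` and its derivatives -/
theorem exists_const : ∃ M : ℝ, 0 ≤ M ∧ (∀ b z, ‖c.chi b z‖ ≤ M) ∧
    ∀ j b z, ‖dzb j (c.chi b) z‖ ≤ M := by
  have h1 : ∀ b, ∃ M : ℝ, 0 ≤ M ∧ ∀ z, ‖c.chi b z‖ ≤ M := fun b =>
    exists_bound_smooth (c.smooth b).continuous (c.hL b) fun z hz => c.supp b z hz
  have h2 : ∀ p : Fin 2 × Fin A.N, ∃ M : ℝ, 0 ≤ M ∧ ∀ z, ‖dzb p.1 (c.chi p.2) z‖ ≤ M := fun p =>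
    exists_bound_smooth (contDiff_dzb (c.smooth p.2) p.1).continuous (c.hL p.2)
      fun z hz => c.dzb_supp hz p.1
  choose M1 hM1 hM1' using h1
  choose M2 hM2 hM2' using h2
  refine ⟨(∑ b, M1 b) + ∑ p, M2 p, add_nonneg (Finset.sum_nonneg fun b _ => hM1 b)
    (Finset.sum_nonneg fun b _ => hM2 b), fun b z => ?_, fun j b z => ?_⟩
  · refine (hM1' b z).trans ((Finset.single_le_sum (f := M1) (fun b _ => hM1 b)
      (Finset.mem_univ b)).trans ?_)
    exact le_add_of_nonneg_right (Finset.sum_nonneg fun b _ => hM2 b)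
  · refine (hM2' (j, b) z).trans ((Finset.single_le_sum (f := M2) (fun b _ => hM2 b)
      (Finset.mem_univ (j, b))).trans ?_)
    exact le_add_of_nonneg_left (Finset.sum_nonneg fun b _ => hM1 b)

theorem gI_m (n : ℕ) (u : C(A.Y, V)) (b : Fin A.N) (z : C2) :
    (c.m n V).gI u b z =
      c.chi b z • ∫ w in A.K b, (phi n (z - w) * rc A b w) • extY u b w := by
  unfold EK.gI
  rw [← integral_smul]
  refine setIntegral_congr_fun (FinAt.isCompact_K b).measurableSet fun w hw => ?_
  change (c.s0 n).c b z w • extY u b w = _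
  rw [s0_apply]
  module

/-- uniform convergence of the local mollifiers -/
theorem conv_m (u : C(A.Y, V)) {ε : ℝ} (hε : 0 < ε) : ∀ᶠ n in atTop, ∀ b z,
    ‖(c.m n V).gI u b z - rc A b z • extY u b z‖ ≤ ε := by
  obtain ⟨M, hM0, hM, -⟩ := c.exists_const
  have hδ : 0 < ε / (M + 1) := by positivity
  have h1 : ∀ b, ∀ᶠ n in atTop, ∀ z, ‖(∫ w in A.K b, (phi n (z - w) * rc A b w) • extY u b w) -
      rc A b z • extY u b z‖ ≤ ε / (M + 1) := fun b =>
    moll_scal u b (rc_contDiff b).continuous (fun w hw => rc_zero hw) hδ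
  filter_upwards [eventually_all.2 h1] with n hn b z
  have h2 : (c.m n V).gI u b z - rc A b z • extY u b z =
      c.chi b z • ((∫ w in A.K b, (phi n (z - w) * rc A b w) • extY u b w) -
        rc A b z • extY u b z) := by
    rw [gI_m, smul_sub]
    by_cases hz : z ∈ A.K b
    · rw [c.eq_one hz, one_smul, one_smul]
    · rw [rc_zero hz, zero_smul, smul_zero]
  rw [h2, norm_smul]
  calc ‖c.chi b z‖ * _ ≤ M * (ε / (M + 1)) :=
        mul_le_mul (hM b z) (hn b z) (norm_nonneg _) hM0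
    _ ≤ ε := by
        rw [mul_div_assoc', div_le_iff₀ (by positivity)]
        nlinarith

/-- **the mollifiers converge strongly to the identity** -/
theorem tendsto_m (S : SB A V) (x : S.Bn) :
    Tendsto (fun n => S.i (((c.m n V).toKW S).app (S.j x))) atTop (𝓝 x) := by
  classical
  refine conv_EK S c.hL c.hLO (fun n => c.m n V) (fun n => rfl) (S.j x)
    (fun b z => rc A b z • extY (S.j x) b z) (fun b z hz => ?_) (fun ε hε => c.conv_m (S.j x) hε)
    x (fun a z hz => ?_)
  · rw [rc_zero fun h => hz (c.K_sub_L b h), zero_smul]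
  · have hzO := FinAt.K_sub_O a hz
    have h1 : ∀ b, (if z ∈ A.ov a b then S.T b a (A.tau a b z)
        (rc A b (A.tau a b z) • extY (S.j x) b (A.tau a b z)) else 0) =
        ((if z ∈ A.ov a b then A.r b (A.tau a b z) else 0 : ℝ) : ℂ) •
          (x : C(A.Y, V)) ⟨(a, z), hz⟩ := by
      intro b
      split_ifs with hov
      · by_cases hK : A.tau a b z ∈ A.K b
        · rw [map_smul, extY_eq _ hK]
          have e1 : A.tau b a (A.tau a b z) ∈ A.K a := by rwa [FinAt.tau_tau hov]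
          have h2 := S.compat_of_mem x.2 hK (FinAt.tau_mem hov) e1
          have e2 : (⟨(a, A.tau b a (A.tau a b z)), e1⟩ : A.Y) = ⟨(a, z), hz⟩ :=
            Subtype.ext (Prod.ext rfl (FinAt.tau_tau hov))
          rw [e2] at h2
          rw [h2]
          rfl
        · rw [rc_zero hK, FinAt.r_zero hK]
          simp
      · simp
    rw [Finset.sum_congr rfl fun b _ => h1 b, ← Finset.sum_smul, ← Complex.ofReal_sum,
      FinAt.sum_r hzO, Complex.ofReal_one, one_smul]

end Cut

end Vale.Agent.P267.RR
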