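import Vale.Agent.P267.H221.Moll3

/-!
# P267, package RR: the commutators of the mollifiers with `∂̄` tend to zero strongly
-/

set_option linter.unusedVariables false
set_option linter.unusedSectionVars false

open scoped Manifold ContDiff ComplexConjugate Matrix Topology
open MeasureTheory Set Filter

noncomputable section

namespace Vale.Agent.P267.RR

open FL H439

variable {X : Type*} [TopologicalSpace X] [ChartedSpace C2 X] [CompactSpace X] [T2Space X]
  [IsManifold 𝓘(ℂ, C2) ω X] {A : FinAt X}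

namespace Cut

variable (c : Cut A)

section

variable {V : Type} [NormedAddCommGroup V] [NormedSpace ℂ V] [FiniteDimensional ℂ V]

/-- local mollified integrals -/
def Im (s : C2 → ℂ) (n : ℕ) (u : C(A.Y, V)) (b : Fin A.N) (z : C2) : V :=
  ∫ w in A.K b, (phi n (z - w) * s w) • extY u b w

theorem Im_integrableOn {s : C2 → ℂ} (hs : Continuous s) (n : ℕ) (u : C(A.Y, V)) (b : Fin A.N)
    (z : C2) : IntegrableOn (fun w => (phi n (z - w) * s w) • extY u b w) (A.K b) := by
  refine ContinuousOn.integrableOn_compact (FinAt.isCompact_K b) ?_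
  have hφ : Continuous fun w : C2 => phi n (z - w) :=
    (phi_contDiff n).continuous.comp (by fun_prop)
  exact (hφ.mul hs).continuousOn.smul (continuousOn_extY u b)

/-- the key estimate -/
theorem key_est {M δ : ℝ} (hM : ∀ b z, ‖c.chi b z‖ ≤ M) (hM' : ∀ j b z, ‖dzb j (c.chi b) z‖ ≤ M)
    (hM0 : 0 ≤ M) (j : Fin 2) (b : Fin A.N) (z : C2) (v I1 I2 : V)
    (h1 : ‖I1 - rc A b z • v‖ ≤ δ) (h2 : ‖I2 - dzb j (rc A b) z • v‖ ≤ δ) :
    ‖(dzb j (c.chi b) z • I1 + c.chi b z • I2) - dzb j (rc A b) z • v‖ ≤ 2 * M * δ := by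
  have e : (dzb j (c.chi b) z • I1 + c.chi b z • I2) - dzb j (rc A b) z • v =
      dzb j (c.chi b) z • (I1 - rc A b z • v) + c.chi b z • (I2 - dzb j (rc A b) z • v) := by
    by_cases hz : z ∈ A.K b
    · rw [c.dzb_zero hz, c.eq_one hz]; module
    · rw [rc_zero hz, dzb_rc_zero hz]; module
  rw [e]
  refine (norm_add_le _ _).trans ?_
  rw [norm_smul, norm_smul]
  have i1 := mul_le_mul (hM' j b z) h1 (norm_nonneg _) hM0
  have i2 := mul_le_mul (hM b z) h2 (norm_nonneg _) hM0
  linarith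

end

variable {r : ℕ}

theorem gI_g0 (n : ℕ) (u : C(A.Y, Fin r → ℂ)) (b : Fin A.N) (z : C2) (j : Fin 2) :
    (c.g0 n r).gI u b z j = -(dzb j (c.chi b) z • Im (rc A b) n u b z +
      c.chi b z • Im (dzb j (rc A b)) n u b z) := by
  by_cases hz : z ∈ A.O b
  · rw [gI_apply _ _ hz]
    unfold Im
    rw [← integral_smul, ← integral_smul]
    have i1 := (Im_integrableOn (rc_contDiff b).continuous n u b z).smul (dzb j (c.chi b) z)
    have i2 := (Im_integrableOn (contDiff_dzb (rc_contDiff b) j).continuous n u b z).smul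
      (c.chi b z)
    have h := integral_add i1 i2
    change ∫ w in A.K b, (dzb j (c.chi b) z • (phi n (z - w) * rc A b w) • extY u b w +
      c.chi b z • (phi n (z - w) * dzb j (rc A b) w) • extY u b w) =
      (∫ w in A.K b, dzb j (c.chi b) z • (phi n (z - w) * rc A b w) • extY u b w) +
      ∫ w in A.K b, c.chi b z • (phi n (z - w) * dzb j (rc A b) w) • extY u b w at h
    rw [← h, ← integral_neg]
    refine setIntegral_congr_fun (FinAt.isCompact_K b).measurableSet fun w hw => ?_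
    change (c.sg n j).c b z w • extY u b w = _
    rw [sg_apply]
    module
  · have hz' : z ∉ c.L b := fun h => hz (c.hLO b h)
    rw [(c.g0 n r).gI_zero u hz', c.supp b z hz', c.dzb_supp hz']
    simp

theorem Im_apply {s : C2 → ℂ} (hs : Continuous s) (n : ℕ) (u : C(A.Y, Fin 2 → Fin r → ℂ))
    (b : Fin A.N) (z : C2) (p : Fin 2) :
    Im s n u b z p = ∫ w in A.K b, (phi n (z - w) * s w) • extY u b w p := by
  unfold Im
  exact ((ContinuousLinearMap.proj (R := ℂ)
    (φ := fun _ : Fin 2 => Fin r → ℂ) p).integral_comp_comm (Im_integrableOn hs n u b z)).symm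

theorem Im_integrableOn_apply {s : C2 → ℂ} (hs : Continuous s) (n : ℕ)
    (u : C(A.Y, Fin 2 → Fin r → ℂ)) (b : Fin A.N) (z : C2) (p : Fin 2) :
    IntegrableOn (fun w => (phi n (z - w) * s w) • extY u b w p) (A.K b) :=
  (ContinuousLinearMap.proj (R := ℂ)
    (φ := fun _ : Fin 2 => Fin r → ℂ) p).integrable_comp (Im_integrableOn hs n u b z)

theorem gI_g1 (n : ℕ) (u : C(A.Y, Fin 2 → Fin r → ℂ)) (b : Fin A.N) (z : C2) :
    (c.g1 n r).gI u b z = -(dzb 0 (c.chi b) z • Im (rc A b) n u b z 1 +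
      c.chi b z • Im (dzb 0 (rc A b)) n u b z 1) +
      (dzb 1 (c.chi b) z • Im (rc A b) n u b z 0 +
      c.chi b z • Im (dzb 1 (rc A b)) n u b z 0) := by
  by_cases hz : z ∈ A.O b
  · have hrc := (rc_contDiff (A := A) b).continuous
    have hrd := fun j => (contDiff_dzb (rc_contDiff (A := A) b) j).continuous
    rw [Im_apply hrc, Im_apply hrc, Im_apply (hrd 0), Im_apply (hrd 1)]
    have i1 := Im_integrableOn_apply hrc n u b z 1
    have i2 := Im_integrableOn_apply (hrd 0) n u b z 1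
    have i3 := Im_integrableOn_apply hrc n u b z 0
    have i4 := Im_integrableOn_apply (hrd 1) n u b z 0
    have e1 : (c.g1 n r).gI u b z = ∫ w in A.K b,
        ((-(dzb 0 (c.chi b) z)) • ((phi n (z - w) * rc A b w) • extY u b w 1) +
        (-(c.chi b z)) • ((phi n (z - w) * dzb 0 (rc A b) w) • extY u b w 1) +
        (dzb 1 (c.chi b) z • ((phi n (z - w) * rc A b w) • extY u b w 0) +
        c.chi b z • ((phi n (z - w) * dzb 1 (rc A b) w) • extY u b w 0))) := by
      unfold EK.gI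
      refine setIntegral_congr_fun (FinAt.isCompact_K b).measurableSet fun w hw => ?_
      change (c.sg n 0).c b z w • extY u b w 1 - (c.sg n 1).c b z w • extY u b w 0 = _
      rw [sg_apply, sg_apply]
      module
    have j1 : IntegrableOn (fun w => (-(dzb 0 (c.chi b) z)) •
        ((phi n (z - w) * rc A b w) • extY u b w 1)) (A.K b) := Integrable.smul (-(dzb 0 (c.chi b) z)) i1
    have j2 : IntegrableOn (fun w => (-(c.chi b z)) •
        ((phi n (z - w) * dzb 0 (rc A b) w) • extY u b w 1)) (A.K b) := Integrable.smul (-(c.chi b z)) i2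
    have j3 : IntegrableOn (fun w => dzb 1 (c.chi b) z •
        ((phi n (z - w) * rc A b w) • extY u b w 0)) (A.K b) := Integrable.smul (dzb 1 (c.chi b) z) i3
    have j4 : IntegrableOn (fun w => c.chi b z •
        ((phi n (z - w) * dzb 1 (rc A b) w) • extY u b w 0)) (A.K b) := Integrable.smul (c.chi b z) i4
    have k1 : IntegrableOn (fun w => (-(dzb 0 (c.chi b) z)) •
        ((phi n (z - w) * rc A b w) • extY u b w 1) + (-(c.chi b z)) •
        ((phi n (z - w) * dzb 0 (rc A b) w) • extY u b w 1)) (A.K b) := j1.add j2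
    have k2 : IntegrableOn (fun w => dzb 1 (c.chi b) z •
        ((phi n (z - w) * rc A b w) • extY u b w 0) + c.chi b z •
        ((phi n (z - w) * dzb 1 (rc A b) w) • extY u b w 0)) (A.K b) := j3.add j4
    rw [e1, integral_add k1 k2, integral_add j1 j2, integral_add j3 j4, integral_smul,
      integral_smul, integral_smul, integral_smul]
    module
  · have hz' : z ∉ c.L b := fun h => hz (c.hLO b h)
    rw [(c.g1 n r).gI_zero u hz', c.supp b z hz', c.dzb_supp hz', c.dzb_supp hz']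
    simp

theorem conv_g0 (u : C(A.Y, Fin r → ℂ)) {ε : ℝ} (hε : 0 < ε) : ∀ᶠ n in atTop, ∀ b z,
    ‖(c.g0 n r).gI u b z - (fun j => -(dzb j (rc A b) z • extY u b z))‖ ≤ ε := by
  obtain ⟨M, hM0, hM, hM'⟩ := c.exists_const
  have hδ : 0 < ε / (2 * M + 1) := by positivity
  have h1 : ∀ b, ∀ᶠ n in atTop, ∀ z, ‖Im (rc A b) n u b z - rc A b z • extY u b z‖ ≤
      ε / (2 * M + 1) := fun b =>
    moll_scal u b (rc_contDiff b).continuous (fun w hw => rc_zero hw) hδ
  have h2 : ∀ p : Fin 2 × Fin A.N, ∀ᶠ n in atTop, ∀ z, ‖Im (dzb p.1 (rc A p.2)) n u p.2 z -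
      dzb p.1 (rc A p.2) z • extY u p.2 z‖ ≤ ε / (2 * M + 1) := fun p =>
    moll_scal u p.2 (contDiff_dzb (rc_contDiff p.2) p.1).continuous
      (fun w hw => dzb_rc_zero hw p.1) hδ
  filter_upwards [eventually_all.2 h1, eventually_all.2 h2] with n hn hn' b z
  rw [pi_norm_le_iff_of_nonneg hε.le]
  intro j
  rw [Pi.sub_apply, gI_g0]
  have h3 := c.key_est hM hM' hM0 j b z (extY u b z) _ _ (hn b z) (hn' (j, b) z)
  rw [← norm_neg]
  have e : -(-(dzb j (c.chi b) z • Im (rc A b) n u b z +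
      c.chi b z • Im (dzb j (rc A b)) n u b z) - -(dzb j (rc A b) z • extY u b z)) =
      (dzb j (c.chi b) z • Im (rc A b) n u b z +
      c.chi b z • Im (dzb j (rc A b)) n u b z) - dzb j (rc A b) z • extY u b z := by abel
  rw [e]
  refine h3.trans ?_
  rw [mul_div_assoc', div_le_iff₀ (by positivity)]
  nlinarith

theorem conv_g1 (u : C(A.Y, Fin 2 → Fin r → ℂ)) {ε : ℝ} (hε : 0 < ε) : ∀ᶠ n in atTop, ∀ b z,
    ‖(c.g1 n r).gI u b z - (-(dzb 0 (rc A b) z • extY u b z 1) +
      dzb 1 (rc A b) z • extY u b z 0)‖ ≤ ε := by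
  obtain ⟨M, hM0, hM, hM'⟩ := c.exists_const
  have hδ : 0 < ε / (4 * M + 1) := by positivity
  have h1 : ∀ b, ∀ᶠ n in atTop, ∀ z, ‖Im (rc A b) n u b z - rc A b z • extY u b z‖ ≤
      ε / (4 * M + 1) := fun b =>
    moll_scal u b (rc_contDiff b).continuous (fun w hw => rc_zero hw) hδ
  have h2 : ∀ p : Fin 2 × Fin A.N, ∀ᶠ n in atTop, ∀ z, ‖Im (dzb p.1 (rc A p.2)) n u p.2 z -
      dzb p.1 (rc A p.2) z • extY u p.2 z‖ ≤ ε / (4 * M + 1) := fun p =>
    moll_scal u p.2 (contDiff_dzb (rc_contDiff p.2) p.1).continuous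
      (fun w hw => dzb_rc_zero hw p.1) hδ
  filter_upwards [eventually_all.2 h1, eventually_all.2 h2] with n hn hn' b z
  rw [gI_g1]
  have hp : ∀ p : Fin 2, ‖Im (rc A b) n u b z p - rc A b z • extY u b z p‖ ≤
      ε / (4 * M + 1) := fun p =>
    (norm_le_pi_norm (Im (rc A b) n u b z - rc A b z • extY u b z) p).trans (hn b z)
  have hq : ∀ j p : Fin 2, ‖Im (dzb j (rc A b)) n u b z p - dzb j (rc A b) z • extY u b z p‖ ≤
      ε / (4 * M + 1) := fun j p =>
    (norm_le_pi_norm (Im (dzb j (rc A b)) n u b z - dzb j (rc A b) z • extY u b z) p).trans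
      (hn' (j, b) z)
  have h3 := c.key_est hM hM' hM0 0 b z (extY u b z 1) _ _ (hp 1) (hq 0 1)
  have h4 := c.key_est hM hM' hM0 1 b z (extY u b z 0) _ _ (hp 0) (hq 1 0)
  have e : (-(dzb 0 (c.chi b) z • Im (rc A b) n u b z 1 +
      c.chi b z • Im (dzb 0 (rc A b)) n u b z 1) +
      (dzb 1 (c.chi b) z • Im (rc A b) n u b z 0 +
      c.chi b z • Im (dzb 1 (rc A b)) n u b z 0)) - (-(dzb 0 (rc A b) z • extY u b z 1) +
      dzb 1 (rc A b) z • extY u b z 0) =
      (dzb 1 (c.chi b) z • Im (rc A b) n u b z 0 +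
      c.chi b z • Im (dzb 1 (rc A b)) n u b z 0 - dzb 1 (rc A b) z • extY u b z 0) -
      (dzb 0 (c.chi b) z • Im (rc A b) n u b z 1 +
      c.chi b z • Im (dzb 0 (rc A b)) n u b z 1 - dzb 0 (rc A b) z • extY u b z 1) := by abel
  rw [e]
  refine (norm_sub_le _ _).trans ?_
  have h5 : 2 * M * (ε / (4 * M + 1)) + 2 * M * (ε / (4 * M + 1)) ≤ ε := by
    rw [← add_mul, mul_div_assoc', div_le_iff₀ (by positivity)]
    nlinarith
  linarith

end Cut

/-! ### the sum of the derivatives of the partition of unity -/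

open Classical in
theorem sum_dzb_rc {a : Fin A.N} {z : C2} (hz : z ∈ A.O a) (i : Fin 2) :
    ∑ b, (if z ∈ A.ov a b then ∑ p, conj (A.J a b z p i) • dzb p (rc A b) (A.tau a b z)
      else 0) = 0 := by
  have h1 : ∀ b, (if z ∈ A.ov a b then ∑ p, conj (A.J a b z p i) •
      dzb p (rc A b) (A.tau a b z) else 0) =
      dzb i (fun z' => ((A.rho b ((A.e a).symm z') : ℝ) : ℂ)) z := by
    intro b
    split_ifs with hov
    · have h2 : (fun z' => ((A.rho b ((A.e a).symm z') : ℝ) : ℂ)) =ᶠ[𝓝 z]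
          fun z' => rc A b (A.tau a b z') := by
        filter_upwards [(A.isOpen_ov a b).mem_nhds hov] with z' hz'
        rw [rc, FinAt.r_tau hz']
      rw [dzb_congr h2, dzb_comp ((rc_contDiff b).differentiable (by simp) _)
        (FinAt.tau_analyticAt hov).differentiableAt]
      refine Finset.sum_congr rfl fun p _ => ?_
      rw [FinAt.J_apply hov]
    · have h2 : (fun z' => ((A.rho b ((A.e a).symm z') : ℝ) : ℂ)) =ᶠ[𝓝 z] fun _ => 0 := by
        have hx : (A.e a).symm z ∈ (tsupport (A.rho b))ᶜ := fun h => hov ⟨hz, A.rho_supp b h⟩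
        have h3 : IsOpen ((A.e a).target ∩ (A.e a).symm ⁻¹' (tsupport (A.rho b))ᶜ) :=
          (A.e a).isOpen_inter_preimage_symm (isClosed_tsupport _).isOpen_compl
        filter_upwards [h3.mem_nhds ⟨hz.1, hx⟩] with z' hz'
        rw [image_eq_zero_of_notMem_tsupport hz'.2]
        simp
      rw [dzb_congr h2, dzb_const]
  rw [Finset.sum_congr rfl fun b _ => h1 b]
  have hd : ∀ b ∈ (Finset.univ : Finset (Fin A.N)),
      DifferentiableAt ℝ (fun z' => ((A.rho b ((A.e a).symm z') : ℝ) : ℂ)) z := by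
    intro b _
    have h4 := A.rho_smooth b (A.e a) (A.he a)
    rw [LB.loc0_zero] at h4
    exact (h4.contDiffAt ((A.e a).open_target.mem_nhds hz.1)).differentiableAt (by simp)
  rw [← dzb_sum Finset.univ hd i]
  have h5 : (fun z' => ∑ b, ((A.rho b ((A.e a).symm z') : ℝ) : ℂ)) = fun _ => 1 := by
    funext z'
    rw [← Complex.ofReal_sum, A.rho_sum, Complex.ofReal_one]
  rw [h5, dzb_const]

end Vale.Agent.P267.RR
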