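import Vale.Agent.P267.H221.Moll4

/-!
# P267, package RR: strong convergence of the commutators
-/

set_option linter.unusedVariables false
set_option linter.unusedSectionVars false

open scoped Manifold ContDiff ComplexConjugate Matrix Topology
open MeasureTheory Set Filter

noncomputable section

namespace Vale.Agent.P267.RR

open FL H439

variable {X : Type*} [TopologicalSpace X] [ChartedSpace C2 X] [CompactSpace X] [T2Space X]
  [IsManifold 𝓘(ℂ, C2) ω X] {A : FinAt X}

theorem Bun.Cm_tau {a b : Fin A.N} {z : C2} (hz : z ∈ A.ov a b) (j k : Fin 2) :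
    Bun.Cm A b a (A.tau a b z) j k = conj (A.J a b z j k) := by
  unfold Bun.Cm
  rw [FinAt.tau_tau hz]
  rfl

theorem compat_val {V : Type} [NormedAddCommGroup V] [NormedSpace ℂ V] (S : SB A V) (x : S.Bn)
    {a b : Fin A.N} {z : C2} (hz : z ∈ A.K a) (hov : z ∈ A.ov a b)
    (hK : A.tau a b z ∈ A.K b) :
    S.T b a (A.tau a b z) ((x : C(A.Y, V)) ⟨(b, A.tau a b z), hK⟩) =
      (x : C(A.Y, V)) ⟨(a, z), hz⟩ := by
  have e1 : A.tau b a (A.tau a b z) ∈ A.K a := by rwa [FinAt.tau_tau hov]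
  have h2 := S.compat_of_mem x.2 hK (FinAt.tau_mem hov) e1
  have e2 : (⟨(a, A.tau b a (A.tau a b z)), e1⟩ : A.Y) = ⟨(a, z), hz⟩ :=
    Subtype.ext (Prod.ext rfl (FinAt.tau_tau hov))
  rw [e2] at h2
  exact h2.symm

variable {r : ℕ} {B : Bun A r}

namespace Cut

variable (c : Cut A)

theorem tendsto_g0 (x : B.sb0.Bn) :
    Tendsto (fun n => B.sb1.i (((c.g0 n r).toKW B.sb1).app (B.sb0.j x))) atTop (𝓝 0) := by
  classical
  refine conv_EK B.sb1 c.hL c.hLO (fun n => c.g0 n r) (fun n => rfl) (B.sb0.j x)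
    (fun b z => (fun j => -(dzb j (rc A b) z • extY (B.sb0.j x) b z))) (fun b z hz => ?_)
    (fun ε hε => c.conv_g0 (B.sb0.j x) hε) 0 (fun a z hz => ?_)
  · funext j
    rw [dzb_rc_zero fun h => hz (c.K_sub_L b h)]
    simp
  · have hzO := FinAt.K_sub_O a hz
    funext k
    rw [Finset.sum_apply]
    have h1 : ∀ b, (if z ∈ A.ov a b then B.sb1.T b a (A.tau a b z)
        (fun j => -(dzb j (rc A b) (A.tau a b z) • extY (B.sb0.j x) b (A.tau a b z))) else 0) k =
        (if z ∈ A.ov a b then ∑ p, conj (A.J a b z p k) • dzb p (rc A b) (A.tau a b z)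
          else 0) • (-((x : C(A.Y, Fin r → ℂ)) ⟨(a, z), hz⟩)) := by
      intro b
      split_ifs with hov
      · change ∑ j, Bun.Cm A b a (A.tau a b z) j k • B.E b a (A.tau a b z) *ᵥ
          (-(dzb j (rc A b) (A.tau a b z) • extY (B.sb0.j x) b (A.tau a b z))) = _
        rw [Finset.sum_smul]
        refine Finset.sum_congr rfl fun j _ => ?_
        rw [Bun.Cm_tau hov, Matrix.mulVec_neg, Matrix.mulVec_smul]
        by_cases hK : A.tau a b z ∈ A.K b
        · have h2 := compat_val B.sb0 x hz hov hK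
          rw [extY_eq _ hK]
          change _ • -(_ • B.sb0.T b a (A.tau a b z)
            ((x : C(A.Y, Fin r → ℂ)) ⟨(b, A.tau a b z), hK⟩)) = _
          rw [h2]
          simp only [smul_eq_mul, smul_neg, smul_smul]
        · rw [dzb_rc_zero hK]
          simp
      · simp
    rw [Finset.sum_congr rfl fun b _ => h1 b, ← Finset.sum_smul, sum_dzb_rc hzO, zero_smul]
    rfl

theorem tendsto_g1 (x : B.sb1.Bn) :
    Tendsto (fun n => B.sb2.i (((c.g1 n r).toKW B.sb2).app (B.sb1.j x))) atTop (𝓝 0) := by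
  classical
  refine conv_EK B.sb2 c.hL c.hLO (fun n => c.g1 n r) (fun n => rfl) (B.sb1.j x)
    (fun b z => -(dzb 0 (rc A b) z • extY (B.sb1.j x) b z 1) +
      dzb 1 (rc A b) z • extY (B.sb1.j x) b z 0) (fun b z hz => ?_)
    (fun ε hε => c.conv_g1 (B.sb1.j x) hε) 0 (fun a z hz => ?_)
  · rw [dzb_rc_zero (fun h => hz (c.K_sub_L b h)), dzb_rc_zero (fun h => hz (c.K_sub_L b h))]
    simp
  · have hzO := FinAt.K_sub_O a hz
    set y := (x : C(A.Y, Fin 2 → Fin r → ℂ)) ⟨(a, z), hz⟩ with hy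
    have h1 : ∀ b, (if z ∈ A.ov a b then B.sb2.T b a (A.tau a b z)
        (-(dzb 0 (rc A b) (A.tau a b z) • extY (B.sb1.j x) b (A.tau a b z) 1) +
      dzb 1 (rc A b) (A.tau a b z) • extY (B.sb1.j x) b (A.tau a b z) 0) else 0) =
        (if z ∈ A.ov a b then ∑ p, conj (A.J a b z p 0) • dzb p (rc A b) (A.tau a b z)
          else 0) • (-(y 1)) +
        (if z ∈ A.ov a b then ∑ p, conj (A.J a b z p 1) • dzb p (rc A b) (A.tau a b z)
          else 0) • (y 0) := by
      intro b
      split_ifs with hov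
      · change (Bun.Cm A b a (A.tau a b z)).det • (B.E b a (A.tau a b z) *ᵥ
          (-(dzb 0 (rc A b) (A.tau a b z) • extY (B.sb1.j x) b (A.tau a b z) 1) +
            dzb 1 (rc A b) (A.tau a b z) • extY (B.sb1.j x) b (A.tau a b z) 0)) = _
        rw [Matrix.mulVec_add, Matrix.mulVec_neg, Matrix.mulVec_smul, Matrix.mulVec_smul,
          Matrix.det_fin_two, Bun.Cm_tau hov, Bun.Cm_tau hov, Bun.Cm_tau hov, Bun.Cm_tau hov]
        by_cases hK : A.tau a b z ∈ A.K b
        · have h2 := compat_val B.sb1 x hz hov hK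
          rw [extY_eq _ hK]
          have h3 : ∀ k, y k = ∑ j, conj (A.J a b z j k) • B.E b a (A.tau a b z) *ᵥ
              ((x : C(A.Y, Fin 2 → Fin r → ℂ)) ⟨(b, A.tau a b z), hK⟩ j) := by
            intro k
            rw [hy, ← h2]
            change ∑ j, Bun.Cm A b a (A.tau a b z) j k • B.E b a (A.tau a b z) *ᵥ
              ((x : C(A.Y, Fin 2 → Fin r → ℂ)) ⟨(b, A.tau a b z), hK⟩ j) = _
            refine Finset.sum_congr rfl fun j _ => ?_
            rw [Bun.Cm_tau hov]
          change _ • (-(_ • B.E b a (A.tau a b z) *ᵥ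
            ((x : C(A.Y, Fin 2 → Fin r → ℂ)) ⟨(b, A.tau a b z), hK⟩ 1)) + _ •
            B.E b a (A.tau a b z) *ᵥ
            ((x : C(A.Y, Fin 2 → Fin r → ℂ)) ⟨(b, A.tau a b z), hK⟩ 0)) = _
          rw [h3 0, h3 1]
          simp only [Fin.sum_univ_two]
          module
        · rw [dzb_rc_zero hK, dzb_rc_zero hK]
          simp [dzb_rc_zero hK]
      · simp
    rw [Finset.sum_congr rfl fun b _ => h1 b, Finset.sum_add_distrib, ← Finset.sum_smul,
      ← Finset.sum_smul, sum_dzb_rc hzO, sum_dzb_rc hzO, zero_smul, zero_smul, add_zero]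
    rfl

end Cut

end Vale.Agent.P267.RR
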