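import Vale.Agent.P267.H399.Defs

/-!
# P267: Dolbeault cohomology of line bundles and the output statements of the Riemann-Roch block

`K^κ ⊗ L`-valued Dolbeault complex of a holomorphic line bundle `(L, a)` (language of helper399):
`A0 L κ → A1 L κ → A2 L κ` (smooth sections), `D0`, `D1` = `db0`, `db1`, the cohomology spaces
`H0`, `H1`, `H2`, their dimensions `h0`, `h1`, `h2` and `chi = h0 - h1 + h2`. The complex of
`(1,q)`-forms: `O10 → O11 → O12`, `chiOm`. Intersection numbers `L.L' = -(1/4π²) ∫ curv L ∧ curv L'`.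

Output statements (`Prop`s): `FiniteStmt`, `RRStmt`, `SerreStmt`, `NoetherStmt`.
-/

set_option linter.unusedSectionVars false

open scoped Manifold ContDiff ComplexConjugate Matrix
open Set

noncomputable section

namespace Vale.Agent.P267.RR

open Vale.Agent.P267.FL

section calculus

variable {V : Type*} [NormedAddCommGroup V] [NormedSpace ℂ V]

theorem dzb_add {f g : C2 → V} {z : C2} (hf : DifferentiableAt ℝ f z) (hg : DifferentiableAt ℝ g z)
    (j : Fin 2) : dzb j (fun w => f w + g w) z = dzb j f z + dzb j g z := by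
  have h : fderiv ℝ (fun w => f w + g w) z = fderiv ℝ f z + fderiv ℝ g z := fderiv_fun_add hf hg
  simp only [dzb, h, add_apply, smul_add]
  abel

theorem dzb_smul {f : C2 → V} {z : C2} (hf : DifferentiableAt ℝ f z) (c : ℂ) (j : Fin 2) :
    dzb j (fun w => c • f w) z = c • dzb j f z := by
  have h : fderiv ℝ (fun w => c • f w) z = c • fderiv ℝ f z := fderiv_fun_const_smul hf c
  simp only [dzb, h, smul_apply, smul_add]
  rw [smul_comm c, smul_comm c, smul_comm c]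

end calculus

section

variable {X : Type*} [TopologicalSpace X] [ChartedSpace C2 X]
variable {V : Type*} [NormedAddCommGroup V] [NormedSpace ℂ V]

theorem loc0_add (κ : ℤ) (e : Ch X) (s t : X → V) (z : C2) :
    loc0 κ e (s + t) z = loc0 κ e s z + loc0 κ e t z := by simp [loc0]

theorem loc0_smul (κ : ℤ) (e : Ch X) (c : ℂ) (s : X → V) (z : C2) :
    loc0 κ e (c • s) z = c • loc0 κ e s z := by
  simp only [loc0, Pi.smul_apply]; rw [smul_comm]

theorem loc1_add (κ : ℤ) (e : Ch X) (s t : X → Fin 2 → V) (z : C2) (i : Fin 2) :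
    loc1 κ e (s + t) z i = loc1 κ e s z i + loc1 κ e t z i := by
  simp only [loc1, Pi.add_apply, smul_add, Finset.sum_add_distrib]

theorem loc1_smul (κ : ℤ) (e : Ch X) (c : ℂ) (s : X → Fin 2 → V) (z : C2) (i : Fin 2) :
    loc1 κ e (c • s) z i = c • loc1 κ e s z i := by
  simp only [loc1, Pi.smul_apply, Finset.smul_sum]
  refine Finset.sum_congr rfl fun p _ => ?_
  rw [smul_comm c, smul_comm c]

theorem loc2_add (κ : ℤ) (e : Ch X) (s t : X → V) (z : C2) :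
    loc2 κ e (s + t) z = loc2 κ e s z + loc2 κ e t z := by simp [loc2]

theorem loc2_smul (κ : ℤ) (e : Ch X) (c : ℂ) (s : X → V) (z : C2) :
    loc2 κ e (c • s) z = c • loc2 κ e s z := by
  simp only [loc2, Pi.smul_apply]; rw [smul_comm c, smul_comm c]

theorem Reg0.add {n : WithTop ℕ∞} {κ : ℤ} {s t : X → V} (hs : Reg0 n κ s) (ht : Reg0 n κ t) :
    Reg0 n κ (s + t) := fun e he =>
  ((hs e he).add (ht e he)).congr fun z _ => loc0_add κ e s t z

theorem Reg0.smul {n : WithTop ℕ∞} {κ : ℤ} {s : X → V} (c : ℂ) (hs : Reg0 n κ s) :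
    Reg0 n κ (c • s) := fun e he =>
  ((hs e he).const_smul c).congr fun z _ => loc0_smul κ e c s z

theorem Reg1.add {n : WithTop ℕ∞} {κ : ℤ} {s t : X → Fin 2 → V} (hs : Reg1 n κ s)
    (ht : Reg1 n κ t) : Reg1 n κ (s + t) := fun e he =>
  ((hs e he).add (ht e he)).congr fun z _ => by
    funext i; exact loc1_add κ e s t z i

theorem Reg1.smul {n : WithTop ℕ∞} {κ : ℤ} {s : X → Fin 2 → V} (c : ℂ) (hs : Reg1 n κ s) :
    Reg1 n κ (c • s) := fun e he =>
  ((hs e he).const_smul c).congr fun z _ => by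
    funext i; exact loc1_smul κ e c s z i

theorem Reg2.add {n : WithTop ℕ∞} {κ : ℤ} {s t : X → V} (hs : Reg2 n κ s) (ht : Reg2 n κ t) :
    Reg2 n κ (s + t) := fun e he =>
  ((hs e he).add (ht e he)).congr fun z _ => loc2_add κ e s t z

theorem Reg2.smul {n : WithTop ℕ∞} {κ : ℤ} {s : X → V} (c : ℂ) (hs : Reg2 n κ s) :
    Reg2 n κ (c • s) := fun e he =>
  ((hs e he).const_smul c).congr fun z _ => loc2_smul κ e c s z

theorem reg0_zero {n : WithTop ℕ∞} (κ : ℤ) : Reg0 n κ (0 : X → V) := fun e _ => by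
  have : loc0 κ e (0 : X → V) = fun _ => 0 := by funext z; simp [loc0]
  rw [this]; exact contDiffOn_const

theorem reg1_zero {n : WithTop ℕ∞} (κ : ℤ) : Reg1 n κ (0 : X → Fin 2 → V) := fun e _ => by
  have : loc1 κ e (0 : X → Fin 2 → V) = fun _ => 0 := by funext z i; simp [loc1]
  rw [this]; exact contDiffOn_const

theorem reg2_zero {n : WithTop ℕ∞} (κ : ℤ) : Reg2 n κ (0 : X → V) := fun e _ => by
  have : loc2 κ e (0 : X → V) = fun _ => 0 := by funext z; simp [loc2]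
  rw [this]; exact contDiffOn_const

theorem Reg0.differentiableAt {κ : ℤ} {s : X → V} (hs : Reg0 ∞ κ s) (x : X) :
    DifferentiableAt ℝ (loc0 κ (chartAt C2 x) s) (chartAt C2 x x) :=
  ((hs _ (chart_mem_atlas C2 x)).contDiffAt
    ((chartAt C2 x).open_target.mem_nhds (mem_chart_target C2 x))).differentiableAt (by simp)

theorem Reg1.differentiableAt {κ : ℤ} {s : X → Fin 2 → V} (hs : Reg1 ∞ κ s) (x : X) (i : Fin 2) :
    DifferentiableAt ℝ (fun z => loc1 κ (chartAt C2 x) s z i) (chartAt C2 x x) := by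
  have h := ((hs _ (chart_mem_atlas C2 x)).contDiffAt
    ((chartAt C2 x).open_target.mem_nhds (mem_chart_target C2 x))).differentiableAt (by simp)
  exact (differentiableAt_pi.1 h) i

theorem dbar0_add {κ : ℤ} {s t : X → V} (hs : Reg0 ∞ κ s) (ht : Reg0 ∞ κ t) :
    dbar0 κ (s + t) = dbar0 κ s + dbar0 κ t := by
  funext x i
  have h : loc0 κ (chartAt C2 x) (s + t) =
      fun z => loc0 κ (chartAt C2 x) s z + loc0 κ (chartAt C2 x) t z := by
    funext z; exact loc0_add κ _ s t z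
  simp only [dbar0, Pi.add_apply]
  rw [h, dzb_add (Reg0.differentiableAt hs x) (Reg0.differentiableAt ht x)]

theorem dbar0_smul {κ : ℤ} (c : ℂ) {s : X → V} (hs : Reg0 ∞ κ s) :
    dbar0 κ (c • s) = c • dbar0 κ s := by
  funext x i
  have h : loc0 κ (chartAt C2 x) (c • s) = fun z => c • loc0 κ (chartAt C2 x) s z := by
    funext z; exact loc0_smul κ _ c s z
  simp only [dbar0, Pi.smul_apply]
  rw [h, dzb_smul (Reg0.differentiableAt hs x)]

theorem dbar1_add {κ : ℤ} {s t : X → Fin 2 → V} (hs : Reg1 ∞ κ s) (ht : Reg1 ∞ κ t) :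
    dbar1 κ (s + t) = dbar1 κ s + dbar1 κ t := by
  funext x
  have h : ∀ i, (fun z => loc1 κ (chartAt C2 x) (s + t) z i) =
      fun z => loc1 κ (chartAt C2 x) s z i + loc1 κ (chartAt C2 x) t z i := fun i => by
    funext z; exact loc1_add κ _ s t z i
  simp only [dbar1, Pi.add_apply]
  rw [h, h, dzb_add (Reg1.differentiableAt hs x 1) (Reg1.differentiableAt ht x 1),
    dzb_add (Reg1.differentiableAt hs x 0) (Reg1.differentiableAt ht x 0)]
  abel

theorem dbar1_smul {κ : ℤ} (c : ℂ) {s : X → Fin 2 → V} (hs : Reg1 ∞ κ s) :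
    dbar1 κ (c • s) = c • dbar1 κ s := by
  funext x
  have h : ∀ i, (fun z => loc1 κ (chartAt C2 x) (c • s) z i) =
      fun z => c • loc1 κ (chartAt C2 x) s z i := fun i => by
    funext z; exact loc1_smul κ _ c s z i
  simp only [dbar1, Pi.smul_apply]
  rw [h, h, dzb_smul (Reg1.differentiableAt hs x 1), dzb_smul (Reg1.differentiableAt hs x 0),
    smul_sub]

end

/-! ### the Dolbeault complex of `K^κ ⊗ L` -/

section complex

variable {X : Type*} [TopologicalSpace X] [ChartedSpace C2 X]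
variable {ι : Type} [Fintype ι] [DecidableEq ι]

theorem act_add (M : Matrix ι ι ℂ) (v w : EuclideanSpace ℂ ι) :
    LB.act M (v + w) = LB.act M v + LB.act M w := by
  simp only [LB.act]; ext i; simp [Matrix.mulVec_add]

theorem act_smul (M : Matrix ι ι ℂ) (c : ℂ) (v : EuclideanSpace ℂ ι) :
    LB.act M (c • v) = c • LB.act M v := by
  simp only [LB.act]; ext i; simp [Matrix.mulVec_smul]

theorem act_zero (M : Matrix ι ι ℂ) : LB.act M (0 : EuclideanSpace ℂ ι) = 0 := by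
  simp only [LB.act]; ext i; simp

variable (L : LB X ι) (a : X → Fin 2 → ℂ) (κ : ℤ)

/-- smooth `K^κ ⊗ L`-sections -/
def A0 : Submodule ℂ (X → EuclideanSpace ℂ ι) where
  carrier := {s | Reg0 ∞ κ s ∧ L.Sec s}
  add_mem' := fun {s t} hs ht => ⟨Reg0.add hs.1 ht.1, fun x => by
    rw [Pi.add_apply, act_add, hs.2 x, ht.2 x]⟩
  zero_mem' := ⟨reg0_zero κ, fun x => act_zero _⟩
  smul_mem' := fun c s hs => ⟨Reg0.smul c hs.1, fun x => by
    rw [Pi.smul_apply, act_smul, hs.2 x]⟩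

/-- smooth `K^κ ⊗ L`-valued `(0,1)`-forms -/
def A1 : Submodule ℂ (X → Fin 2 → EuclideanSpace ℂ ι) where
  carrier := {w | Reg1 ∞ κ w ∧ L.Sec1 w}
  add_mem' := fun {s t} hs ht => ⟨Reg1.add hs.1 ht.1, fun x i => by
    rw [Pi.add_apply, Pi.add_apply, act_add, hs.2 x i, ht.2 x i]⟩
  zero_mem' := ⟨reg1_zero κ, fun x i => act_zero _⟩
  smul_mem' := fun c s hs => ⟨Reg1.smul c hs.1, fun x i => by
    rw [Pi.smul_apply, Pi.smul_apply, act_smul, hs.2 x i]⟩

/-- smooth `K^κ ⊗ L`-valued `(0,2)`-forms -/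
def A2 : Submodule ℂ (X → EuclideanSpace ℂ ι) where
  carrier := {b | Reg2 ∞ κ b ∧ L.Sec b}
  add_mem' := fun {s t} hs ht => ⟨Reg2.add hs.1 ht.1, fun x => by
    rw [Pi.add_apply, act_add, hs.2 x, ht.2 x]⟩
  zero_mem' := ⟨reg2_zero κ, fun x => act_zero _⟩
  smul_mem' := fun c s hs => ⟨Reg2.smul c hs.1, fun x => by
    rw [Pi.smul_apply, act_smul, hs.2 x]⟩

/-- `∂̄` on smooth sections -/
def D0 : A0 L κ →ₗ[ℂ] (X → Fin 2 → EuclideanSpace ℂ ι) where
  toFun s := L.db0 a κ s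
  map_add' s t := by
    funext x i
    simp only [LB.db0, Submodule.coe_add, dbar0_add s.2.1 t.2.1, Pi.add_apply, act_add, smul_add]
    abel
  map_smul' c s := by
    funext x i
    simp only [LB.db0, SetLike.val_smul, dbar0_smul c s.2.1, Pi.smul_apply, act_smul, smul_add,
      RingHom.id_apply, smul_comm c]

/-- `∂̄` on smooth `(0,1)`-forms -/
def D1 : A1 L κ →ₗ[ℂ] (X → EuclideanSpace ℂ ι) where
  toFun w := L.db1 a κ w
  map_add' s t := by
    funext x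
    simp only [LB.db1, Submodule.coe_add, dbar1_add s.2.1 t.2.1, Pi.add_apply, act_add, smul_add]
    abel
  map_smul' c s := by
    funext x
    simp only [LB.db1, SetLike.val_smul, dbar1_smul c s.2.1, Pi.smul_apply, act_smul, smul_add,
      smul_sub, RingHom.id_apply, smul_comm c]

/-- `H⁰(X, K^κ ⊗ L)`: holomorphic sections -/
def H0 : Submodule ℂ (X → EuclideanSpace ℂ ι) := (LinearMap.ker (D0 L a κ)).map (A0 L κ).subtype

/-- closed `(0,1)`-forms -/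
def Z1 : Submodule ℂ (X → Fin 2 → EuclideanSpace ℂ ι) :=
  (LinearMap.ker (D1 L a κ)).map (A1 L κ).subtype

/-- exact `(0,1)`-forms -/
def B1 : Submodule ℂ (X → Fin 2 → EuclideanSpace ℂ ι) := LinearMap.range (D0 L a κ)

/-- exact `(0,2)`-forms -/
def B2 : Submodule ℂ (X → EuclideanSpace ℂ ι) := LinearMap.range (D1 L a κ)

/-- `H¹(X, K^κ ⊗ L)` -/
abbrev H1 : Type _ := Z1 L a κ ⧸ (B1 L a κ).comap (Z1 L a κ).subtype

/-- `H²(X, K^κ ⊗ L)` -/
abbrev H2 : Type _ := A2 L κ ⧸ (B2 L a κ).comap (A2 L κ).subtype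

theorem mem_A0 {s : X → EuclideanSpace ℂ ι} : s ∈ A0 L κ ↔ Reg0 ∞ κ s ∧ L.Sec s := Iff.rfl

theorem mem_A1 {w : X → Fin 2 → EuclideanSpace ℂ ι} : w ∈ A1 L κ ↔ Reg1 ∞ κ w ∧ L.Sec1 w :=
  Iff.rfl

theorem mem_A2 {b : X → EuclideanSpace ℂ ι} : b ∈ A2 L κ ↔ Reg2 ∞ κ b ∧ L.Sec b := Iff.rfl

theorem mem_H0 {s : X → EuclideanSpace ℂ ι} :
    s ∈ H0 L a κ ↔ (Reg0 ∞ κ s ∧ L.Sec s) ∧ L.db0 a κ s = 0 := by
  constructor
  · rintro ⟨t, ht, rfl⟩
    exact ⟨t.2, LinearMap.mem_ker.1 ht⟩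
  · rintro ⟨h1, h2⟩
    exact ⟨⟨s, h1⟩, LinearMap.mem_ker.2 h2, rfl⟩

theorem mem_Z1 {w : X → Fin 2 → EuclideanSpace ℂ ι} :
    w ∈ Z1 L a κ ↔ (Reg1 ∞ κ w ∧ L.Sec1 w) ∧ L.db1 a κ w = 0 := by
  constructor
  · rintro ⟨t, ht, rfl⟩
    exact ⟨t.2, LinearMap.mem_ker.1 ht⟩
  · rintro ⟨h1, h2⟩
    exact ⟨⟨w, h1⟩, LinearMap.mem_ker.2 h2, rfl⟩

theorem mem_B1 {w : X → Fin 2 → EuclideanSpace ℂ ι} :
    w ∈ B1 L a κ ↔ ∃ s, (Reg0 ∞ κ s ∧ L.Sec s) ∧ L.db0 a κ s = w := by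
  constructor
  · rintro ⟨t, ht⟩
    exact ⟨t, t.2, ht⟩
  · rintro ⟨s, h1, h2⟩
    exact ⟨⟨s, h1⟩, h2⟩

theorem mem_B2 {b : X → EuclideanSpace ℂ ι} :
    b ∈ B2 L a κ ↔ ∃ w, (Reg1 ∞ κ w ∧ L.Sec1 w) ∧ L.db1 a κ w = b := by
  constructor
  · rintro ⟨t, ht⟩
    exact ⟨t, t.2, ht⟩
  · rintro ⟨s, h1, h2⟩
    exact ⟨⟨s, h1⟩, h2⟩

/-- `dim H⁰` -/
def h0 : ℕ := Module.finrank ℂ (H0 L a κ)
/-- `dim H¹` -/
def h1 : ℕ := Module.finrank ℂ (H1 L a κ)
/-- `dim H²` -/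
def h2 : ℕ := Module.finrank ℂ (H2 L a κ)

/-- the holomorphic Euler characteristic `χ(X, K^κ ⊗ L)` -/
def chi : ℤ := h0 L a κ - h1 L a κ + h2 L a κ

end complex

/-! ### the complex of `(1,q)`-forms -/

section Om1

variable (X : Type*) [TopologicalSpace X] [ChartedSpace C2 X]

variable {X} in
/-- components in the chart `e` of the `(1,2)`-form `∑ b_i dz_i ∧ dz̄_0 ∧ dz̄_1` -/
def loc12 (e : Ch X) (b : X → Fin 2 → ℂ) (z : C2) (i : Fin 2) : ℂ :=
  ∑ p, jac e (e.symm z) p i * conj (jac e (e.symm z)).det * b (e.symm z) p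

variable {X} in
/-- smooth `(1,2)`-form -/
def Reg12 (b : X → Fin 2 → ℂ) : Prop := ∀ e ∈ atlas C2 X, ContDiffOn ℝ ∞ (loc12 e b) e.target

variable {X} in
/-- `∂̄` of a `(1,1)`-form `∑ g_{ij} dz_i∧dz̄_j`: `-(∂̄_0 g_{i1} - ∂̄_1 g_{i0}) dz_i∧dz̄_0∧dz̄_1` -/
def dbar11 (g : X → Matrix (Fin 2) (Fin 2) ℂ) (x : X) (i : Fin 2) : ℂ :=
  -(dzb 0 (fun z => loc11 (chartAt C2 x) g z i 1) (chartAt C2 x x) -
      dzb 1 (fun z => loc11 (chartAt C2 x) g z i 0) (chartAt C2 x x))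

/-- the span of the holomorphic one-forms (which form a vector space) -/
def HOm0 : Submodule ℂ (X → Fin 2 → ℂ) := Submodule.span ℂ {c | Reg10 ∞ c ∧ dbar10 c = 0}

/-- the span of the `∂̄`-closed smooth `(1,1)`-forms -/
def ZOm1 : Submodule ℂ (X → Matrix (Fin 2) (Fin 2) ℂ) :=
  Submodule.span ℂ {g | Reg11 ∞ g ∧ dbar11 g = 0}

/-- the span of the `∂̄`-exact smooth `(1,1)`-forms -/
def BOm1 : Submodule ℂ (X → Matrix (Fin 2) (Fin 2) ℂ) :=
  Submodule.span ℂ {g | ∃ c, Reg10 ∞ c ∧ dbar10 c = g}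

/-- the span of the smooth `(1,2)`-forms -/
def ZOm2 : Submodule ℂ (X → Fin 2 → ℂ) := Submodule.span ℂ {b | Reg12 b}

/-- the span of the `∂̄`-exact `(1,2)`-forms -/
def BOm2 : Submodule ℂ (X → Fin 2 → ℂ) := Submodule.span ℂ {b | ∃ g, Reg11 ∞ g ∧ dbar11 g = b}

/-- `h^{1,0}` -/
def h10 : ℕ := Module.finrank ℂ (HOm0 X)
/-- `h^{1,1}` -/
def h11 : ℕ := Module.finrank ℂ (ZOm1 X ⧸ (BOm1 X).comap (ZOm1 X).subtype)
/-- `h^{1,2}` -/
def h12 : ℕ := Module.finrank ℂ (ZOm2 X ⧸ (BOm2 X).comap (ZOm2 X).subtype)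

/-- `χ(X, Ω¹)` -/
def chiOm : ℤ := h10 X - h11 X + h12 X

end Om1

/-! ### intersection numbers and the output statements -/

section stmts

variable {X : Type*} [TopologicalSpace X] [ChartedSpace C2 X]
variable {ι : Type} [Fintype ι] [DecidableEq ι] {ι' : Type} [Fintype ι'] [DecidableEq ι']

/-- the intersection number `c₁(L) · c₁(L')`, `c₁(L) = [i/2π · curv L]` -/
def isec (L : LB X ι) (L' : LB X ι') : ℂ :=
  -(1 / (4 * (Real.pi : ℂ) ^ 2)) * intX (L.curv.wedge L'.curv)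

/-- `LK` is smoothly isomorphic to the canonical bundle: `K^{-1} ⊗ LK` has a smooth section without
zeros -/
def IsCanon (LK : LB X ι') : Prop :=
  ∃ σ : X → EuclideanSpace ℂ ι', Reg0 ∞ (-1) σ ∧ LK.Sec σ ∧ ∀ x, σ x ≠ 0

variable (X)

/-- the trivial line bundle with fibre space `ℂ¹` -/
abbrev OX : LB X (Fin 1) := LB.triv 0

/-- FINITENESS: the cohomology of every holomorphic line bundle is finite-dimensional. -/
def FiniteStmt : Prop :=
  ∀ (ι : Type) [Fintype ι] [DecidableEq ι] (L : LB X ι) (a : X → Fin 2 → ℂ), L.IsHol a → ∀ κ : ℤ,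
    FiniteDimensional ℂ (H0 L a κ) ∧ FiniteDimensional ℂ (H1 L a κ) ∧
      FiniteDimensional ℂ (H2 L a κ)

/-- SERRE DUALITY in the numerical form `h^q(K^κ L) = h^{2-q}(K^{1-κ} L^*)`. -/
def SerreStmt : Prop :=
  ∀ (ι : Type) [Fintype ι] [DecidableEq ι] (L : LB X ι) (a : X → Fin 2 → ℂ), L.IsHol a → ∀ κ : ℤ,
    h0 L a κ = h2 L.dual (-a) (1 - κ) ∧ h1 L a κ = h1 L.dual (-a) (1 - κ) ∧
      h2 L a κ = h0 L.dual (-a) (1 - κ)

/-- RIEMANN-ROCH: `χ(L) = χ(𝒪) + (L·L - L·K)/2`. -/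
def RRStmt : Prop :=
  ∀ (ι ι' : Type) [Fintype ι] [DecidableEq ι] [Fintype ι'] [DecidableEq ι'] (L : LB X ι)
    (a : X → Fin 2 → ℂ) (LK : LB X ι'), L.IsHol a → IsCanon LK →
    (chi L a 0 : ℂ) = chi (OX X) 0 0 + (isec L L - isec L LK) / 2

/-- NOETHER'S FORMULA in the form `K·K = 10 χ(𝒪) + χ(Ω¹)`. -/
def NoetherStmt : Prop :=
  ∀ (ι' : Type) [Fintype ι'] [DecidableEq ι'] (LK : LB X ι'), IsCanon LK →
    isec LK LK = 10 * (chi (OX X) 0 0 : ℂ) + chiOm X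

/-- the output of the Riemann-Roch block, for every compact complex surface -/
def RRBlock : Prop :=
  ∀ (X : Type) [TopologicalSpace X] [T2Space X] [CompactSpace X] [ConnectedSpace X]
    [ChartedSpace C2 X] [IsManifold 𝓘(ℂ, C2) ω X],
    FiniteStmt X ∧ SerreStmt X ∧ RRStmt X ∧ NoetherStmt X

end stmts

end Vale.Agent.P267.RR
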