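import Vale.Agent.P267.H399.Calc2
import Vale.Agent.P267.H221.Out

/-!
# P267, package RR: finite systems of charts, holomorphic bundles by transition matrices,
smooth sections, `∂̄`, kernel operators, and the interface `PS`

helper221.  `FinAt X`: finitely many charts `e a` of the atlas, open sets `U a ⊆ (e a).source`, a
smooth partition of unity `rho a`, `tsupport (rho a) ⊆ U a`.
`O a = e a (U a) ⊆ C2`, `tau a b` = change of coordinates, `J a b` its Jacobian matrix
(`J a b z p i = ∂(tau a b)_p/∂z_i`), `K a = e a (tsupport (rho a))`, `r a = rho a` in the chart `e a`.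

`SB A V`: smooth vector bundle with fibre `V`: `T a b z : V →L[ℂ] V`, `u^b(tau a b z) = T a b z (u^a(z))`.
`Bun A n`: holomorphic bundle of rank `n`, transition matrices `E a b z`;
`B.sb0`, `B.sb1`, `B.sb2`: the smooth bundles of `B`-valued `(0,0)`, `(0,1)`, `(0,2)`-forms with
fibres `Fin n → ℂ`, `Fin 2 → Fin n → ℂ`, `Fin n → ℂ`.
-/

set_option linter.unusedVariables false
set_option linter.unusedSectionVars false

open scoped Manifold ContDiff ComplexConjugate Matrix Topology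
open MeasureTheory Set Filter

noncomputable section

namespace Vale.Agent.P267.RR

open FL

/-- A finite system of charts with a smooth partition of unity. -/
structure FinAt (X : Type*) [TopologicalSpace X] [ChartedSpace C2 X] where
  N : ℕ
  e : Fin N → Ch X
  he : ∀ a, e a ∈ atlas C2 X
  U : Fin N → Set X
  isOpen_U : ∀ a, IsOpen (U a)
  U_sub : ∀ a, U a ⊆ (e a).source
  rho : Fin N → X → ℝ
  rho_smooth : ∀ a, Reg0 ∞ 0 (fun x => (rho a x : ℂ))
  rho_nonneg : ∀ a x, 0 ≤ rho a x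
  rho_supp : ∀ a, tsupport (rho a) ⊆ U a
  rho_sum : ∀ x, ∑ a, rho a x = 1

variable {X : Type*} [TopologicalSpace X] [ChartedSpace C2 X]

namespace FinAt

variable (A : FinAt X)

/-- the coordinate domains -/
def O (a : Fin A.N) : Set C2 := (A.e a).target ∩ (A.e a).symm ⁻¹' A.U a

/-- the part of `O a` where the chart `b` is also used -/
def ov (a b : Fin A.N) : Set C2 := {z | z ∈ A.O a ∧ (A.e a).symm z ∈ A.U b}

/-- change of coordinates from `a` to `b` -/
def tau (a b : Fin A.N) (z : C2) : C2 := A.e b ((A.e a).symm z)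

/-- Jacobian matrix of `tau a b` -/
def J (a b : Fin A.N) (z : C2) : Matrix (Fin 2) (Fin 2) ℂ :=
  jacM (A.e a) (A.e b) ((A.e a).symm z)

/-- the support of `rho a` in coordinates -/
def K (a : Fin A.N) : Set C2 := A.e a '' tsupport (A.rho a)

open Classical in
/-- `rho a` in the chart `a`, extended by zero -/
def r (a : Fin A.N) (z : C2) : ℝ := if z ∈ A.O a then A.rho a ((A.e a).symm z) else 0

theorem isOpen_O (a : Fin A.N) : IsOpen (A.O a) :=
  (A.e a).isOpen_inter_preimage_symm (A.isOpen_U a)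

theorem ov_eq (a b : Fin A.N) :
    A.ov a b = (A.e a).target ∩ (A.e a).symm ⁻¹' (A.U a ∩ A.U b) := by
  ext z
  simp only [ov, O, mem_ofPred_eq, mem_inter_iff, mem_preimage]
  tauto

theorem isOpen_ov (a b : Fin A.N) : IsOpen (A.ov a b) := by
  rw [ov_eq]
  exact (A.e a).isOpen_inter_preimage_symm ((A.isOpen_U a).inter (A.isOpen_U b))

theorem ov_sub (a b : Fin A.N) : A.ov a b ⊆ A.O a := fun z hz => hz.1

variable {A}

theorem mem_O {a : Fin A.N} {x : X} (hx : x ∈ A.U a) : A.e a x ∈ A.O a := by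
  have h := A.U_sub a hx
  refine ⟨(A.e a).map_source h, ?_⟩
  rw [mem_preimage, (A.e a).left_inv h]
  exact hx

theorem mem_ov {a b : Fin A.N} {x : X} (hx : x ∈ A.U a) (hx' : x ∈ A.U b) : A.e a x ∈ A.ov a b := by
  refine ⟨mem_O hx, ?_⟩
  rw [(A.e a).left_inv (A.U_sub a hx)]
  exact hx'

theorem mem_ov_self {a : Fin A.N} {z : C2} (hz : z ∈ A.O a) : z ∈ A.ov a a := ⟨hz, hz.2⟩

theorem symm_mem_source {a : Fin A.N} {z : C2} (hz : z ∈ A.O a) :
    (A.e a).symm z ∈ (A.e a).source := (A.e a).map_target hz.1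

theorem symm_mem_source' {a b : Fin A.N} {z : C2} (hz : z ∈ A.ov a b) :
    (A.e a).symm z ∈ (A.e b).source := A.U_sub b hz.2

theorem symm_tau {a b : Fin A.N} {z : C2} (hz : z ∈ A.ov a b) :
    (A.e b).symm (A.tau a b z) = (A.e a).symm z := (A.e b).left_inv (symm_mem_source' hz)

theorem tau_mem {a b : Fin A.N} {z : C2} (hz : z ∈ A.ov a b) : A.tau a b z ∈ A.ov b a :=
  mem_ov hz.2 hz.1.2

theorem tau_mem_O {a b : Fin A.N} {z : C2} (hz : z ∈ A.ov a b) : A.tau a b z ∈ A.O b :=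
  (tau_mem hz).1

theorem tau_mem_ov {a b c : Fin A.N} {z : C2} (hz : z ∈ A.ov a b) (hz' : z ∈ A.ov a c) :
    A.tau a b z ∈ A.ov b c := mem_ov hz.2 hz'.2

theorem tau_self {a : Fin A.N} {z : C2} (hz : z ∈ A.O a) : A.tau a a z = z :=
  (A.e a).right_inv hz.1

theorem tau_comp {a b : Fin A.N} (c : Fin A.N) {z : C2} (hz : z ∈ A.ov a b) :
    A.tau b c (A.tau a b z) = A.tau a c z := by
  unfold tau
  rw [show (A.e b).symm (A.e b ((A.e a).symm z)) = (A.e a).symm z from symm_tau hz]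

theorem tau_tau {a b : Fin A.N} {z : C2} (hz : z ∈ A.ov a b) : A.tau b a (A.tau a b z) = z := by
  rw [tau_comp a hz, tau_self hz.1]

theorem J_tau {a b : Fin A.N} (c : Fin A.N) {z : C2} (hz : z ∈ A.ov a b) :
    A.J b c (A.tau a b z) = jacM (A.e b) (A.e c) ((A.e a).symm z) := by
  unfold J
  rw [symm_tau hz]

section hol

variable [IsManifold 𝓘(ℂ, C2) ω X]

theorem tau_analyticAt {a b : Fin A.N} {z : C2} (hz : z ∈ A.ov a b) :
    AnalyticAt ℂ (A.tau a b) z :=
  trans_analyticAt' (A.he a) (A.he b) hz.1.1 (symm_mem_source' hz)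

theorem J_mul_inv {a b : Fin A.N} {z : C2} (hz : z ∈ A.ov a b) :
    A.J a b z * A.J b a (A.tau a b z) = 1 := by
  rw [J_tau a hz]
  have h := jacM_mul_inv (A.he b) (A.he a) (symm_mem_source' hz) (symm_mem_source hz.1)
  exact h

end hol

end FinAt

/-! ### smooth bundles -/

/-- A smooth vector bundle with fibre `V`, by transition maps: `u^b (tau a b z) = T a b z (u^a z)`. -/
structure SB (A : FinAt X) (V : Type) [NormedAddCommGroup V] [NormedSpace ℂ V] where
  T : Fin A.N → Fin A.N → C2 → V →L[ℂ] V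
  smooth : ∀ a b v, ContDiffOn ℝ ∞ (fun z => T a b z v) (A.ov a b)
  self : ∀ a, ∀ z ∈ A.O a, ∀ v, T a a z v = v
  comp : ∀ a b c, ∀ z ∈ A.ov a b, z ∈ A.ov a c → ∀ v, T b c (A.tau a b z) (T a b z v) = T a c z v

namespace SB

variable {A : FinAt X} {V : Type} [NormedAddCommGroup V] [NormedSpace ℂ V] (S : SB A V)

/-- smooth sections: families `u a : C2 → V`, smooth on `O a`, zero outside, compatible -/
def Sec : Submodule ℂ (Fin A.N → C2 → V) where
  carrier := {u | (∀ a, ContDiffOn ℝ ∞ (u a) (A.O a)) ∧ (∀ a, ∀ z ∉ A.O a, u a z = 0) ∧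
    ∀ a b, ∀ z ∈ A.ov a b, u b (A.tau a b z) = S.T a b z (u a z)}
  zero_mem' := by
    refine ⟨fun a => contDiffOn_const, fun a z _ => rfl, fun a b z hz => ?_⟩
    simp
  add_mem' := by
    rintro u v ⟨h1, h2, h3⟩ ⟨h1', h2', h3'⟩
    refine ⟨fun a => (h1 a).add (h1' a), fun a z hz => ?_, fun a b z hz => ?_⟩
    · simp [h2 a z hz, h2' a z hz]
    · simp [h3 a b z hz, h3' a b z hz]
  smul_mem' := by
    rintro c u ⟨h1, h2, h3⟩
    refine ⟨fun a => contDiffOn_const.smul (h1 a), fun a z hz => ?_, fun a b z hz => ?_⟩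
    · simp [h2 a z hz]
    · simp [h3 a b z hz]

end SB

/-- A kernel for sections of `S`: `k a b z w : V →L[ℂ] V`, smooth on `O a × O b`, in `z` it is a
section of `S` (in `w` it is only used in the chart `b`, with weight `r b`). -/
structure Kern {A : FinAt X} {V : Type} [NormedAddCommGroup V] [NormedSpace ℂ V] (S : SB A V) where
  k : Fin A.N → Fin A.N → C2 → C2 → V →L[ℂ] V
  smooth : ∀ a b v, ContDiffOn ℝ ∞ (fun p : C2 × C2 => k a b p.1 p.2 v) (A.O a ×ˢ A.O b)
  compat : ∀ a a' b, ∀ z ∈ A.ov a a', ∀ w ∈ A.O b, ∀ v,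
    k a' b (A.tau a a' z) w v = S.T a a' z (k a b z w v)

open Classical in
/-- the kernel operator `(k u)_a(z) = ∑_b ∫ r_b(w) k_ab(z,w) u_b(w) dw` -/
def Kern.op {A : FinAt X} {V : Type} [NormedAddCommGroup V] [NormedSpace ℂ V] {S : SB A V}
    (k : Kern S) (u : Fin A.N → C2 → V) (a : Fin A.N) (z : C2) : V :=
  if z ∈ A.O a then ∑ b, ∫ w, (A.r b w : ℂ) • k.k a b z w (u b w) else 0

/-! ### holomorphic bundles -/

/-- matrices acting on `Fin r → ℂ` -/
def mL {r : ℕ} (M : Matrix (Fin r) (Fin r) ℂ) : (Fin r → ℂ) →L[ℂ] (Fin r → ℂ) :=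
  LinearMap.toContinuousLinearMap (Matrix.mulVecLin M)

@[simp] theorem mL_apply {r : ℕ} (M : Matrix (Fin r) (Fin r) ℂ) (v : Fin r → ℂ) :
    mL M v = M *ᵥ v := rfl

/-- action on `(0,1)`-forms: `w ↦ (∑_j C_jk M w_j)_k` -/
def mL1 {r : ℕ} (C : Matrix (Fin 2) (Fin 2) ℂ) (M : Matrix (Fin r) (Fin r) ℂ) :
    (Fin 2 → Fin r → ℂ) →L[ℂ] (Fin 2 → Fin r → ℂ) :=
  LinearMap.toContinuousLinearMap
    { toFun := fun w k => ∑ j, C j k • M *ᵥ w j
      map_add' := by
        intro w w'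
        funext k
        simp [Matrix.mulVec_add, Finset.sum_add_distrib, smul_add]
      map_smul' := by
        intro c w
        funext k
        simp [Matrix.mulVec_smul, smul_comm c] }

@[simp] theorem mL1_apply {r : ℕ} (C : Matrix (Fin 2) (Fin 2) ℂ) (M : Matrix (Fin r) (Fin r) ℂ)
    (w : Fin 2 → Fin r → ℂ) (k : Fin 2) : mL1 C M w k = ∑ j, C j k • M *ᵥ w j := rfl

/-- A holomorphic vector bundle of rank `r` by transition matrices:
`u^b (tau a b z) = E a b z *ᵥ u^a z`. -/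
structure Bun (A : FinAt X) (r : ℕ) where
  E : Fin A.N → Fin A.N → C2 → Matrix (Fin r) (Fin r) ℂ
  hol : ∀ a b, ∀ z ∈ A.ov a b, ∀ i j, AnalyticAt ℂ (fun z => E a b z i j) z
  self : ∀ a, ∀ z ∈ A.O a, E a a z = 1
  comp : ∀ a b c, ∀ z ∈ A.ov a b, z ∈ A.ov a c → E b c (A.tau a b z) * E a b z = E a c z

namespace Bun

variable {A : FinAt X} {r : ℕ} (B : Bun A r)

theorem E_smooth (a b : Fin A.N) (v : Fin r → ℂ) :
    ContDiffOn ℝ ∞ (fun z => B.E a b z *ᵥ v) (A.ov a b) := by
  rw [contDiffOn_pi]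
  intro i z hz
  simp only [Matrix.mulVec, dotProduct]
  refine ContDiffWithinAt.sum fun j _ => ?_
  exact (((B.hol a b z hz i j).contDiffAt.restrict_scalars ℝ).mul
    contDiffAt_const).contDiffWithinAt

/-- `(0,0)`-forms with values in `B` -/
def sb0 : SB A (Fin r → ℂ) where
  T a b z := mL (B.E a b z)
  smooth a b v := B.E_smooth a b v
  self a z hz v := by simp [B.self a z hz]
  comp a b c z hz hz' v := by simp [← B.comp a b c z hz hz']

/-- the coefficient matrix for `(0,1)`-forms: `w^b_k = ∑_j Cm_jk w^a_j`, `Cm = conj (J b a)` -/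
def Cm (A : FinAt X) (a b : Fin A.N) (z : C2) : Matrix (Fin 2) (Fin 2) ℂ :=
  (A.J b a (A.tau a b z)).map conj

end Bun

section hol

variable [IsManifold 𝓘(ℂ, C2) ω X] {A : FinAt X}

theorem FinAt.jac_inv_analyticAt {a b : Fin A.N} {z : C2} (hz : z ∈ A.ov a b) (i j : Fin 2) :
    AnalyticAt ℂ (fun z => A.J b a (A.tau a b z) i j) z := by
  have h1 : AnalyticAt ℂ (fun w => A.J b a w i j) (A.tau a b z) := by
    have := jacM_analyticAt (A.he b) (A.he a) (FinAt.symm_mem_source' hz)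
      (FinAt.symm_mem_source hz.1) i j
    exact this
  exact h1.comp (f := A.tau a b) (FinAt.tau_analyticAt hz)

theorem Bun.Cm_smooth {a b : Fin A.N} {z : C2} (hz : z ∈ A.ov a b) (i j : Fin 2) :
    ContDiffAt ℝ ∞ (fun z => Bun.Cm A a b z i j) z := by
  have h := ((FinAt.jac_inv_analyticAt hz i j).contDiffAt (n := ∞)).restrict_scalars ℝ
  exact (Complex.conjCLE.contDiff.contDiffAt).comp z h

theorem Bun.Cm_self {a : Fin A.N} {z : C2} (hz : z ∈ A.O a) : Bun.Cm A a a z = 1 := by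
  unfold Bun.Cm
  rw [FinAt.tau_self hz]
  unfold FinAt.J
  rw [jacM_self (FinAt.symm_mem_source hz)]
  simp

theorem Bun.Cm_comp {a b c : Fin A.N} {z : C2} (hz : z ∈ A.ov a b) (hz' : z ∈ A.ov a c) :
    Bun.Cm A a b z * Bun.Cm A b c (A.tau a b z) = Bun.Cm A a c z := by
  unfold Bun.Cm
  rw [← Matrix.map_mul, FinAt.tau_comp c hz, FinAt.J_tau a hz, FinAt.J_tau a hz']
  have h : A.J c b (A.tau a c z) = jacM (A.e c) (A.e b) ((A.e a).symm z) := FinAt.J_tau b hz'
  rw [h, ← jacM_comp (A.he c) (A.he b) (A.he a) (FinAt.symm_mem_source' hz')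
    (FinAt.symm_mem_source' hz) (FinAt.symm_mem_source hz.1)]

variable {r : ℕ} (B : Bun A r)

namespace Bun

/-- `(0,1)`-forms with values in `B` -/
def sb1 : SB A (Fin 2 → Fin r → ℂ) where
  T a b z := mL1 (Cm A a b z) (B.E a b z)
  smooth a b v := by
    rw [contDiffOn_pi]
    intro k
    simp only [mL1_apply]
    refine ContDiffOn.sum fun j _ => ?_
    exact ContDiffOn.smul (fun z hz => (Cm_smooth hz j k).contDiffWithinAt) (B.E_smooth a b (v j))
  self a z hz v := by
    funext k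
    simp [B.self a z hz, Cm_self hz, Matrix.one_apply]
  comp a b c z hz hz' v := by
    funext k
    simp only [mL1_apply, ← B.comp a b c z hz hz', ← Cm_comp hz hz', Matrix.mul_apply,
      ← Matrix.mulVec_mulVec, Matrix.mulVec_sum, Matrix.mulVec_smul, Finset.smul_sum,
      Finset.sum_smul, smul_smul]
    rw [Finset.sum_comm]
    refine Finset.sum_congr rfl fun i _ => Finset.sum_congr rfl fun j _ => ?_
    rw [mul_comm]

/-- `(0,2)`-forms with values in `B` -/
def sb2 : SB A (Fin r → ℂ) where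
  T a b z := (Cm A a b z).det • mL (B.E a b z)
  smooth a b v := by
    have h : ContDiffOn ℝ ∞ (fun z => (Cm A a b z).det) (A.ov a b) := by
      intro z hz
      simp only [Matrix.det_fin_two]
      exact (((Cm_smooth hz 0 0).mul (Cm_smooth hz 1 1)).sub
        ((Cm_smooth hz 0 1).mul (Cm_smooth hz 1 0))).contDiffWithinAt
    exact h.smul (B.E_smooth a b v)
  self a z hz v := by simp [B.self a z hz, Cm_self hz]
  comp a b c z hz hz' v := by
    simp [← B.comp a b c z hz hz', ← Cm_comp hz hz', smul_smul]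

end Bun

/-! ### the Jacobian matrices -/

theorem FinAt.J_analyticAt {a b : Fin A.N} {z : C2} (hz : z ∈ A.ov a b) (p i : Fin 2) :
    AnalyticAt ℂ (fun y => A.J a b y p i) z := by
  have := jacM_analyticAt (A.he a) (A.he b) (FinAt.symm_mem_source hz.1)
    (FinAt.symm_mem_source' hz) p i
  rw [(A.e a).right_inv hz.1.1] at this
  exact this

theorem FinAt.J_eventually {a b : Fin A.N} {z : C2} (hz : z ∈ A.ov a b) (p i : Fin 2) :
    (fun y => A.J a b y p i) =ᶠ[𝓝 z] dz i (fun y => A.tau a b y p) := by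
  have := jacM_eventually (e' := A.e b) (FinAt.symm_mem_source hz.1) p i
  rw [(A.e a).right_inv hz.1.1] at this
  exact this

theorem FinAt.J_apply {a b : Fin A.N} {z : C2} (hz : z ∈ A.ov a b) (p i : Fin 2) :
    A.J a b z p i = dz i (fun y => A.tau a b y p) z := (FinAt.J_eventually hz p i).eq_of_nhds

/-- the Jacobian matrices are closed: `∂_j J_pi = ∂_i J_pj` -/
theorem FinAt.dz_J {a b : Fin A.N} {z : C2} (hz : z ∈ A.ov a b) (p i j : Fin 2) :
    dz j (fun y => A.J a b y p i) z = dz i (fun y => A.J a b y p j) z := by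
  rw [dz_congr (FinAt.J_eventually hz p i), dz_congr (FinAt.J_eventually hz p j)]
  have h := (comp_analyticAt (FinAt.tau_analyticAt hz) p)
  exact dz_dz_comm ((h.contDiffAt (n := 2)).restrict_scalars ℝ) j i

theorem FinAt.dzb_J {a b : Fin A.N} {z : C2} (hz : z ∈ A.ov a b) (p i j : Fin 2) :
    dzb j (fun y => conj (A.J a b y p i)) z = dzb i (fun y => conj (A.J a b y p j)) z := by
  rw [dzb_conj ((FinAt.J_analyticAt hz p i).differentiableAt.restrictScalars ℝ),
    dzb_conj ((FinAt.J_analyticAt hz p j).differentiableAt.restrictScalars ℝ), FinAt.dz_J hz]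

theorem Bun.sum_J_Cm {a b : Fin A.N} {z : C2} (hz : z ∈ A.ov a b) (p k : Fin 2) :
    ∑ j, conj (A.J a b z p j) * Bun.Cm A a b z j k = if p = k then 1 else 0 := by
  have h := congrFun (congrFun (FinAt.J_mul_inv hz) p) k
  rw [Matrix.mul_apply, Matrix.one_apply] at h
  have h2 := congrArg conj h
  rw [map_sum] at h2
  simp only [map_mul] at h2
  rw [show ∑ j, conj (A.J a b z p j) * Bun.Cm A a b z j k =
    ∑ x, conj (A.J a b z p x) * conj (A.J b a (A.tau a b z) x k) from rfl, h2]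
  split_ifs <;> simp

theorem FinAt.J_mul_inv' {a b : Fin A.N} {z : C2} (hz : z ∈ A.ov a b) :
    A.J b a (A.tau a b z) * A.J a b z = 1 :=
  mul_eq_one_comm.1 (FinAt.J_mul_inv hz)

theorem Bun.sum_Cm_J {a b : Fin A.N} {z : C2} (hz : z ∈ A.ov a b) (j i : Fin 2) :
    ∑ k, Bun.Cm A a b z j k * conj (A.J a b z k i) = if j = i then 1 else 0 := by
  have h := congrFun (congrFun (FinAt.J_mul_inv' hz) j) i
  rw [Matrix.mul_apply, Matrix.one_apply] at h
  have h2 := congrArg conj h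
  rw [map_sum] at h2
  simp only [map_mul] at h2
  rw [show ∑ k, Bun.Cm A a b z j k * conj (A.J a b z k i) =
    ∑ x, conj (A.J b a (A.tau a b z) j x) * conj (A.J a b z x i) from rfl, h2]
  split_ifs <;> simp

theorem Bun.det_Cm {a b : Fin A.N} {z : C2} (hz : z ∈ A.ov a b) :
    (Bun.Cm A a b z).det * conj (A.J a b z).det = 1 := by
  have h := congrArg Matrix.det (FinAt.J_mul_inv' hz)
  rw [Matrix.det_mul, Matrix.det_one] at h
  have h2 := congrArg conj h
  rw [map_mul, map_one] at h2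
  rw [← h2]
  congr 1
  unfold Bun.Cm
  rw [Matrix.det_fin_two, Matrix.det_fin_two]
  simp

theorem FinAt.J_det_ne {a b : Fin A.N} {z : C2} (hz : z ∈ A.ov a b) : (A.J a b z).det ≠ 0 := by
  intro h
  have := Bun.det_Cm hz
  rw [h] at this
  simp at this

/-- compatibility of `(0,1)`-forms in the form `∑_p conj(J_pj) w^b_p = E w^a_j` -/
theorem Bun.compat1_iff {a b : Fin A.N} {z : C2} (hz : z ∈ A.ov a b)
    (M : Matrix (Fin r) (Fin r) ℂ) (w w' : Fin 2 → Fin r → ℂ) :
    w' = mL1 (Bun.Cm A a b z) M w ↔ ∀ j, ∑ p, conj (A.J a b z p j) • w' p = M *ᵥ w j := by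
  constructor
  · rintro rfl j
    simp only [mL1_apply, Finset.smul_sum, smul_smul]
    rw [Finset.sum_comm]
    simp only [← Finset.sum_smul]
    have h : ∀ i, ∑ p, conj (A.J a b z p j) * Bun.Cm A a b z i p = if i = j then 1 else 0 := by
      intro i
      rw [← Bun.sum_Cm_J hz i j]
      exact Finset.sum_congr rfl fun p _ => mul_comm _ _
    simp only [h]
    simp
  · intro h
    funext k
    simp only [mL1_apply, ← h, Finset.smul_sum, smul_smul]
    rw [Finset.sum_comm]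
    simp only [← Finset.sum_smul]
    have h : ∀ p, ∑ j, Bun.Cm A a b z j k * conj (A.J a b z p j) = if p = k then 1 else 0 := by
      intro p
      rw [← Bun.sum_J_Cm hz p k]
      exact Finset.sum_congr rfl fun p _ => mul_comm _ _
    simp only [h]
    simp

/-- compatibility of `(0,2)`-forms in the form `conj(det J) w^b = E w^a` -/
theorem Bun.compat2_iff {a b : Fin A.N} {z : C2} (hz : z ∈ A.ov a b)
    (M : Matrix (Fin r) (Fin r) ℂ) (w w' : Fin r → ℂ) :
    w' = ((Bun.Cm A a b z).det • mL M) w ↔ conj (A.J a b z).det • w' = M *ᵥ w := by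
  have h := Bun.det_Cm hz
  constructor
  · rintro rfl
    simp only [smul_apply, mL_apply, smul_smul]
    rw [mul_comm, h, one_smul]
  · intro h1
    simp only [smul_apply, mL_apply, ← h1, smul_smul]
    rw [h, one_smul]

/-- `dim (ker d1 / im d0)` -/
def finrankCoh {M0 M1 M2 : Type*} [AddCommGroup M0] [Module ℂ M0] [AddCommGroup M1] [Module ℂ M1]
    [AddCommGroup M2] [Module ℂ M2] (d0 : M0 →ₗ[ℂ] M1) (d1 : M1 →ₗ[ℂ] M2) : ℕ :=
  Module.finrank ℂ (↥(LinearMap.ker d1) ⧸ (LinearMap.range d0).comap (LinearMap.ker d1).subtype)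

/-! ### the `∂̄` complex -/

namespace Bun

variable (B : Bun A r)

theorem dzb_pi {n : ℕ} {F : C2 → Fin n → ℂ} {z : C2} (hF : DifferentiableAt ℝ F z) (i : Fin 2)
    (k : Fin n) : dzb i (fun y => F y k) z = dzb i F z k := by
  have := dzb_clm (ContinuousLinearMap.proj (R := ℂ) (φ := fun _ : Fin n => ℂ) k) hF i
  exact this

theorem E_dzb {a b : Fin A.N} {z : C2} (hz : z ∈ A.ov a b) {f : C2 → Fin r → ℂ}
    (hf : DifferentiableAt ℝ f z) (i : Fin 2) :
    dzb i (fun y => B.E a b y *ᵥ f y) z = B.E a b z *ᵥ dzb i f z := by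
  have hE : ∀ k j, DifferentiableAt ℂ (fun y => B.E a b y k j) z := fun k j =>
    (B.hol a b z hz k j).differentiableAt
  have hf' : ∀ j, DifferentiableAt ℝ (fun y => f y j) z := fun j =>
    differentiableAt_pi.1 hf j
  have hF : DifferentiableAt ℝ (fun y => B.E a b y *ᵥ f y) z := by
    rw [differentiableAt_pi]
    intro k
    simp only [Matrix.mulVec, dotProduct]
    exact DifferentiableAt.fun_sum fun j _ => ((hE k j).restrictScalars ℝ).mul (hf' j)
  funext k
  rw [← dzb_pi hF]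
  simp only [Matrix.mulVec, dotProduct]
  rw [dzb_sum (f := fun j y => B.E a b y k j * f y j) Finset.univ
    (fun j _ => ((hE k j).restrictScalars ℝ).mul (hf' j))]
  refine Finset.sum_congr rfl fun j _ => ?_
  rw [dzb_mul ((hE k j).restrictScalars ℝ) (hf' j), dzb_of_hol (hE k j), zero_mul, add_zero,
    dzb_pi hf]

open Classical in
/-- `∂̄` in degree 0 -/
def d0f (u : Fin A.N → C2 → Fin r → ℂ) (a : Fin A.N) (z : C2) : Fin 2 → Fin r → ℂ :=
  if z ∈ A.O a then fun j => dzb j (u a) z else 0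

open Classical in
/-- `∂̄` in degree 1 -/
def d1f (w : Fin A.N → C2 → Fin 2 → Fin r → ℂ) (a : Fin A.N) (z : C2) : Fin r → ℂ :=
  if z ∈ A.O a then dzb 0 (fun y => w a y 1) z - dzb 1 (fun y => w a y 0) z else 0

variable {B}

theorem Sec0_relation {u : Fin A.N → C2 → Fin r → ℂ} (hu : u ∈ B.sb0.Sec) {a b : Fin A.N} {z : C2}
    (hz : z ∈ A.ov a b) : (fun y => u b (A.tau a b y)) =ᶠ[𝓝 z] fun y => B.E a b y *ᵥ u a y := by
  filter_upwards [(A.isOpen_ov a b).mem_nhds hz] with y hy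
  exact hu.2.2 a b y hy

theorem Sec1_relation {w : Fin A.N → C2 → Fin 2 → Fin r → ℂ} (hw : w ∈ B.sb1.Sec) {a b : Fin A.N}
    {z : C2} (hz : z ∈ A.ov a b) (j : Fin 2) :
    (fun y => ∑ p, conj (A.J a b y p j) • w b (A.tau a b y) p) =ᶠ[𝓝 z]
      fun y => B.E a b y *ᵥ w a y j := by
  filter_upwards [(A.isOpen_ov a b).mem_nhds hz] with y hy
  exact (Bun.compat1_iff hy _ _ _).1 (hw.2.2 a b y hy) j

theorem Sec_contDiffAt {V : Type} [NormedAddCommGroup V] [NormedSpace ℂ V] {S : SB A V}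
    {u : Fin A.N → C2 → V} (hu : u ∈ S.Sec) {a : Fin A.N} {z : C2}
    (hz : z ∈ A.O a) : ContDiffAt ℝ ∞ (u a) z := (hu.1 a).contDiffAt ((A.isOpen_O a).mem_nhds hz)

theorem d0f_mem {u : Fin A.N → C2 → Fin r → ℂ} (hu : u ∈ B.sb0.Sec) : d0f u ∈ B.sb1.Sec := by
  refine ⟨fun a => ?_, fun a z hz => by simp [d0f, hz], fun a b z hz => ?_⟩
  · have h : ContDiffOn ℝ ∞ (fun z => fun j => dzb j (u a) z) (A.O a) := by
      rw [contDiffOn_pi]
      exact fun j => contDiffOn_dzb (A.isOpen_O a) (hu.1 a) (by exact_mod_cast le_rfl) j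
    exact h.congr fun z hz => by simp [d0f, hz]
  · refine (Bun.compat1_iff hz _ _ _).2 fun j => ?_
    have hb : DifferentiableAt ℝ (u b) (A.tau a b z) :=
      (Sec_contDiffAt hu (FinAt.tau_mem_O hz)).differentiableAt (by simp)
    have ha : DifferentiableAt ℝ (u a) z := (Sec_contDiffAt hu hz.1).differentiableAt (by simp)
    have h1 := dzb_congr (Sec0_relation hu hz) j
    rw [dzb_comp hb (FinAt.tau_analyticAt hz).differentiableAt, E_dzb B hz ha] at h1
    simp only [d0f, if_pos hz.1, if_pos (FinAt.tau_mem_O hz)]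
    rw [← h1]
    refine Finset.sum_congr rfl fun p _ => ?_
    rw [FinAt.J_apply hz]

theorem d1f_mem {w : Fin A.N → C2 → Fin 2 → Fin r → ℂ} (hw : w ∈ B.sb1.Sec) :
    d1f w ∈ B.sb2.Sec := by
  refine ⟨fun a => ?_, fun a z hz => by simp [d1f, hz], fun a b z hz => ?_⟩
  · have hw' : ∀ i, ContDiffOn ℝ ∞ (fun z => w a z i) (A.O a) := fun i =>
      contDiffOn_pi.1 (hw.1 a) i
    have h : ContDiffOn ℝ ∞ (fun z => dzb 0 (fun y => w a y 1) z - dzb 1 (fun y => w a y 0) z)
        (A.O a) :=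
      (contDiffOn_dzb (A.isOpen_O a) (hw' 1) (by exact_mod_cast le_rfl) 0).sub
        (contDiffOn_dzb (A.isOpen_O a) (hw' 0) (by exact_mod_cast le_rfl) 1)
    exact h.congr fun z hz => by simp [d1f, hz]
  · refine (Bun.compat2_iff hz _ _ _).2 ?_
    have hb : ∀ p, DifferentiableAt ℝ (fun y => w b y p) (A.tau a b z) := fun p =>
      differentiableAt_pi.1 ((Sec_contDiffAt hw (FinAt.tau_mem_O hz)).differentiableAt (by simp)) p
    have ha : ∀ p, DifferentiableAt ℝ (fun y => w a y p) z := fun p =>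
      differentiableAt_pi.1 ((Sec_contDiffAt hw hz.1).differentiableAt (by simp)) p
    have hτ : DifferentiableAt ℂ (A.tau a b) z := (FinAt.tau_analyticAt hz).differentiableAt
    have hJ : ∀ p j, DifferentiableAt ℝ (fun y => conj (A.J a b y p j)) z := fun p j =>
      differentiableAt_conj ((FinAt.J_analyticAt hz p j).differentiableAt.restrictScalars ℝ)
    have key : ∀ i j, ∑ p, (conj (A.J a b z p j) • ∑ q, conj (A.J a b z q i) •
        dzb q (fun y => w b y p) (A.tau a b z) +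
        dzb i (fun y => conj (A.J a b y p j)) z • w b (A.tau a b z) p) =
        B.E a b z *ᵥ dzb i (fun y => w a y j) z := by
      intro i j
      have h1 := dzb_congr (Sec1_relation hw hz j) i
      have hbt : ∀ p, DifferentiableAt ℝ (fun y => w b (A.tau a b y) p) z := fun p =>
        (hb p).comp z (hτ.restrictScalars ℝ)
      rw [dzb_sum (f := fun p y => conj (A.J a b y p j) • w b (A.tau a b y) p) Finset.univ
        (fun p _ => (hJ p j).smul (hbt p)), E_dzb B hz (ha j)] at h1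
      rw [← h1]
      refine Finset.sum_congr rfl fun p _ => ?_
      rw [FL.dzb_smul (hJ p j) (hbt p), dzb_comp (f := fun y => w b y p) (hb p) hτ i]
      simp only [FinAt.J_apply hz]
    simp only [d1f, if_pos hz.1, if_pos (FinAt.tau_mem_O hz)]
    rw [Matrix.mulVec_sub, ← key 0 1, ← key 1 0]
    simp only [Fin.sum_univ_two, Matrix.det_fin_two, FinAt.dzb_J hz _ 0 1]
    simp only [map_sub, map_mul]
    module

variable (B)

/-- `∂̄ : A^{0,0}(B) → A^{0,1}(B)` -/
def d0 : B.sb0.Sec →ₗ[ℂ] B.sb1.Sec where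
  toFun u := ⟨d0f u.1, d0f_mem u.2⟩
  map_add' u v := by
    apply Subtype.ext
    funext a z
    by_cases hz : z ∈ A.O a
    · funext j
      have hu := (Sec_contDiffAt u.2 hz).differentiableAt (by simp)
      have hv := (Sec_contDiffAt v.2 hz).differentiableAt (by simp)
      simp only [d0f, if_pos hz, Submodule.coe_add, Pi.add_apply]
      exact dzb_add hu hv j
    · simp [d0f, hz]
  map_smul' c u := by
    apply Subtype.ext
    funext a z
    by_cases hz : z ∈ A.O a
    · funext j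
      have hu := (Sec_contDiffAt u.2 hz).differentiableAt (by simp)
      simp only [d0f, if_pos hz, Submodule.coe_smul, Pi.smul_apply, RingHom.id_apply]
      exact dzb_const_smul c hu j
    · simp [d0f, hz]

/-- `∂̄ : A^{0,1}(B) → A^{0,2}(B)` -/
def d1 : B.sb1.Sec →ₗ[ℂ] B.sb2.Sec where
  toFun u := ⟨d1f u.1, d1f_mem u.2⟩
  map_add' u v := by
    apply Subtype.ext
    funext a z
    by_cases hz : z ∈ A.O a
    · have hu : ∀ p, DifferentiableAt ℝ (fun y => u.1 a y p) z := fun p =>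
        differentiableAt_pi.1 ((Sec_contDiffAt u.2 hz).differentiableAt (by simp)) p
      have hv : ∀ p, DifferentiableAt ℝ (fun y => v.1 a y p) z := fun p =>
        differentiableAt_pi.1 ((Sec_contDiffAt v.2 hz).differentiableAt (by simp)) p
      simp only [d1f, if_pos hz, Submodule.coe_add, Pi.add_apply]
      rw [dzb_add (hu 1) (hv 1), dzb_add (hu 0) (hv 0)]
      abel
    · simp [d1f, hz]
  map_smul' c u := by
    apply Subtype.ext
    funext a z
    by_cases hz : z ∈ A.O a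
    · have hu : ∀ p, DifferentiableAt ℝ (fun y => u.1 a y p) z := fun p =>
        differentiableAt_pi.1 ((Sec_contDiffAt u.2 hz).differentiableAt (by simp)) p
      simp only [d1f, if_pos hz, Submodule.coe_smul, Pi.smul_apply, RingHom.id_apply]
      rw [dzb_const_smul c (hu 1), dzb_const_smul c (hu 0), smul_sub]
    · simp [d1f, hz]

theorem d1_d0 (u : B.sb0.Sec) : B.d1 (B.d0 u) = 0 := by
  apply Subtype.ext
  funext a z
  by_cases hz : z ∈ A.O a
  · have h2 : ContDiffAt ℝ 2 (u.1 a) z := (Sec_contDiffAt u.2 hz).of_le (by norm_cast)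
    have h : ∀ j, (fun y => d0f u.1 a y j) =ᶠ[𝓝 z] dzb j (u.1 a) := by
      intro j
      filter_upwards [(A.isOpen_O a).mem_nhds hz] with y hy
      simp [d0f, hy]
    change d1f (d0f u.1) a z = 0
    simp only [d1f, if_pos hz]
    rw [dzb_congr (h 1), dzb_congr (h 0), dzb_dzb_comm h2 0 1, sub_self]
  · change d1f (d0f u.1) a z = 0
    simp [d1f, hz]

/-! ### cohomology -/

/-- `dim H^0(B)` -/
def h0 : ℕ := Module.finrank ℂ (LinearMap.ker B.d0)

/-- `dim H^1(B)` -/
def h1 : ℕ := finrankCoh B.d0 B.d1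

/-- `dim H^2(B)` -/
def h2 : ℕ := Module.finrank ℂ (B.sb2.Sec ⧸ LinearMap.range B.d1)

/-- the Euler characteristic -/
def chi : ℤ := (B.h0 : ℤ) - B.h1 + B.h2

end Bun

/-- **The interface PS**: a parametrix of `∂̄` on sections of `B`, with sup-norm bounds, whose
remainders are smooth kernel operators: `P ∂̄ + ∂̄ P = 1 - S`. -/
structure PS (B : Bun A r) where
  P0 : B.sb1.Sec →ₗ[ℂ] B.sb0.Sec
  P1 : B.sb2.Sec →ₗ[ℂ] B.sb1.Sec
  bd0 : ∃ C : ℝ, ∀ (u : B.sb1.Sec) (M : ℝ), (∀ b, ∀ w ∈ A.K b, ‖u.1 b w‖ ≤ M) →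
    ∀ a, ∀ z ∈ A.K a, ‖(P0 u).1 a z‖ ≤ C * M
  bd1 : ∃ C : ℝ, ∀ (u : B.sb2.Sec) (M : ℝ), (∀ b, ∀ w ∈ A.K b, ‖u.1 b w‖ ≤ M) →
    ∀ a, ∀ z ∈ A.K a, ‖(P1 u).1 a z‖ ≤ C * M
  k0 : Kern B.sb0
  k1 : Kern B.sb1
  k2 : Kern B.sb2
  eq0 : ∀ u : B.sb0.Sec, (P0 (B.d0 u)).1 = u.1 - k0.op u.1
  eq1 : ∀ u : B.sb1.Sec, (B.d0 (P0 u)).1 + (P1 (B.d1 u)).1 = u.1 - k1.op u.1
  eq2 : ∀ u : B.sb2.Sec, (B.d1 (P1 u)).1 = u.1 - k2.op u.1

/-- the alternating trace density of the remainders, in the chart `a` -/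
def PS.dens {B : Bun A r} (P : PS B) (a : Fin A.N) (z : C2) : ℂ :=
  LinearMap.trace ℂ _ (P.k0.k a a z z : (Fin r → ℂ) →ₗ[ℂ] (Fin r → ℂ)) -
    LinearMap.trace ℂ _ (P.k1.k a a z z : (Fin 2 → Fin r → ℂ) →ₗ[ℂ] (Fin 2 → Fin r → ℂ)) +
    LinearMap.trace ℂ _ (P.k2.k a a z z : (Fin r → ℂ) →ₗ[ℂ] (Fin r → ℂ))

end hol

end Vale.Agent.P267.RR
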