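import Vale.Agent.P267.H221.Sys
import Vale.Agent.P267.H221.Trace

/-!
# P267, package RR: the compact space `Y` of a finite system of charts, its measure
-/

set_option linter.unusedVariables false
set_option linter.unusedSectionVars false

open scoped Manifold ContDiff ComplexConjugate Matrix Topology
open MeasureTheory Set Filter

noncomputable section

namespace Vale.Agent.P267.RR

open FL

variable {X : Type*} [TopologicalSpace X] [ChartedSpace C2 X]

namespace FinAt

variable {A : FinAt X}

section basics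

theorem tsupport_sub (a : Fin A.N) : tsupport (A.rho a) ⊆ (A.e a).source :=
  (A.rho_supp a).trans (A.U_sub a)

theorem K_sub_O (a : Fin A.N) : A.K a ⊆ A.O a := by
  rintro _ ⟨x, hx, rfl⟩
  exact mem_O (A.rho_supp a hx)

theorem isCompact_K [CompactSpace X] (a : Fin A.N) : IsCompact (A.K a) :=
  (isClosed_tsupport _).isCompact.image_of_continuousOn
    ((A.e a).continuousOn.mono (tsupport_sub a))

theorem r_eq {a : Fin A.N} {z : C2} (hz : z ∈ A.O a) : A.r a z = A.rho a ((A.e a).symm z) := by
  simp [r, hz]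

theorem r_zero {a : Fin A.N} {z : C2} (hz : z ∉ A.K a) : A.r a z = 0 := by
  by_cases h : z ∈ A.O a
  · rw [r_eq h]
    by_contra h0
    apply hz
    exact ⟨(A.e a).symm z, subset_tsupport _ h0, (A.e a).right_inv h.1⟩
  · simp [r, h]

theorem r_nonneg (a : Fin A.N) (z : C2) : 0 ≤ A.r a z := by
  unfold r
  split_ifs
  · exact A.rho_nonneg _ _
  · exact le_rfl

theorem r_contDiffOn (a : Fin A.N) : ContDiffOn ℝ ∞ (A.r a) (A.O a) := by
  have h := A.rho_smooth a (A.e a) (A.he a)
  rw [LB.loc0_zero] at h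
  have h2 : ContDiffOn ℝ ∞ (fun z => Complex.reCLM ((A.rho a ((A.e a).symm z) : ℂ))) (A.O a) :=
    Complex.reCLM.contDiff.comp_contDiffOn (h.mono fun z hz => hz.1)
  refine h2.congr fun z hz => ?_
  rw [r_eq hz]
  simp

theorem r_contDiff [CompactSpace X] (a : Fin A.N) : ContDiff ℝ ∞ (A.r a) := by
  rw [contDiff_iff_contDiffAt]
  intro z
  by_cases hz : z ∈ A.O a
  · exact (r_contDiffOn a).contDiffAt ((A.isOpen_O a).mem_nhds hz)
  · have h : (A.K a)ᶜ ∈ 𝓝 z :=
      (isCompact_K a).isClosed.isOpen_compl.mem_nhds fun h => hz (K_sub_O a h)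
    refine contDiffAt_const (c := (0 : ℝ)) |>.congr_of_eventuallyEq ?_
    filter_upwards [h] with w hw
    exact r_zero hw

theorem r_tau {a b : Fin A.N} {z : C2} (hz : z ∈ A.ov a b) :
    A.r b (A.tau a b z) = A.rho b ((A.e a).symm z) := by
  rw [r_eq (tau_mem_O hz), symm_tau hz]

theorem rho_zero_of_not_mem {b : Fin A.N} {x : X} (hx : x ∉ A.U b) : A.rho b x = 0 := by
  by_contra h
  exact hx (A.rho_supp b (subset_tsupport _ h))

open Classical in
theorem sum_r {a : Fin A.N} {z : C2} (hz : z ∈ A.O a) :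
    ∑ b, (if z ∈ A.ov a b then A.r b (A.tau a b z) else 0) = 1 := by
  rw [← A.rho_sum ((A.e a).symm z)]
  refine Finset.sum_congr rfl fun b _ => ?_
  split_ifs with h
  · exact r_tau h
  · exact (rho_zero_of_not_mem fun h' => h ⟨hz, h'⟩).symm

/-- every point lies in the interior part of some chart -/
theorem exists_pos (x : X) : ∃ b, 0 < A.rho b x := by
  by_contra h
  push Not at h
  have h1 : ∑ a, A.rho a x ≤ 0 := Finset.sum_nonpos fun a _ => h a
  rw [A.rho_sum] at h1
  exact absurd h1 (by norm_num)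

theorem exists_mem_K (a : Fin A.N) {z : C2} (hz : z ∈ A.O a) :
    ∃ b, z ∈ A.ov a b ∧ A.tau a b z ∈ A.K b ∧ 0 < A.r b (A.tau a b z) := by
  obtain ⟨b, hb⟩ := A.exists_pos ((A.e a).symm z)
  have h1 : (A.e a).symm z ∈ tsupport (A.rho b) := subset_tsupport _ hb.ne'
  have h2 : z ∈ A.ov a b := ⟨hz, A.rho_supp b h1⟩
  exact ⟨b, h2, ⟨_, h1, rfl⟩, by rwa [r_tau h2]⟩

end basics

/-! ### the compact space -/

variable (A)

/-- the disjoint union of the compact sets `K a` -/
abbrev Y : Type := {p : Fin A.N × C2 // p.2 ∈ A.K p.1}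

instance [CompactSpace X] : CompactSpace A.Y := by
  have h : {p : Fin A.N × C2 | p.2 ∈ A.K p.1} = ⋃ a, ({a} : Set (Fin A.N)) ×ˢ A.K a := by
    ext p
    simp
  have h2 : IsCompact {p : Fin A.N × C2 | p.2 ∈ A.K p.1} := by
    rw [h]
    exact isCompact_iUnion fun a => isCompact_singleton.prod (isCompact_K a)
  exact isCompact_iff_compactSpace.1 h2

instance : SecondCountableTopology A.Y := by
  have : SecondCountableTopology (Fin A.N) := inferInstance
  have : SecondCountableTopology C2 := inferInstance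
  have : SecondCountableTopology (Fin A.N × C2) := inferInstance
  exact TopologicalSpace.Subtype.secondCountableTopology {p : Fin A.N × C2 | p.2 ∈ A.K p.1}

/-- the inclusion of `K a` -/
def inc (a : Fin A.N) (w : A.K a) : A.Y := ⟨(a, w.1), w.2⟩

theorem continuous_inc (a : Fin A.N) : Continuous (A.inc a) := by
  unfold inc
  fun_prop

/-- the measure on `Y`: Lebesgue measure on each `K a` -/
def lam : Measure A.Y := ∑ a, (Measure.comap (Subtype.val : A.K a → C2) volume).map (A.inc a)

theorem emb_K [CompactSpace X] (a : Fin A.N) : MeasurableEmbedding (Subtype.val : A.K a → C2) :=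
  MeasurableEmbedding.subtype_coe (isCompact_K a).isClosed.measurableSet

instance [CompactSpace X] (a : Fin A.N) :
    IsFiniteMeasure (Measure.comap (Subtype.val : A.K a → C2) volume) := by
  refine ⟨?_⟩
  rw [(emb_K A a).comap_apply]
  refine lt_of_le_of_lt (measure_mono (t := A.K a) ?_) (isCompact_K a).measure_lt_top
  rintro _ ⟨w, _, rfl⟩
  exact w.2

instance [CompactSpace X] : IsFiniteMeasure A.lam := by
  refine ⟨?_⟩
  unfold lam
  rw [Measure.coe_finsetSum, Finset.sum_apply]
  exact ENNReal.sum_lt_top.2 fun a _ => measure_lt_top _ _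

/-- **the integral over `Y`** -/
theorem integral_lam [CompactSpace X] {E : Type*} [NormedAddCommGroup E] [NormedSpace ℝ E]
    {f : A.Y → E} (hf : Continuous f) (F : Fin A.N → C2 → E)
    (hF : ∀ a, ∀ w, (hw : w ∈ A.K a) → f ⟨(a, w), hw⟩ = F a w) :
    ∫ y, f y ∂A.lam = ∑ a, ∫ w in A.K a, F a w := by
  unfold lam
  rw [integral_finsetSum_measure]
  · refine Finset.sum_congr rfl fun a _ => ?_
    rw [integral_map (continuous_inc A a).measurable.aemeasurable hf.aestronglyMeasurable,
      ← integral_subtype_comap (isCompact_K a).isClosed.measurableSet]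
    refine integral_congr_ae (Filter.Eventually.of_forall fun w => ?_)
    exact hF a w.1 w.2
  · intro a _
    refine (integrable_map_measure hf.aestronglyMeasurable
      (continuous_inc A a).measurable.aemeasurable).2 ?_
    have h : Continuous (f ∘ A.inc a) := hf.comp (continuous_inc A a)
    have : CompactSpace (A.K a) := isCompact_iff_compactSpace.1 (isCompact_K a)
    exact h.integrable_of_hasCompactSupport (HasCompactSupport.of_compactSpace _)

variable {A}

theorem continuous_Y {E : Type*} [TopologicalSpace E] {F : Fin A.N → C2 → E}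
    (hF : ∀ a, ContinuousOn (F a) (A.K a)) : Continuous fun y : A.Y => F y.1.1 y.1.2 := by
  rw [continuous_iff_continuousAt]
  intro y0
  have hev : ∀ᶠ y : A.Y in 𝓝 y0, y.1.1 = y0.1.1 := by
    have h : IsOpen {y : A.Y | y.1.1 = y0.1.1} :=
      (isOpen_discrete ({y0.1.1} : Set (Fin A.N))).preimage
        (continuous_fst.comp continuous_subtype_val)
    exact h.mem_nhds rfl
  have h1 : ContinuousAt (fun y : A.Y => F y0.1.1 y.1.2) y0 := by
    have h2 := (hF y0.1.1) y0.1.2 y0.2
    refine Tendsto.comp (g := F y0.1.1) h2 ?_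
    rw [tendsto_nhdsWithin_iff]
    refine ⟨(continuous_snd.comp continuous_subtype_val).continuousAt, ?_⟩
    filter_upwards [hev] with y hy
    rw [← hy]
    exact y.2
  refine h1.congr ?_
  filter_upwards [hev] with y hy
  rw [hy]

theorem continuous_YZ {Z E : Type*} [TopologicalSpace Z] [TopologicalSpace E]
    {F : Fin A.N → C2 × Z → E}
    (hF : ∀ a, ContinuousOn (F a) (A.K a ×ˢ univ)) :
    Continuous fun p : A.Y × Z => F p.1.1.1 (p.1.1.2, p.2) := by
  rw [continuous_iff_continuousAt]
  rintro ⟨y0, z0⟩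
  have hev : ∀ᶠ p : A.Y × Z in 𝓝 (y0, z0), p.1.1.1 = y0.1.1 := by
    have h : IsOpen {y : A.Y | y.1.1 = y0.1.1} :=
      (isOpen_discrete ({y0.1.1} : Set (Fin A.N))).preimage
        (continuous_fst.comp continuous_subtype_val)
    exact (continuous_fst.tendsto (y0, z0)).eventually (h.mem_nhds rfl)
  have h1 : ContinuousAt (fun p : A.Y × Z => F y0.1.1 (p.1.1.2, p.2)) (y0, z0) := by
    have h2 := (hF y0.1.1) (y0.1.2, z0) ⟨y0.2, trivial⟩
    refine Tendsto.comp (g := F y0.1.1) h2 ?_
    rw [tendsto_nhdsWithin_iff]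
    refine ⟨Continuous.tendsto (by fun_prop) _, ?_⟩
    filter_upwards [hev] with p hp
    rw [← hp]
    exact ⟨p.1.2, trivial⟩
  refine h1.congr ?_
  filter_upwards [hev] with p hp
  rw [hp]

end FinAt

end Vale.Agent.P267.RR
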